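import Vale.Agent.P088.R2.H338.GD

/-!
# P088, stage 3, STEP3: interior coordinates for a general metric
-/

set_option linter.all false

open Bundle Manifold MeasureTheory Set Filter Topology
open scoped ContDiff Matrix

noncomputable section

namespace Vale.Agent.P088.R2.H338.T3

open Vale.Agent.P088 Vale.Agent.P088.EYM Vale.Agent.P088.EYM.O
open Vale.Agent.P088.R2.H31 (dj lap dj_congr dj_congr_ev lap_congr dj_mul lap_mul)
open Vale.Agent.P088.R2.H338 (pd_interior pd_tr trS trS_open add_mem_trS trS_rel tr_smooth thP jm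
  jm_det)

universe u

section local_

variable {n N : ℕ} [NeZero n]

/-- Local data with the trivial connection. -/
def gE (g : E n → Matrix (Fin n) (Fin n) ℝ) : LD n N where
  g := g
  B := fun _ _ => 0
  h := fun _ => 1

theorem gE_ok {D : Set (E n)} {g : E n → Matrix (Fin n) (Fin n) ℝ}
    (hg : ∀ i j, ContDiffOn ℝ ∞ (fun x => g x i j) D) (hp : ∀ x ∈ D, (g x).PosDef) :
    (gE g : LD n N).Ok D where
  g_smooth := hg
  g_pos := hp
  B_smooth := fun _ => contDiffOn_const
  h_smooth := contDiffOn_const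
  h_adj := fun x _ => ContinuousLinearMap.adjoint_id
  h_pos := fun x _ v hv => by
    show 0 < (inner ℂ v ((1 : EndF N) v) : ℂ).re
    have h2 : (inner ℂ v v : ℂ).re = ‖v‖ ^ 2 := inner_self_eq_norm_sq (𝕜 := ℂ) v
    rw [ContinuousLinearMap.one_apply, h2]
    have := norm_pos_iff.2 hv
    positivity
  compat := fun x _ j => by
    show pd j (fun _ => (1 : EndF N)) x = ContinuousLinearMap.adjoint 0 * 1 + 1 * 0
    rw [pd_const, map_zero, zero_mul, mul_zero, add_zero]

theorem nab_gE (g : E n → Matrix (Fin n) (Fin n) ℝ) (j : Fin n) (c : E n → Fib N) (x : E n) :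
    nab (gE g) j c x = pd j c x := by
  unfold nab
  show pd j c x + (0 : EndF N) (c x) = _
  rw [ContinuousLinearMap.zero_apply, add_zero]

theorem flux_gE (g : E n → Matrix (Fin n) (Fin n) ℝ) (j : Fin n) (c : E n → Fib N) (x : E n) :
    flux (gE g) j c x = ∑ k, gg g j k x • pd k c x := by
  unfold flux
  simp only [nab_gE]
  rfl

theorem ed_gE (g : E n → Matrix (Fin n) (Fin n) ℝ) (c d : E n → Fib N) (x : E n) :
    ed (gE g) c d x = ∑ j, ∑ k, (gg g j k x : ℂ) * inner ℂ (pd j c x) (pd k d x) := by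
  unfold ed
  have h1 : ∀ w : Fib N, (gE g).h x w = w := fun w => rfl
  simp only [nab_gE, h1]
  rfl

theorem Lop_gE (g : E n → Matrix (Fin n) (Fin n) ℝ) (c : E n → Fib N) (x : E n) :
    Lop (gE g) c x = ∑ j, pd j (fun y => ∑ k, gg g j k y • pd k c y) x := by
  unfold Lop
  refine Finset.sum_congr rfl fun j _ => ?_
  have h1 : (gE g).B j x (flux (gE g) j c x) = 0 := rfl
  rw [h1, add_zero]
  congr 1
  funext y
  exact flux_gE g j c y

/-- The operator `∑ ∂_j (∑_k a_jk ∂_k c)`. -/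
def dvF {F : Type*} [NormedAddCommGroup F] [NormedSpace ℝ F] (a : Fin n → Fin n → E n → ℝ)
    (c : E n → F) (y : E n) : F :=
  ∑ j, fderiv ℝ (fun y => ∑ k, a j k y • fderiv ℝ c y (ev k)) y (ev j)

/-- The operator in translated coordinates. -/
theorem Lop_trG {B : Set (E n)} (hB : IsOpen B) {z : E n} (hz : trS B z ⊆ {x | 0 < x 0})
    (g : E n → Matrix (Fin n) (Fin n) ℝ) (F : E n → Fib N) {y : E n} (hy : y ∈ B) :
    Lop (gE fun x => g (x - z)) (fun x => F (x - z)) (y + z) = dvF (gg g) F y := by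
  rw [Lop_gE]
  refine Finset.sum_congr rfl fun j _ => ?_
  have h1 : EqOn (fun x => ∑ k, gg (fun x => g (x - z)) j k x • pd k (fun x => F (x - z)) x)
      (fun x => (fun y => ∑ k, gg g j k y • fderiv ℝ F y (ev k)) (x - z)) (trS B z) := by
    intro x hx
    refine Finset.sum_congr rfl fun k _ => ?_
    have h2 := pd_tr F z (y := x - z) (by rw [sub_add_cancel]; exact hz hx) k
    rw [sub_add_cancel] at h2
    rw [h2]
    rfl
  rw [(trS_rel hB hz).pd_congr h1 (add_mem_trS hy)]
  exact pd_tr (fun y => ∑ k, gg g j k y • fderiv ℝ F y (ev k)) z (hz (add_mem_trS hy)) j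

/-- The energy density in translated coordinates. -/
theorem ed_trG {B : Set (E n)} {z : E n} (hz : trS B z ⊆ {x | 0 < x 0})
    (g : E n → Matrix (Fin n) (Fin n) ℝ) (F F' : E n → Fib N) {y : E n} (hy : y ∈ B) :
    ed (gE fun x => g (x - z)) (fun x => F (x - z)) (fun x => F' (x - z)) (y + z) =
      ∑ j, ∑ k, (gg g j k y : ℂ) * inner ℂ (fderiv ℝ F y (ev j)) (fderiv ℝ F' y (ev k)) := by
  have h0 := hz (add_mem_trS (z := z) hy)
  have h1 : ∀ j k, gg (fun x => g (x - z)) j k (y + z) = gg g j k y := by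
    intro j k
    unfold gg
    simp only [add_sub_cancel_right]
  rw [ed_gE]
  simp only [pd_tr F z h0, pd_tr F' z h0, h1]

end local_

/-- Interior coordinates in which the metric is `g`. -/
structure GIn {n N : ℕ} [NeZero n] {M : Type u} [TopologicalSpace M]
    [ChartedSpace (EuclideanHalfSpace n) M] [IsManifold (𝓡∂ n) ∞ M] [MeasurableSpace M]
    (P : One n N M) (p : M) (D : Set (E n)) (X Y : E n → E n)
    (g : E n → Matrix (Fin n) (Fin n) ℝ) (B : Set (E n)) : Prop where
  opD : IsOpen D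
  sub : D ⊆ tg n p
  opB : IsOpen B
  mapsX : MapsTo X D B
  mapsY : MapsTo Y B D
  inv1 : ∀ x ∈ D, Y (X x) = x
  inv2 : ∀ y ∈ B, X (Y y) = y
  smX : ContDiffOn ℝ ∞ X D
  smY : ContDiffOn ℝ ∞ Y B
  met : ∀ y ∈ B, g y = (jm Y y).transpose * (P.loc p).g (Y y) * jm Y y

section

variable {n N : ℕ} [NeZero n] {M : Type u} [TopologicalSpace M]
  [ChartedSpace (EuclideanHalfSpace n) M] [IsManifold (𝓡∂ n) ∞ M]
variable [MeasurableSpace M] {P : One n N M} {p : M} {D : Set (E n)} {X Y : E n → E n}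
  {g : E n → Matrix (Fin n) (Fin n) ℝ} {B : Set (E n)}

theorem GIn.relD (h : GIn P p D X Y g B) : RelOpen D :=
  CHarm_relOpen_of_open h.opD (h.sub.trans ((TM.fLoc n N M).1 p).subset)

theorem GIn.okL (h : GIn P p D X Y g B) : (P.loc p).Ok D :=
  CHarm_ok_mono ((TM.fLoc n N M).2.1 P p) h.sub

theorem GIn.diffY (h : GIn P p D X Y g B) {y : E n} (hy : y ∈ B) :
    HasFDerivAt Y (fderiv ℝ Y y) y :=
  ((h.smY.contDiffAt (h.opB.mem_nhds hy)).differentiableAt (by simp)).hasFDerivAt

theorem GIn.diffX (h : GIn P p D X Y g B) {x : E n} (hx : x ∈ D) :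
    HasFDerivAt X (fderiv ℝ X x) x :=
  ((h.smX.contDiffAt (h.opD.mem_nhds hx)).differentiableAt (by simp)).hasFDerivAt

theorem GIn.det_ne (h : GIn P p D X Y g B) {y : E n} (hy : y ∈ B) : (jm Y y).det ≠ 0 := by
  have h1 : HasFDerivAt (fun y => X (Y y)) ((fderiv ℝ X (Y y)).comp (fderiv ℝ Y y)) y :=
    (h.diffX (h.mapsY hy)).comp y (h.diffY hy)
  have h2 : (fun y => X (Y y)) =ᶠ[𝓝 y] fun y => y := by
    filter_upwards [h.opB.mem_nhds hy] with y' hy'
    exact h.inv2 y' hy'
  have h3 : (fderiv ℝ X (Y y)).comp (fderiv ℝ Y y) = ContinuousLinearMap.id ℝ (E n) :=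
    (h1.congr_of_eventuallyEq h2.symm).unique (hasFDerivAt_id y)
  rw [← jm_det]
  intro h0
  have h4 : ((fderiv ℝ X (Y y)).comp (fderiv ℝ Y y)).det = 1 := by
    rw [h3]
    exact LinearMap.det_id
  have h5 : ((fderiv ℝ X (Y y)).comp (fderiv ℝ Y y)).det =
      (fderiv ℝ X (Y y)).det * (fderiv ℝ Y y).det := by
    unfold ContinuousLinearMap.det
    exact LinearMap.det_comp _ _
  rw [h5, h0, mul_zero] at h4
  exact zero_ne_one h4

theorem GIn.posDef (h : GIn P p D X Y g B) {y : E n} (hy : y ∈ B) : (g y).PosDef := by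
  rw [h.met y hy]
  have h1 := h.okL.g_pos (Y y) (h.mapsY hy)
  have h2 := h1.conjTranspose_mul_mul_same (B := jm Y y) (by
    have h3 : IsUnit (jm Y y) := (Matrix.isUnit_iff_isUnit_det _).2
      (isUnit_iff_ne_zero.2 (h.det_ne hy))
    exact Matrix.mulVec_injective_of_isUnit h3)
  rwa [Matrix.conjTranspose_eq_transpose_of_trivial] at h2

theorem GIn.sm_jm (h : GIn P p D X Y g B) (i j : Fin n) :
    ContDiffOn ℝ ∞ (fun y => jm Y y i j) B := by
  have h1 : ContDiffOn ℝ ∞ (fun y => fderiv ℝ Y y (ev j)) B :=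
    (h.smY.fderiv_of_isOpen h.opB (m := ∞) (by simp)).clm_apply contDiffOn_const
  exact (EuclideanSpace.proj (𝕜 := ℝ) i).contDiff.comp_contDiffOn h1

theorem GIn.smg (h : GIn P p D X Y g B) (i j : Fin n) : ContDiffOn ℝ ∞ (fun y => g y i j) B := by
  have h1 : ∀ i j, ContDiffOn ℝ ∞ (fun y => (P.loc p).g (Y y) i j) B := fun i j =>
    (h.okL.g_smooth i j).comp h.smY fun y hy => h.mapsY hy
  have h2 : ContDiffOn ℝ ∞
      (fun y => ((jm Y y).transpose * (P.loc p).g (Y y) * jm Y y) i j) B := by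
    simp only [Matrix.mul_apply, Matrix.transpose_apply]
    exact ContDiffOn.sum fun k _ => (ContDiffOn.sum fun l _ =>
      (h.sm_jm l i).mul (h1 l k)).mul (h.sm_jm k j)
  exact h2.congr fun y hy => by rw [h.met y hy]

theorem GIn.detE (h : GIn P p D X Y g B) {y : E n} (hy : y ∈ B) :
    |(jm Y y).det| * √((P.loc p).g (Y y)).det = √(g y).det := by
  have h1 := congrArg Matrix.det (h.met y hy)
  rw [Matrix.det_mul, Matrix.det_mul, Matrix.det_transpose] at h1
  rw [h1, mul_right_comm, Real.sqrt_mul (mul_self_nonneg _), Real.sqrt_mul_self_eq_abs]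

theorem GIn.okE (h : GIn P p D X Y g B) (z : E n) :
    (gE (fun x => g (x - z)) : LD n N).Ok (trS B z) :=
  gE_ok (fun i j => tr_smooth (h.smg i j)) fun x hx => h.posDef hx

/-- A pull back to the translated set. -/
theorem GIn.pull (h : GIn P p D X Y g B) (hA : ∀ x X, P.A.form x X = 0) {z : E n}
    (hz : trS B z ⊆ {x | 0 < x 0}) :
    IsPull (gE fun x => g (x - z)) (P.loc p) (trS B z) D (fun x => Y (x - z))
      (fun x => X x + z) (fun _ => 1) where
  diffeo :=
    { mapsX := fun x hx => h.mapsY hx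
      mapsY := fun x hx => add_mem_trS (h.mapsX hx)
      inv1 := fun x hx => by
        show X (Y (x - z)) + z = x
        rw [h.inv2 _ hx, sub_add_cancel]
      inv2 := fun x hx => by
        show Y (X x + z - z) = x
        rw [add_sub_cancel_right, h.inv1 x hx]
      smX := tr_smooth h.smY
      smY := h.smX.add contDiffOn_const }
  smS := contDiffOn_const
  unit := fun _ _ => isUnit_one
  g_eq := fun x hx => by
    have hx' : x - z ∈ B := hx
    have h1 : Jac (fun x => Y (x - z)) x = jm Y (x - z) := by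
      ext i j
      have h3 : 0 < ((x - z) + z) 0 := by rw [sub_add_cancel]; exact hz hx
      have h2 := pd_tr (fun y => Y y i) z h3 j
      rw [sub_add_cancel] at h2
      unfold Jac jm
      simp only [Matrix.of_apply]
      rw [h2]
      have h4 : HasFDerivAt (fun y => Y y i)
          ((EuclideanSpace.proj (𝕜 := ℝ) i).comp (fderiv ℝ Y (x - z))) (x - z) :=
        (EuclideanSpace.proj (𝕜 := ℝ) i).hasFDerivAt.comp (x - z) (h.diffY hx')
      rw [h4.fderiv]
      rfl
    rw [h1]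
    exact h.met _ hx'
  B_eq := fun x hx j => by
    have h1 : ∀ k, (P.loc p).B k (Y (x - z)) = 0 := fun k => hA _ _
    show pd j (fun _ => (1 : EndF N)) x + 0 * 1 = 1 * ∑ k, Jac _ x k j • (P.loc p).B k (Y (x - z))
    simp only [h1, pd_const, smul_zero, Finset.sum_const_zero, mul_zero, zero_mul, add_zero]
  h_eq := fun x hx => by
    show ContinuousLinearMap.adjoint (1 : EndF N) * 1 * 1 = 1
    rw [mul_one, mul_one]
    exact ContinuousLinearMap.adjoint_id

theorem GIn.smU (h : GIn P p D X Y g B) {u : M → Fib N} (hu : SmS n u) :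
    ContDiffOn ℝ ∞ (fun y => u (thP n p Y y)) B := by
  have h1 : ContDiffOn ℝ ∞ (lu (𝓡∂ n) p u) (tg n p) := (TM.fLoc n N M).2.2.2 u hu p
  exact h1.comp h.smY fun y hy => h.sub (h.mapsY hy)

theorem GIn.smL (h : GIn P p D X Y g B) {u : M → Fib N} (hu : SmS n u) :
    ContDiffOn ℝ 1 (lu (𝓡∂ n) p u) D :=
  (((TM.fLoc n N M).2.2.2 u hu p).mono h.sub).of_le (by simp)

/-- Points of the coordinate domain are interior points. -/
theorem GIn.int (h : GIn P p D X Y g B) {y : E n} (hy : y ∈ B) : 0 < (Y y) 0 := by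
  by_contra hc
  push Not at hc
  have hD := h.mapsY hy
  have ht : Tendsto (fun t : ℝ => Y y - t • (ev 0 : E n)) (𝓝[>] 0) (𝓝 (Y y)) := by
    have h1 : Continuous (fun t : ℝ => Y y - t • (ev 0 : E n)) := by fun_prop
    have h2 := h1.tendsto 0
    simp only [zero_smul, sub_zero] at h2
    exact h2.mono_left nhdsWithin_le_nhds
  obtain ⟨t, h1, h2⟩ := ((ht.eventually (h.opD.mem_nhds hD)).and self_mem_nhdsWithin).exists
  have h3 : 0 < t := h2
  have h4 : 0 ≤ (Y y - t • (ev 0 : E n)) 0 :=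
    ((TM.fLoc n N M).1 p).subset (h.sub h1)
  simp only [PiLp.sub_apply, PiLp.smul_apply, ev_apply, if_true, smul_eq_mul, mul_one] at h4
  linarith

theorem GIn.mem_src (h : GIn P p D X Y g B) {y : E n} (hy : y ∈ B) :
    thP n p Y y ∈ (xc n p).source := (xc n p).map_target (h.sub (h.mapsY hy))

theorem GIn.mem_int (h : GIn P p D X Y g B) {y : E n} (hy : y ∈ B) : thP n p Y y ∈ Mi n M := by
  have h1 := h.mem_src hy
  have h2 := (TM.fLoc n N M).2.2.1 p _ h1
  have h3 : xc n p (thP n p Y y) = Y y := (xc n p).right_inv (h.sub (h.mapsY hy))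
  rw [h3] at h2
  have h4 : thP n p Y y ∉ (𝓡∂ n).boundary M := fun h5 => (h.int hy).ne' (h2.1 h5)
  rwa [← ModelWithCorners.compl_interior, mem_compl_iff, not_not] at h4

theorem GIn.inj (h : GIn P p D X Y g B) : InjOn (thP n p Y) B := by
  intro y hy y' hy' he
  have h1 : Y y = Y y' := (xc n p).symm.injOn (h.sub (h.mapsY hy)) (h.sub (h.mapsY hy')) he
  rw [← h.inv2 y hy, h1, h.inv2 y' hy']

theorem GIn.contTh (h : GIn P p D X Y g B) : ContinuousOn (thP n p Y) B :=
  (continuousOn_extChartAt_symm p).comp h.smY.continuousOn fun y hy => h.sub (h.mapsY hy)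

/-- The energy density. -/
theorem GIn.pairing (h : GIn P p D X Y g B) (hA : ∀ x X, P.A.form x X = 0) {z : E n}
    (hz : trS B z ⊆ {x | 0 < x 0}) {u v : M → Fib N} (hu : SmS n u) (hv : SmS n v) {y : E n}
    (hy : y ∈ B) :
    (√(g y).det : ℂ) * Vale.Agent.P088.pairing P.g P.A u v (thP n p Y y) =
      ∑ j, ∑ k, (gg g j k y : ℂ) * inner ℂ (fderiv ℝ (fun y => u (thP n p Y y)) y (ev j))
        (fderiv ℝ (fun y => v (thP n p Y y)) y (ev k)) := by
  have h1 := ed_pull (trS_rel h.opB hz) h.relD (h.okE z) h.okL (h.pull hA hz) (h.smL hu)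
    (h.smL hv) (add_mem_trS (z := z) hy)
  have h2 := ed_trG (N := N) hz g (fun y => u (thP n p Y y)) (fun y => v (thP n p Y y)) hy
  have h3 : (fun x : E n => (1 : EndF N) (lu (𝓡∂ n) p u (Y (x - z)))) =
    fun x => u (thP n p Y (x - z)) := rfl
  have h4 : (fun x : E n => (1 : EndF N) (lu (𝓡∂ n) p v (Y (x - z)))) =
    fun x => v (thP n p Y (x - z)) := rfl
  rw [h3, h4, h2] at h1
  have h5 := CEnergy_ed P p hu hv (h.sub (h.mapsY hy))
  rw [h1]
  simp only [add_sub_cancel_right]
  rw [h5]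
  have h6 : Jac (fun x => Y (x - z)) (y + z) = jm Y y := by
    ext i j
    have h2 := pd_tr (fun y => Y y i) z (hz (add_mem_trS hy)) j
    unfold Jac jm
    simp only [Matrix.of_apply]
    rw [h2]
    have h4 : HasFDerivAt (fun y => Y y i)
        ((EuclideanSpace.proj (𝕜 := ℝ) i).comp (fderiv ℝ Y y)) y :=
      (EuclideanSpace.proj (𝕜 := ℝ) i).hasFDerivAt.comp y (h.diffY hy)
    rw [h4.fderiv]
    rfl
  rw [h6, ← mul_assoc, ← h.detE hy]
  push_cast
  rfl

/-- Solutions in the coordinates. -/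
theorem GIn.harm [T2Space M] [CompactSpace M] [BorelSpace M] (h : GIn P p D X Y g B)
    (hA : ∀ x X, P.A.form x X = 0) {z : E n}
    (hz : trS B z ⊆ {x | 0 < x 0}) {f u : M → Fib N} (hu : P.Harm f u) {y : E n} (hy : y ∈ B) :
    dvF (gg g) (fun y => u (thP n p Y y)) y = 0 := by
  have h1 : Sol (P.loc p) D (lu (𝓡∂ n) p u) := by
    have := TM.fHarm n N M P f u hu p
    exact ⟨this.1.mono h.sub, fun x hx => this.2 x (h.sub hx)⟩
  have h2 := bSymm n N _ _ _ _ _ _ _ (trS_rel h.opB hz) h.relD (h.pull hA hz)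
  have h3 : EqOn (lu (𝓡∂ n) p u) (fun x => Ring.inverse ((fun _ : E n => (1 : EndF N)) (X x + z))
      ((fun x => u (thP n p Y (x - z))) (X x + z))) D := by
    intro x hx
    simp only [Ring.inverse_one]
    show lu (𝓡∂ n) p u x = u (thP n p Y (X x + z - z))
    rw [add_sub_cancel_right]
    unfold thP
    rw [h.inv1 x hx]
    rfl
  have h4 := bSol n N _ _ _ _ _ _ _ h.relD (trS_rel h.opB hz) h.okL (h.okE z) h2
    (fun x => u (thP n p Y (x - z))) (cERel_sol_congr _ h.relD h3 h1)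
    (tr_smooth (h.smU hu.smooth))
  have h5 := h4.2 (y + z) (add_mem_trS hy)
  rw [Lop_trG h.opB hz g (fun y => u (thP n p Y y)) hy] at h5
  exact h5

/-- Integrals in the coordinates. -/
theorem GIn.integral [T2Space M] [CompactSpace M] [BorelSpace M] (h : GIn P p D X Y g B)
    {S : Set (E n)} (hS : MeasurableSet S) (hSB : S ⊆ B) {G : M → ℝ} (hG : Continuous G) :
    MeasurableSet (thP n p Y '' S) ∧ ∫ x in thP n p Y '' S, G x ∂P.μ =
      ∫ y in S, √(g y).det * G (thP n p Y y) := by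
  have hinj : InjOn Y S := fun y hy y' hy' he => by
    rw [← h.inv2 y (hSB hy), he, h.inv2 y' (hSB hy')]
  have hDm : MeasurableSet (Y '' S) :=
    hS.image_of_continuousOn_injOn (h.smY.continuousOn.mono hSB) hinj
  have hDs : Y '' S ⊆ tg n p := by
    rintro _ ⟨y, hy, rfl⟩
    exact h.sub (h.mapsY (hSB hy))
  obtain ⟨hm, hI⟩ := (TM.fInt n N M P).2.2 p (Y '' S) hDm hDs
  have him : thP n p Y '' S = (xc n p).symm '' (Y '' S) := by
    rw [image_image]
    rfl
  rw [him]
  refine ⟨hm, ?_⟩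
  have h1 := hI (fun x => (G x : ℂ)) (Complex.continuous_ofReal.comp hG).aestronglyMeasurable
  rw [integral_image_eq_integral_abs_det_fderiv_smul volume hS
    (fun y hy => (h.diffY (hSB hy)).hasFDerivWithinAt) hinj] at h1
  have h2 : ∫ y in S, |(fderiv ℝ Y y).det| •
      ((√((P.loc p).g (Y y)).det : ℂ) * (G ((xc n p).symm (Y y)) : ℂ)) =
      ∫ y in S, ((√(g y).det * G (thP n p Y y) : ℝ) : ℂ) := by
    refine setIntegral_congr_fun hS fun y hy => ?_
    show |(fderiv ℝ Y y).det| • _ = _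
    rw [jm_det, ← h.detE (hSB hy), Complex.real_smul]
    push_cast
    rw [mul_assoc]
    rfl
  rw [h2, integral_complex_ofReal, integral_complex_ofReal] at h1
  exact_mod_cast h1

end

end Vale.Agent.P088.R2.H338.T3

end
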