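import Vale.Agent.P088.R2.H338.T.A
import Vale.Agent.P088.R2.H338.GC

/-!
# P088, stage 3, STEP3: extension by zero, energies, the equation for quotients of solutions
-/

set_option linter.all false

open Bundle Manifold MeasureTheory Set Filter Topology Metric
open scoped ContDiff Matrix

noncomputable section

namespace Vale.Agent.P088.R2.H338.T3

open Vale.Agent.P088 Vale.Agent.P088.EYM Vale.Agent.P088.EYM.O
open Vale.Agent.P088.R2.H31 (dj lap dj_congr dj_congr_ev lap_congr dj_mul lap_mul)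
open Vale.Agent.P088.R2.H338 (pd_interior pd_tr trS trS_open add_mem_trS trS_rel tr_smooth thP jm
  jm_det setIntegral_tr cmp cmp_apply cmp_le cmp_eN)

universe u

section euclid

variable {n N : ℕ} [NeZero n] {F G : Type*} [NormedAddCommGroup F] [NormedSpace ℝ F]
  [NormedAddCommGroup G] [NormedSpace ℝ G] {B : Set (E n)} {a : Fin n → Fin n → E n → ℝ}

theorem fdir_smooth (hB : IsOpen B) {c : E n → F} (hc : ContDiffOn ℝ ∞ c B) (j : Fin n) :
    ContDiffOn ℝ ∞ (fun y => fderiv ℝ c y (ev j)) B :=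
  (hc.fderiv_of_isOpen hB (m := ∞) (by simp)).clm_apply contDiffOn_const

theorem diffAt (hB : IsOpen B) {c : E n → F} (hc : ContDiffOn ℝ ∞ c B) {y : E n} (hy : y ∈ B) :
    DifferentiableAt ℝ c y := (hc.contDiffAt (hB.mem_nhds hy)).differentiableAt (by simp)

/-- The flux `∑_k a_jk ∂_k c`. -/
def flF (a : Fin n → Fin n → E n → ℝ) (c : E n → F) (j : Fin n) (y : E n) : F :=
  ∑ k, a j k y • fderiv ℝ c y (ev k)

theorem dvF_eq (a : Fin n → Fin n → E n → ℝ) (c : E n → F) (y : E n) :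
    dvF a c y = ∑ j, fderiv ℝ (flF a c j) y (ev j) := rfl

theorem flF_smooth (hB : IsOpen B) (ha : ∀ j k, ContDiffOn ℝ ∞ (a j k) B) {c : E n → F}
    (hc : ContDiffOn ℝ ∞ c B) (j : Fin n) : ContDiffOn ℝ ∞ (flF a c j) B :=
  ContDiffOn.sum fun k _ => (ha j k).smul (fdir_smooth hB hc k)

theorem flF_congr {c d : E n → F} {y : E n} (h : c =ᶠ[𝓝 y] d) (j : Fin n) :
    flF a c j y = flF a d j y := by
  unfold flF
  rw [h.fderiv_eq]

theorem dvF_congr {c d : E n → F} {y : E n} (h : c =ᶠ[𝓝 y] d) : dvF a c y = dvF a d y := by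
  rw [dvF_eq, dvF_eq]
  refine Finset.sum_congr rfl fun j _ => ?_
  have h1 : flF a c j =ᶠ[𝓝 y] flF a d j := by
    filter_upwards [h.eventually_nhds] with x hx
    exact flF_congr hx j
  rw [h1.fderiv_eq]

theorem dvF_cont (hB : IsOpen B) (ha : ∀ j k, ContDiffOn ℝ ∞ (a j k) B) {c : E n → F}
    (hc : ContDiffOn ℝ ∞ c B) : ContinuousOn (dvF a c) B := by
  unfold dvF
  exact continuousOn_finsetSum _ fun j _ =>
    (fdir_smooth hB (flF_smooth hB ha hc j) j).continuousOn

theorem dvF_zero {c : E n → F} {y : E n} (hy : y ∉ tsupport c) : dvF a c y = 0 := by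
  rw [dvF_congr (notMem_tsupport_iff_eventuallyEq.1 hy)]
  have h1 : ∀ j, flF a (0 : E n → F) j = fun _ => 0 := by
    intro j
    funext x
    unfold flF
    have : fderiv ℝ (0 : E n → F) x = 0 := by
      have := fderiv_const (𝕜 := ℝ) (E := E n) (0 : F)
      exact congrFun this x
    rw [this]
    simp
  rw [dvF_eq]
  refine Finset.sum_eq_zero fun j _ => ?_
  rw [h1 j]
  simp

theorem dvF_clm (L : F →L[ℝ] G) (hB : IsOpen B) (ha : ∀ j k, ContDiffOn ℝ ∞ (a j k) B)
    {c : E n → F} (hc : ContDiffOn ℝ ∞ c B) {y : E n} (hy : y ∈ B) :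
    dvF a (fun y => L (c y)) y = L (dvF a c y) := by
  have h0 : ∀ {c : E n → F} {x : E n}, DifferentiableAt ℝ c x → ∀ v,
      fderiv ℝ (fun y => L (c y)) x v = L (fderiv ℝ c x v) := by
    intro c x hc v
    have h1 := L.hasFDerivAt.comp x hc.hasFDerivAt
    have h2 : fderiv ℝ (fun y => L (c y)) x = L.comp (fderiv ℝ c x) := h1.fderiv
    rw [h2]
    rfl
  rw [dvF_eq, dvF_eq, map_sum]
  refine Finset.sum_congr rfl fun j _ => ?_
  rw [← h0 (diffAt hB (flF_smooth hB ha hc j) hy)]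
  have h1 : flF a (fun y => L (c y)) j =ᶠ[𝓝 y] fun y => L (flF a c j y) := by
    filter_upwards [hB.mem_nhds hy] with x hx
    unfold flF
    rw [map_sum]
    refine Finset.sum_congr rfl fun k _ => ?_
    rw [h0 (diffAt hB hc hx), map_smul]
  rw [h1.fderiv_eq]

theorem fd_mul' {u v : E n → ℝ} {y : E n} (hu : DifferentiableAt ℝ u y)
    (hv : DifferentiableAt ℝ v y) (w : E n) :
    fderiv ℝ (fun y => u y * v y) y w = u y * fderiv ℝ v y w + v y * fderiv ℝ u y w := by
  rw [fderiv_fun_mul hu hv]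
  simp

/-- The operator for a quotient. -/
theorem dvF_quot (hB : IsOpen B) (ha : ∀ j k, ContDiffOn ℝ ∞ (a j k) B)
    (hs : ∀ j k, ∀ y ∈ B, a j k y = a k j y) {s v : E n → ℝ} (hss : ContDiffOn ℝ ∞ s B)
    (hv : ContDiffOn ℝ ∞ v B) {y : E n} (hy : y ∈ B) :
    dvF (fun j k y => s y ^ 2 * a j k y) v y =
      s y * dvF a (fun y => s y * v y) y - s y * v y * dvF a s y := by
  have hS := flF_smooth hB ha hss
  have hV := flF_smooth hB ha hv
  have ds := diffAt hB hss hy
  have dv := diffAt hB hv hy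
  have e1 : ∀ j, fderiv ℝ (flF (fun j k y => s y ^ 2 * a j k y) v j) y (ev j) =
      2 * s y * fderiv ℝ s y (ev j) * flF a v j y + s y ^ 2 * fderiv ℝ (flF a v j) y (ev j) := by
    intro j
    have h1 : flF (fun j k y => s y ^ 2 * a j k y) v j = fun y => s y ^ 2 * flF a v j y := by
      funext x
      unfold flF
      rw [Finset.mul_sum]
      refine Finset.sum_congr rfl fun k _ => ?_
      simp only [smul_eq_mul]
      ring
    have dp : DifferentiableAt ℝ (fun y => s y ^ 2) y := ds.pow 2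
    rw [h1, fd_mul' dp (diffAt hB (hV j) hy)]
    have h2 : fderiv ℝ (fun y => s y ^ 2) y (ev j) = 2 * s y * fderiv ℝ s y (ev j) := by
      have h3 : (fun y => s y ^ 2) = fun y => s y * s y := by
        funext x
        ring
      rw [h3, fd_mul' ds ds]
      ring
    rw [h2]
    ring
  have e2 : ∀ j, fderiv ℝ (flF a (fun y => s y * v y) j) y (ev j) =
      (v y * fderiv ℝ (flF a s j) y (ev j) + flF a s j y * fderiv ℝ v y (ev j)) +
        (s y * fderiv ℝ (flF a v j) y (ev j) + flF a v j y * fderiv ℝ s y (ev j)) := by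
    intro j
    have h1 : flF a (fun y => s y * v y) j =ᶠ[𝓝 y]
        fun y => v y * flF a s j y + s y * flF a v j y := by
      filter_upwards [hB.mem_nhds hy] with x hx
      unfold flF
      rw [Finset.mul_sum, Finset.mul_sum, ← Finset.sum_add_distrib]
      refine Finset.sum_congr rfl fun k _ => ?_
      rw [fd_mul' (diffAt hB hss hx) (diffAt hB hv hx)]
      simp only [smul_eq_mul]
      ring
    have d1 : DifferentiableAt ℝ (fun y => v y * flF a s j y) y := dv.mul (diffAt hB (hS j) hy)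
    have d2 : DifferentiableAt ℝ (fun y => s y * flF a v j y) y := ds.mul (diffAt hB (hV j) hy)
    rw [h1.fderiv_eq, fderiv_fun_add d1 d2, ContinuousLinearMap.add_apply,
      fd_mul' dv (diffAt hB (hS j) hy), fd_mul' ds (diffAt hB (hV j) hy)]
  have e3 : ∑ j, flF a s j y * fderiv ℝ v y (ev j) =
      ∑ j, flF a v j y * fderiv ℝ s y (ev j) := by
    unfold flF
    simp only [Finset.sum_mul, smul_eq_mul]
    rw [Finset.sum_comm]
    refine Finset.sum_congr rfl fun j _ => Finset.sum_congr rfl fun k _ => ?_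
    rw [hs k j y hy]
    ring
  rw [dvF_eq, dvF_eq, dvF_eq]
  simp only [e1, e2, Finset.sum_add_distrib]
  rw [e3]
  simp only [mul_add, Finset.mul_sum]
  have e4 : ∑ j, s y * (v y * fderiv ℝ (flF a s j) y (ev j)) =
      ∑ j, s y * v y * fderiv ℝ (flF a s j) y (ev j) :=
    Finset.sum_congr rfl fun j _ => by ring
  have e5 : ∑ j, 2 * s y * fderiv ℝ s y (ev j) * flF a v j y =
      (∑ j, s y * (flF a v j y * fderiv ℝ s y (ev j))) +
        ∑ j, s y * (flF a v j y * fderiv ℝ s y (ev j)) := by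
    rw [← Finset.sum_add_distrib]
    exact Finset.sum_congr rfl fun j _ => by ring
  have e6 : ∑ j, s y ^ 2 * fderiv ℝ (flF a v j) y (ev j) =
      ∑ j, s y * (s y * fderiv ℝ (flF a v j) y (ev j)) :=
    Finset.sum_congr rfl fun j _ => by ring
  rw [e4, e5, e6]
  ring

end euclid

theorem trS_ballG {n : ℕ} [NeZero n] {b z : E n} {r : ℝ}
    (hz : trS (ball b r) z ⊆ {x | 0 < x 0}) : trS (ball b r) z = HB (b + z) r := by
  ext x
  have h1 : x ∈ trS (ball b r) z ↔ x ∈ ball (b + z) r := by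
    unfold trS
    rw [mem_ofPred_eq, mem_ball_iff_norm, mem_ball_iff_norm]
    have : x - z - b = x - (b + z) := by abel
    rw [this]
  constructor
  · intro hx
    exact ⟨h1.1 hx, le_of_lt (show 0 < x 0 from hz hx)⟩
  · intro hx
    exact h1.2 hx.1

section

variable {n N : ℕ} [NeZero n] {M : Type u} [TopologicalSpace M]
  [ChartedSpace (EuclideanHalfSpace n) M] [IsManifold (𝓡∂ n) ∞ M]
variable [MeasurableSpace M] {P : One n N M} {p : M} {D : Set (E n)} {X Y : E n → E n}
  {g : E n → Matrix (Fin n) (Fin n) ℝ} {B : Set (E n)}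

theorem GIn.sm_gg (h : GIn P p D X Y g B) (j k : Fin n) : ContDiffOn ℝ ∞ (gg g j k) B := by
  have h1 : ContDiffOn ℝ ∞ (fun y => (g y).det) B := by
    simp only [Matrix.det_apply']
    exact ContDiffOn.sum fun σ _ => contDiffOn_const.mul
      (contDiffOn_prod fun i _ => h.smg _ _)
  have h2 : ContDiffOn ℝ ∞ (fun y => (g y).adjugate j k) B := by
    simp only [Matrix.adjugate_apply, Matrix.det_apply']
    refine ContDiffOn.sum fun σ _ => contDiffOn_const.mul (contDiffOn_prod fun i _ => ?_)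
    by_cases hi : σ i = k
    · simp only [hi, Matrix.updateRow_self]
      exact contDiffOn_const
    · simp only [Matrix.updateRow_ne hi]
      exact h.smg _ _
  have h3 : ContDiffOn ℝ ∞ (fun y => √(g y).det * ((g y).det⁻¹ * (g y).adjugate j k)) B :=
    (h1.sqrt fun y hy => (h.posDef hy).det_pos.ne').mul
      ((h1.inv fun y hy => (h.posDef hy).det_pos.ne').mul h2)
  refine h3.congr fun y hy => ?_
  unfold gg
  rw [Matrix.inv_def, Ring.inverse_eq_inv']
  rfl

theorem GIn.ds_smooth (h : GIn P p D X Y g B) : ContDiffOn ℝ ∞ (fun y => √(g y).det) B := by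
  have h1 : ContDiffOn ℝ ∞ (fun y => (g y).det) B := by
    simp only [Matrix.det_apply']
    exact ContDiffOn.sum fun σ _ => contDiffOn_const.mul
      (contDiffOn_prod fun i _ => h.smg _ _)
  exact h1.sqrt fun y hy => (h.posDef hy).det_pos.ne'

theorem GIn.ds_pos (h : GIn P p D X Y g B) {y : E n} (hy : y ∈ B) : 0 < √(g y).det :=
  Real.sqrt_pos.2 (h.posDef hy).det_pos

theorem GIn.symm_g (h : GIn P p D X Y g B) {y : E n} (hy : y ∈ B) : (g y)ᵀ = g y := by
  have h1 := (h.posDef hy).isHermitian.eq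
  rwa [Matrix.conjTranspose_eq_transpose_of_trivial] at h1

/-- Extension by zero. -/
theorem GIn.ext [T2Space M] (h : GIn P p D X Y g B) {b : E n → Fib N} (hb : ContDiff ℝ ∞ b)
    (hc : HasCompactSupport b) (hs : tsupport b ⊆ B) :
    ∃ T : M → Fib N, SmS n T ∧ (∀ y ∈ B, T (thP n p Y y) = b y) ∧
      (∀ x, x ∉ thP n p Y '' tsupport b → T x = 0) ∧ tsupport T ⊆ thP n p Y '' tsupport b ∧
      ∀ x ∈ (𝓡∂ n).boundary M, T x = 0 := by
  have hK : IsCompact (Y '' tsupport b) := hc.isCompact.image_of_continuousOn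
    (h.smY.continuousOn.mono hs)
  have hKD : Y '' tsupport b ⊆ D := by
    rintro _ ⟨y, hy, rfl⟩
    exact h.mapsY (hs hy)
  have hcs : ContDiffOn ℝ ∞ (fun x => b (X x)) D := hb.comp_contDiffOn h.smX
  have hz : ∀ x ∈ D, x ∉ Y '' tsupport b → b (X x) = 0 := by
    intro x hx hxn
    refine image_eq_zero_of_notMem_tsupport fun hX => hxn ⟨X x, hX, h.inv1 x hx⟩
  obtain ⟨T, h1, h2, h3, h4⟩ := TM.fExt n N M p (fun x => b (X x)) D (Y '' tsupport b) h.relD
    h.sub hcs hK hKD hz
  have him : (xc n p).symm '' (Y '' tsupport b) = thP n p Y '' tsupport b := by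
    rw [image_image]
    rfl
  rw [him] at h3 h4
  refine ⟨T, h1, fun y hy => ?_, h3, h4, fun x hx => h3 x ?_⟩
  · show T ((xc n p).symm (Y y)) = b y
    rw [h2 _ (h.mapsY hy), h.inv2 y hy]
  · rintro ⟨y, hy, rfl⟩
    have h5 : thP n p Y y ∈ (𝓡∂ n).interior M := h.mem_int (hs hy)
    rw [← ModelWithCorners.compl_interior] at hx
    exact hx h5

/-- The energy of an extension by zero. -/
theorem GIn.energyT [T2Space M] [CompactSpace M] [BorelSpace M] {b₀ : E n} {r r' : ℝ}
    (hr : 0 < r) (hr' : r' < r) (h : GIn P p D X Y g (ball b₀ r))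
    (hA : ∀ x X, P.A.form x X = 0) {z : E n}
    (hz : trS (ball b₀ r) z ⊆ {x | 0 < x 0}) {b : E n → Fib N}
    (hs : tsupport b ⊆ closedBall b₀ r') {T : M → Fib N} (hT : SmS n T)
    (hTb : ∀ y ∈ ball b₀ r, T (thP n p Y y) = b y)
    (hTs : tsupport T ⊆ thP n p Y '' tsupport b) {φ : M → Fib N} (hφ : SmS n φ) :
    P.E T φ = -∫ y in ball b₀ r, inner ℂ (dvF (gg g) b y) (φ (thP n p Y y)) := by
  have hsr : tsupport b ⊆ ball b₀ r := hs.trans (closedBall_subset_ball hr')
  have h1 : P.E T φ = En (P.loc p) D (lu (𝓡∂ n) p T) (lu (𝓡∂ n) p φ) := by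
    refine (TM.fEn n N M P p D h.relD h.sub).1 T φ hT hφ (Or.inl (hTs.trans ?_))
    rintro _ ⟨y, hy, rfl⟩
    exact ⟨Y y, h.mapsY (hsr hy), rfl⟩
  have h2 := bEnergy n N _ _ _ _ _ _ _ (trS_rel h.opB hz) h.relD (h.okE z) h.okL (h.pull hA hz)
    (lu (𝓡∂ n) p T) (lu (𝓡∂ n) p φ) (h.smL hT) (h.smL hφ)
  rw [← h1] at h2
  have h3 : (fun x : E n => (1 : EndF N) (lu (𝓡∂ n) p T (Y (x - z)))) =
    fun x => T (thP n p Y (x - z)) := rfl
  have h4 : (fun x : E n => (1 : EndF N) (lu (𝓡∂ n) p φ (Y (x - z)))) =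
    fun x => φ (thP n p Y (x - z)) := rfl
  rw [h3, h4] at h2
  have hok := h.okE z
  have sT : ContDiffOn ℝ 2 (fun x => T (thP n p Y (x - z))) (trS (ball b₀ r) z) :=
    (tr_smooth (h.smU hT)).of_le (WithTop.coe_le_coe.2 (le_top (a := (2 : ℕ∞))))
  have sφ : ContDiffOn ℝ 1 (fun x => φ (thP n p Y (x - z))) (trS (ball b₀ r) z) :=
    (tr_smooth (h.smU hφ)).of_le (by simp)
  -- an intermediate radius
  set r'' := (max r' 0 + r) / 2 with hr''
  have hm : max r' 0 < r := max_lt hr' hr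
  have hr1 : r' < r'' := by
    have := le_max_left r' 0
    rw [hr'']
    linarith
  have hr2 : r'' < r := by
    rw [hr'']
    linarith
  have h5 : En (gE fun x => g (x - z)) (trS (ball b₀ r) z) (fun x => T (thP n p Y (x - z)))
      (fun x => φ (thP n p Y (x - z))) = - ∫ x in trS (ball b₀ r) z,
        inner ℂ (Lop (gE fun x => g (x - z)) (fun x => T (thP n p Y (x - z))) x)
          (φ (thP n p Y (x - z))) := by
    rw [trS_ballG hz] at hok sT sφ ⊢
    refine aGreen n N _ (b₀ + z) r hr hok _ _ sT sφ ⟨r'', hr2, fun x hx hxn => ?_⟩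
      fun x hx hx0 => ?_
    · have e0 : x - z - b₀ = x - (b₀ + z) := by abel
      have hx1 : x - z ∈ ball b₀ r := by
        rw [mem_ball_iff_norm, e0, ← mem_ball_iff_norm]
        exact hx.1
      show T (thP n p Y (x - z)) = 0
      rw [hTb _ hx1]
      refine image_eq_zero_of_notMem_tsupport fun h6 => hxn ?_
      have h7 := hs h6
      rw [mem_closedBall_iff_norm, e0] at h7
      rw [mem_ball_iff_norm]
      exact h7.trans_lt hr1
    · rw [← trS_ballG hz] at hx
      exact absurd hx0 (ne_of_gt (hz hx))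
  rw [h5, setIntegral_tr] at h2
  rw [← h2]
  congr 1
  refine setIntegral_congr_fun measurableSet_ball fun y hy => ?_
  have h8 : Lop (gE fun x => g (x - z)) (fun x => T (thP n p Y (x - z))) (y + z) =
      dvF (gg g) b y := by
    rw [Lop_trG isOpen_ball hz g (fun y => T (thP n p Y y)) hy]
    exact dvF_congr (Filter.eventuallyEq_of_mem (isOpen_ball.mem_nhds hy) fun x hx => hTb x hx)
  show inner ℂ (Lop _ _ (y + z)) (φ (thP n p Y (y + z - z))) = _
  rw [h8, add_sub_cancel_right]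

/-- The equation for the real part of a component. -/
theorem GIn.harmR [T2Space M] [CompactSpace M] [BorelSpace M] (h : GIn P p D X Y g B)
    (hA : ∀ x X, P.A.form x X = 0) {z : E n} (hz : trS B z ⊆ {x | 0 < x 0}) (j0 : Fin N)
    {f u : M → Fib N} (hu : P.Harm f u) {y : E n} (hy : y ∈ B) :
    dvF (gg g) (fun y => cmp j0 (u (thP n p Y y))) y = 0 := by
  rw [dvF_clm (cmp j0) h.opB h.sm_gg (h.smU hu.smooth) hy, h.harm hA hz hu hy, map_zero]

theorem gg_symm {g : E n → Matrix (Fin n) (Fin n) ℝ} {y : E n} (h : (g y)ᵀ = g y)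
    (j k : Fin n) : gg g j k y = gg g k j y := by
  unfold gg
  congr 1
  have h1 : ((g y)⁻¹)ᵀ = (g y)⁻¹ := by rw [Matrix.transpose_nonsing_inv, h]
  calc (g y)⁻¹ j k = ((g y)⁻¹)ᵀ k j := rfl
    _ = (g y)⁻¹ k j := by rw [h1]

end

end Vale.Agent.P088.R2.H338.T3

end
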