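import Vale.Agent.P088.R2.H338.T.B
import Vale.Agent.P088.R2.H338.GG

/-!
# P088, stage 3, STEP3: comparison of the norms in the coordinates and on `M`
-/

set_option linter.all false

open Bundle Manifold MeasureTheory Set Filter Topology Metric
open scoped ContDiff Matrix

noncomputable section

namespace Vale.Agent.P088.R2.H338.T3

open Vale.Agent.P088 Vale.Agent.P088.EYM Vale.Agent.P088.EYM.O
open Vale.Agent.P088.R2.H31 (dj lap dj_congr dj_congr_ev lap_congr dj_mul lap_mul)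
open Vale.Agent.P088.R2.H338 (pd_interior pd_tr trS trS_open add_mem_trS trS_rel tr_smooth thP jm
  jm_det setIntegral_tr cmp cmp_apply cmp_le cmp_eN dj_cmp hd hd_nonneg hd_cont dj_cont bdd_abs
  mulH1 low_bd hM hM_nonneg hM_cont fk_hM int_mono_hM EK ek_re norm_eN fderiv_smul_e)

universe u

section forms

variable {n N : ℕ} [NeZero n]

/-- Bounds for a continuous family of positive definite forms on a compact set. -/
theorem form_low {C : Set (E n)} (hC : IsCompact C) {a : Fin n → Fin n → E n → ℝ}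
    (ha : ∀ j k, ContinuousOn (a j k) C)
    (hp : ∀ y ∈ C, ∀ ξ : Fin n → ℝ, ξ ≠ 0 → 0 < ∑ j, ∑ k, a j k y * ξ j * ξ k) :
    ∃ m : ℝ, 0 < m ∧ ∀ y ∈ C, ∀ ξ : Fin n → ℝ,
      m * ∑ j, ξ j ^ 2 ≤ ∑ j, ∑ k, a j k y * ξ j * ξ k := by
  rcases C.eq_empty_or_nonempty with rfl | hne
  · exact ⟨1, one_pos, fun y hy => absurd hy (notMem_empty y)⟩
  set S : Set (Fin n → ℝ) := {ξ | ∑ j, ξ j ^ 2 = 1} with hS
  have hSc : IsCompact S := by
    refine Metric.isCompact_of_isClosed_isBounded (isClosed_eq (by fun_prop) continuous_const) ?_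
    refine (Metric.isBounded_closedBall (x := (0 : Fin n → ℝ)) (r := 1)).subset fun ξ hξ => ?_
    rw [mem_closedBall_zero_iff, pi_norm_le_iff_of_nonneg zero_le_one]
    intro j
    have h2 : ξ j ^ 2 ≤ ∑ j, ξ j ^ 2 :=
      Finset.single_le_sum (f := fun j => ξ j ^ 2) (fun j _ => sq_nonneg _) (Finset.mem_univ j)
    have h3 : ∑ j, ξ j ^ 2 = 1 := hξ
    rw [Real.norm_eq_abs]
    exact abs_le_one_iff_mul_self_le_one.2 (by nlinarith)
  have hSne : S.Nonempty := by
    refine ⟨Pi.single 0 1, ?_⟩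
    show ∑ j, (Pi.single (0 : Fin n) (1 : ℝ) : Fin n → ℝ) j ^ 2 = 1
    rw [Finset.sum_eq_single 0]
    · simp
    · intro j _ hj
      simp [hj]
    · intro h
      exact absurd (Finset.mem_univ _) h
  have hcont : ContinuousOn (fun z : E n × (Fin n → ℝ) => ∑ j, ∑ k, a j k z.1 * z.2 j * z.2 k)
      (C ×ˢ S) := by
    refine continuousOn_finsetSum _ fun j _ => continuousOn_finsetSum _ fun k _ => ?_
    refine ContinuousOn.mul (ContinuousOn.mul ?_ ?_) ?_
    · exact (ha j k).comp continuousOn_fst fun z hz => hz.1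
    · exact ((continuous_apply j).comp continuous_snd).continuousOn
    · exact ((continuous_apply k).comp continuous_snd).continuousOn
  obtain ⟨z, hz, hmin⟩ := (hC.prod hSc).exists_isMinOn (hne.prod hSne) hcont
  have hz2 : z.2 ≠ 0 := by
    intro h0
    have h1 : ∑ j, z.2 j ^ 2 = 1 := hz.2
    rw [h0] at h1
    simp at h1
  refine ⟨_, hp z.1 hz.1 z.2 hz2, fun y hy ξ => ?_⟩
  by_cases hξ : ξ = 0
  · subst hξ
    simp
  · have hs : 0 < ∑ j, ξ j ^ 2 := by
      obtain ⟨j, hj⟩ := Function.ne_iff.1 hξ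
      exact Finset.sum_pos' (fun j _ => sq_nonneg _)
        ⟨j, Finset.mem_univ j, pow_pos_of_ne hj⟩
    set t := √(∑ j, ξ j ^ 2) with ht
    have ht0 : 0 < t := Real.sqrt_pos.2 hs
    have ht2 : t ^ 2 = ∑ j, ξ j ^ 2 := Real.sq_sqrt hs.le
    have h1 : (fun j => ξ j / t) ∈ S := by
      show ∑ j, (ξ j / t) ^ 2 = 1
      simp only [div_pow]
      rw [← Finset.sum_div, ht2, div_self hs.ne']
    have h2 := hmin (show (y, fun j => ξ j / t) ∈ C ×ˢ S from ⟨hy, h1⟩)
    have h3 : ∑ j, ∑ k, a j k y * (ξ j / t) * (ξ k / t) =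
        (∑ j, ∑ k, a j k y * ξ j * ξ k) / t ^ 2 := by
      rw [Finset.sum_div]
      refine Finset.sum_congr rfl fun j _ => ?_
      rw [Finset.sum_div]
      refine Finset.sum_congr rfl fun k _ => ?_
      field_simp
    have h4 : ∑ j, ∑ k, a j k z.1 * z.2 j * z.2 k ≤
        ∑ j, ∑ k, a j k y * (ξ j / t) * (ξ k / t) := h2
    rw [h3, le_div_iff₀ (by positivity), ht2] at h4
    exact h4
where
  pow_pos_of_ne {x : ℝ} (h : x ≠ 0) : 0 < x ^ 2 := by positivity

/-- An upper bound. -/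
theorem form_up {C : Set (E n)} (hC : IsCompact C) {a : Fin n → Fin n → E n → ℝ}
    (ha : ∀ j k, ContinuousOn (a j k) C) :
    ∃ m : ℝ, 0 ≤ m ∧ ∀ y ∈ C, ∀ ξ : Fin n → ℝ,
      ∑ j, ∑ k, a j k y * ξ j * ξ k ≤ m * ∑ j, ξ j ^ 2 := by
  choose A hA0 hA using fun j k => bdd_abs hC (ha j k)
  refine ⟨∑ j, ∑ k, A j k, Finset.sum_nonneg fun j _ => Finset.sum_nonneg fun k _ => hA0 j k,
    fun y hy ξ => ?_⟩
  rw [Finset.sum_mul]
  refine Finset.sum_le_sum fun j _ => ?_
  rw [Finset.sum_mul]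
  refine Finset.sum_le_sum fun k _ => ?_
  have h1 : ∀ j, ξ j ^ 2 ≤ ∑ j, ξ j ^ 2 := fun j =>
    Finset.single_le_sum (f := fun j => ξ j ^ 2) (fun j _ => sq_nonneg _) (Finset.mem_univ j)
  have h2 : |ξ j * ξ k| ≤ ∑ j, ξ j ^ 2 := by
    rw [abs_mul]
    have h3 := h1 j
    have h4 := h1 k
    nlinarith [sq_nonneg (|ξ j| - |ξ k|), sq_abs (ξ j), sq_abs (ξ k)]
  calc a j k y * ξ j * ξ k ≤ |a j k y * (ξ j * ξ k)| := by rw [mul_assoc]; exact le_abs_self _
    _ = |a j k y| * |ξ j * ξ k| := abs_mul _ _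
    _ ≤ A j k * ∑ j, ξ j ^ 2 := mul_le_mul (hA j k y hy) h2 (abs_nonneg _) (hA0 j k)

/-- The real part of the Hermitian form. -/
theorem form_re (a : Fin n → Fin n → ℝ) (ξ : Fin n → Fib N) :
    (∑ j, ∑ k, (a j k : ℂ) * inner ℂ (ξ j) (ξ k)).re =
      ∑ b, ((∑ j, ∑ k, a j k * (ξ j b).re * (ξ k b).re) +
        ∑ j, ∑ k, a j k * (ξ j b).im * (ξ k b).im) := by
  have h1 : ∀ j k, ((a j k : ℂ) * inner ℂ (ξ j) (ξ k)).re =
      ∑ b, (a j k * (ξ j b).re * (ξ k b).re + a j k * (ξ j b).im * (ξ k b).im) := by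
    intro j k
    rw [Complex.re_ofReal_mul, PiLp.inner_apply, Complex.re_sum, Finset.mul_sum]
    refine Finset.sum_congr rfl fun b _ => ?_
    simp only [RCLike.inner_apply, Complex.mul_re, Complex.conj_re, Complex.conj_im]
    ring
  rw [Complex.re_sum]
  simp only [Complex.re_sum, h1]
  have h2 : ∀ j, ∑ k, ∑ b, (a j k * (ξ j b).re * (ξ k b).re + a j k * (ξ j b).im * (ξ k b).im) =
      ∑ b, ∑ k, (a j k * (ξ j b).re * (ξ k b).re + a j k * (ξ j b).im * (ξ k b).im) := fun j =>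
    Finset.sum_comm
  simp only [h2]
  rw [Finset.sum_comm]
  refine Finset.sum_congr rfl fun b _ => ?_
  simp only [Finset.sum_add_distrib]

theorem form_re_ge (a : Fin n → Fin n → ℝ)
    (hp : ∀ ξ : Fin n → ℝ, 0 ≤ ∑ j, ∑ k, a j k * ξ j * ξ k) (ξ : Fin n → Fib N) (j0 : Fin N) :
    ∑ j, ∑ k, a j k * cmp j0 (ξ j) * cmp j0 (ξ k) ≤
      (∑ j, ∑ k, (a j k : ℂ) * inner ℂ (ξ j) (ξ k)).re := by
  rw [form_re]
  have h1 : ∀ b, 0 ≤ (∑ j, ∑ k, a j k * (ξ j b).re * (ξ k b).re) +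
      ∑ j, ∑ k, a j k * (ξ j b).im * (ξ k b).im := fun b =>
    add_nonneg (hp fun j => (ξ j b).re) (hp fun j => (ξ j b).im)
  refine le_trans ?_ (Finset.single_le_sum (fun b _ => h1 b) (Finset.mem_univ j0))
  exact le_add_of_nonneg_right (hp fun j => (ξ j j0).im)

end forms

section

variable {n N : ℕ} [NeZero n] {M : Type u} [TopologicalSpace M]
  [ChartedSpace (EuclideanHalfSpace n) M] [IsManifold (𝓡∂ n) ∞ M]
variable [MeasurableSpace M] {P : One n N M} {p : M} {D : Set (E n)} {X Y : E n → E n}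
  {g : E n → Matrix (Fin n) (Fin n) ℝ} {B : Set (E n)}

theorem gg_pos {g : E n → Matrix (Fin n) (Fin n) ℝ} {y : E n} (h : (g y).PosDef)
    {ξ : Fin n → ℝ} (hξ : ξ ≠ 0) : 0 < ∑ j, ∑ k, gg g j k y * ξ j * ξ k := by
  have h1 := (Matrix.posDef_iff_dotProduct_mulVec.1 h.inv).2 hξ
  have h2 : 0 < √(g y).det := Real.sqrt_pos.2 h.det_pos
  have e : ∑ j, ∑ k, gg g j k y * ξ j * ξ k = √(g y).det * (star ξ ⬝ᵥ ((g y)⁻¹ *ᵥ ξ)) := by
    simp only [dotProduct, Matrix.mulVec, Pi.star_apply, star_trivial, Finset.mul_sum]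
    refine Finset.sum_congr rfl fun j _ => Finset.sum_congr rfl fun k _ => ?_
    unfold gg
    ring
  rw [e]
  exact mul_pos h2 h1

theorem gg_nonneg {g : E n → Matrix (Fin n) (Fin n) ℝ} {y : E n} (h : (g y).PosDef)
    (ξ : Fin n → ℝ) : 0 ≤ ∑ j, ∑ k, gg g j k y * ξ j * ξ k := by
  by_cases hξ : ξ = 0
  · subst hξ
    simp
  · exact (gg_pos h hξ).le

/-- The gradient of the real component is bounded by the energy density. -/
theorem GIn.grad_le (h : GIn P p D X Y g B) (hA : ∀ x X, P.A.form x X = 0) {z : E n}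
    (hz : trS B z ⊆ {x | 0 < x 0}) (j0 : Fin N) {C : Set (E n)} (hC : IsCompact C)
    (hCB : C ⊆ B) : ∃ m : ℝ, 0 < m ∧ ∀ (u : M → Fib N), SmS n u → ∀ y ∈ C,
      m * ∑ j, dj j (fun y => cmp j0 (u (thP n p Y y))) y ^ 2 ≤
        √(g y).det * (Vale.Agent.P088.pairing P.g P.A u u (thP n p Y y)).re := by
  obtain ⟨m, hm, hmb⟩ := form_low hC (fun j k => (h.sm_gg j k).continuousOn.mono hCB)
    fun y hy ξ hξ => gg_pos (h.posDef (hCB hy)) hξ
  refine ⟨m, hm, fun u hu y hy => ?_⟩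
  have hyB := hCB hy
  have h1 := congrArg Complex.re (h.pairing hA hz hu hu hyB)
  rw [Complex.re_ofReal_mul] at h1
  rw [h1]
  have hd : ∀ j, dj j (fun y => cmp j0 (u (thP n p Y y))) y =
      cmp j0 (fderiv ℝ (fun y => u (thP n p Y y)) y (ev j)) := fun j =>
    dj_cmp j0 (diffAt h.opB (h.smU hu) hyB) j
  refine le_trans ?_ (form_re_ge (fun j k => gg g j k y) (gg_nonneg (h.posDef hyB)) _ j0)
  simp only [hd]
  exact hmb y hy fun j => cmp j0 (fderiv ℝ (fun y => u (thP n p Y y)) y (ev j))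

variable [T2Space M] [CompactSpace M] [BorelSpace M]

/-- The gradient in the coordinates is bounded by the energy. -/
theorem GIn.G_le (h : GIn P p D X Y g B) (hA : ∀ x X, P.A.form x X = 0) {z : E n}
    (hz : trS B z ⊆ {x | 0 < x 0}) (j0 : Fin N) {C : Set (E n)} (hC : IsCompact C) (hCB : C ⊆ B) :
    ∃ c : ℝ, 0 ≤ c ∧ ∀ (u : M → Fib N) (S : Set (E n)) (K : Set M), SmS n u → MeasurableSet S →
      S ⊆ C → thP n p Y '' S ⊆ K →
      ∫ y in S, ∑ j, dj j (fun y => cmp j0 (u (thP n p Y y))) y ^ 2 ≤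
        c * (EK P K u u).re := by
  obtain ⟨m, hm, hmb⟩ := h.grad_le hA hz j0 hC hCB
  refine ⟨m⁻¹, by positivity, fun u S K hu hS hSC hSK => ?_⟩
  haveI := (TM.fInt n N M P).1
  have hSB : S ⊆ B := hSC.trans hCB
  have hpc : Continuous fun x => (Vale.Agent.P088.pairing P.g P.A u u x).re :=
    Complex.continuous_re.comp (continuous_pairing P.g P.A hu hu)
  have hcd : ContinuousOn (fun y => ∑ j, dj j (fun y => cmp j0 (u (thP n p Y y))) y ^ 2) C :=
    (continuousOn_finsetSum _ fun j _ => (dj_cont h.opB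
      ((cmp j0).contDiff.comp_contDiffOn (h.smU hu)) j).pow 2).mono hCB
  have hcM : ContinuousOn (fun y => √(g y).det *
      (Vale.Agent.P088.pairing P.g P.A u u (thP n p Y y)).re) C :=
    (h.ds_smooth.continuousOn.mono hCB).mul (hpc.comp_continuousOn (h.contTh.mono hCB))
  obtain ⟨-, hint⟩ := h.integral hS hSB hpc
  calc ∫ y in S, ∑ j, dj j (fun y => cmp j0 (u (thP n p Y y))) y ^ 2
      ≤ ∫ y in S, m⁻¹ * (√(g y).det *
          (Vale.Agent.P088.pairing P.g P.A u u (thP n p Y y)).re) := by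
        refine setIntegral_mono_on ((hcd.integrableOn_compact hC).mono_set hSC)
          (((hcM.integrableOn_compact hC).mono_set hSC).const_mul _) hS fun y hy => ?_
        rw [← div_eq_inv_mul, le_div_iff₀ hm, mul_comm]
        exact hmb u hu y (hSC hy)
    _ = m⁻¹ * ∫ x in thP n p Y '' S, (Vale.Agent.P088.pairing P.g P.A u u x).re ∂P.μ := by
        rw [integral_const_mul, hint]
    _ ≤ m⁻¹ * (EK P K u u).re := by
        refine mul_le_mul_of_nonneg_left ?_ (by positivity)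
        rw [ek_re P K hu]
        exact setIntegral_mono_set (integrable_of_continuous hpc).integrableOn
          (Eventually.of_forall fun x => cForm_pairing_nonneg P.g P.A u x)
          (HasSubset.Subset.eventuallyLE hSK)

/-- The `L²` norm in the coordinates. -/
theorem GIn.L2_le (h : GIn P p D X Y g B) (j0 : Fin N) {C : Set (E n)} (hC : IsCompact C)
    (hCB : C ⊆ B) : ∃ c : ℝ, 0 ≤ c ∧ ∀ (u : M → Fib N) (S : Set (E n)) (K : Set M), SmS n u →
      MeasurableSet S → S ⊆ C → thP n p Y '' S ⊆ K →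
      ∫ y in S, cmp j0 (u (thP n p Y y)) ^ 2 ≤ c * (FK P K u u).re := by
  obtain ⟨m, hm, hmb⟩ := low_bd hC (h.ds_smooth.continuousOn.mono hCB) fun y hy =>
    h.ds_pos (hCB hy)
  refine ⟨m⁻¹, by positivity, fun u S K hu hS hSC hSK => ?_⟩
  haveI := (TM.fInt n N M P).1
  have hSB : S ⊆ B := hSC.trans hCB
  have hcd : ContinuousOn (fun y => cmp j0 (u (thP n p Y y)) ^ 2) C :=
    (((cmp j0).contDiff.comp_contDiffOn (h.smU hu)).continuousOn.mono hCB).pow 2
  have hcM : ContinuousOn (fun y => √(g y).det * hM P u (thP n p Y y)) C :=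
    (h.ds_smooth.continuousOn.mono hCB).mul
      ((hM_cont P hu).comp_continuousOn (h.contTh.mono hCB))
  obtain ⟨-, hint⟩ := h.integral hS hSB (hM_cont P hu)
  calc ∫ y in S, cmp j0 (u (thP n p Y y)) ^ 2
      ≤ ∫ y in S, m⁻¹ * (√(g y).det * hM P u (thP n p Y y)) := by
        refine setIntegral_mono_on ((hcd.integrableOn_compact hC).mono_set hSC)
          (((hcM.integrableOn_compact hC).mono_set hSC).const_mul _) hS fun y hy => ?_
        rw [← div_eq_inv_mul, le_div_iff₀ hm, mul_comm]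
        have e1 : cmp j0 (u (thP n p Y y)) ^ 2 ≤ ‖u (thP n p Y y)‖ ^ 2 := by
          rw [← sq_abs]
          exact pow_le_pow_left₀ (abs_nonneg _) (cmp_le j0 _) 2
        have e2 : ‖u (thP n p Y y)‖ ^ 2 ≤ hM P u (thP n p Y y) :=
          le_add_of_nonneg_left (cForm_pairing_nonneg P.g P.A u _)
        exact mul_le_mul (hmb y (hSC hy)) (e1.trans e2) (sq_nonneg _) (Real.sqrt_nonneg _)
    _ = m⁻¹ * ∫ x in thP n p Y '' S, hM P u x ∂P.μ := by
        rw [integral_const_mul, hint]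
    _ ≤ _ := mul_le_mul_of_nonneg_left (int_mono_hM P hSK hu) (by positivity)

/-- The `H¹` norm on `M` of an extension by zero of `s f e`. -/
theorem GIn.FKT (h : GIn P p D X Y g B) (hA : ∀ x X, P.A.form x X = 0) {z : E n}
    (hz : trS B z ⊆ {x | 0 < x 0}) (j0 : Fin N) {C : Set (E n)} (hC : IsCompact C) (hCB : C ⊆ B)
    {s : E n → ℝ} (hs : ContDiffOn ℝ ∞ s B) :
    ∃ c : ℝ, 0 ≤ c ∧ ∀ (f : E n → ℝ) (T : M → Fib N) (V : Set M) (U : Set (E n)),
      MeasurableSet U → U ⊆ C → ContDiff ℝ ∞ f → tsupport f ⊆ U → SmS n T → IsOpen V →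
      (∀ y ∈ B, T (thP n p Y y) = (s y * f y) • eN N j0) →
      tsupport T ⊆ thP n p Y '' tsupport f →
      (FK P Vᶜ T T).re ≤ c * ∫ y in U \ {y | y ∈ B ∧ thP n p Y y ∈ V}, hd f y := by
  obtain ⟨m1, hm1, h1⟩ := bdd_abs hC (h.ds_smooth.continuousOn.mono hCB)
  obtain ⟨m2, hm2, h2⟩ := form_up hC fun j k => (h.sm_gg j k).continuousOn.mono hCB
  obtain ⟨c1, hc1, h3⟩ := mulH1 h.opB hC hCB hs
  refine ⟨(m1 + m2) * c1, by positivity, fun f T V U hU hUC hf hfs hT hV hTe hTs => ?_⟩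
  set G : Set (E n) := {y | y ∈ B ∧ thP n p Y y ∈ V} with hG
  have hGo : IsOpen G := h.contTh.isOpen_inter_preimage h.opB hV
  have hUG : MeasurableSet (U \ G) := hU.diff hGo.measurableSet
  have hUB : U ⊆ B := hUC.trans hCB
  have hsub : U \ G ⊆ C := diff_subset.trans hUC
  have hzero : ∀ x ∈ Vᶜ, x ∉ thP n p Y '' (U \ G) → hM P T x = 0 := by
    intro x hx hxn
    have hxt : x ∉ tsupport T := by
      intro hxt
      obtain ⟨y, hy, rfl⟩ := hTs hxt
      exact hxn ⟨y, ⟨hfs hy, fun hyG => hx hyG.2⟩, rfl⟩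
    unfold hM
    rw [CEnergy_pairing_zero P T hxt, image_eq_zero_of_notMem_tsupport hxt]
    simp
  have him : thP n p Y '' (U \ G) ⊆ Vᶜ := by
    rintro _ ⟨y, hy, rfl⟩ hyV
    exact hy.2 ⟨hUB hy.1, hyV⟩
  obtain ⟨hmeas, hint⟩ := h.integral hUG (diff_subset.trans hUB) (hM_cont P hT)
  have e1 : (FK P Vᶜ T T).re = ∫ x in thP n p Y '' (U \ G), hM P T x ∂P.μ := by
    rw [fk_hM P Vᶜ hT]
    exact setIntegral_eq_of_subset_of_forall_sdiff_eq_zero hV.measurableSet.compl him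
      fun x hx => hzero x hx.1 hx.2
  rw [e1, hint, ← integral_const_mul]
  have hβ : ∀ y ∈ B, DifferentiableAt ℝ (fun y => s y * f y) y := fun y hy =>
    (diffAt h.opB hs hy).mul (hf.differentiable (by simp) y)
  have hpt : ∀ y ∈ U \ G, √(g y).det * hM P T (thP n p Y y) ≤ (m1 + m2) * c1 * hd f y := by
    intro y hy
    have hyC : y ∈ C := hsub hy
    have hyB : y ∈ B := hCB hyC
    have e3 : ∀ j, fderiv ℝ (fun y => T (thP n p Y y)) y (ev j) =
        dj j (fun y => s y * f y) y • eN N j0 := by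
      intro j
      have e4 : (fun y => T (thP n p Y y)) =ᶠ[𝓝 y] fun y => (s y * f y) • eN N j0 :=
        Filter.eventuallyEq_of_mem (h.opB.mem_nhds hyB) fun x hx => hTe x hx
      rw [e4.fderiv_eq, fderiv_smul_e _ _ (hβ y hyB) j]
    have e5 : ‖eN N j0‖ = 1 := norm_eN j0
    have e6 : √(g y).det * (Vale.Agent.P088.pairing P.g P.A T T (thP n p Y y)).re =
        ∑ j, ∑ k, gg g j k y * dj j (fun y => s y * f y) y * dj k (fun y => s y * f y) y := by
      have q1 := congrArg Complex.re (h.pairing hA hz hT hT hyB)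
      rw [Complex.re_ofReal_mul] at q1
      rw [q1, Complex.re_sum]
      refine Finset.sum_congr rfl fun j _ => ?_
      rw [Complex.re_sum]
      refine Finset.sum_congr rfl fun k _ => ?_
      rw [Complex.re_ofReal_mul, e3 j, e3 k, mul_assoc]
      congr 1
      have q2 : (inner ℂ (dj j (fun y => s y * f y) y • eN N j0)
          (dj k (fun y => s y * f y) y • eN N j0) : ℂ) =
          ((dj j (fun y => s y * f y) y * dj k (fun y => s y * f y) y : ℝ) : ℂ) := by
        have q3 : ∀ (t : ℝ) (v : Fib N), t • v = (t : ℂ) • v := fun t v =>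
          (Complex.coe_smul t v).symm
        rw [q3, q3, inner_smul_left, inner_smul_right, inner_self_eq_norm_sq_to_K, e5,
          Complex.conj_ofReal]
        push_cast
        simp
      rw [q2, Complex.ofReal_re]
    have e7 : ‖T (thP n p Y y)‖ ^ 2 = (s y * f y) ^ 2 := by
      rw [hTe y hyB, norm_smul, e5, mul_one, Real.norm_eq_abs, sq_abs]
    have e8 := h3 f y hyC (hf.differentiable (by simp) y)
    have e10 : √(g y).det ≤ m1 := (le_abs_self _).trans (h1 y hyC)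
    have e11 := h2 y hyC fun j => dj j (fun y => s y * f y) y
    have e12 : 0 ≤ ∑ j, dj j (fun y => s y * f y) y ^ 2 :=
      Finset.sum_nonneg fun j _ => sq_nonneg _
    have e13 : √(g y).det * hM P T (thP n p Y y) ≤
        (m1 + m2) * hd (fun y => s y * f y) y := by
      unfold hM hd
      rw [mul_add, e6, e7]
      have q4 := mul_le_mul_of_nonneg_right e10 (sq_nonneg (s y * f y))
      nlinarith [mul_nonneg hm1 e12, mul_nonneg hm2 (sq_nonneg (s y * f y))]
    calc _ ≤ (m1 + m2) * hd (fun y => s y * f y) y := e13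
      _ ≤ (m1 + m2) * (c1 * hd f y) := mul_le_mul_of_nonneg_left e8 (by positivity)
      _ = _ := by ring
  have hc1' : ContinuousOn (fun y => √(g y).det * hM P T (thP n p Y y)) C :=
    (h.ds_smooth.continuousOn.mono hCB).mul
      ((hM_cont P hT).comp_continuousOn (h.contTh.mono hCB))
  have hc2' : ContinuousOn (fun y => (m1 + m2) * c1 * hd f y) C :=
    continuousOn_const.mul ((hd_cont isOpen_univ hf.contDiffOn).mono (subset_univ _))
  exact setIntegral_mono_on ((hc1'.integrableOn_compact hC).mono_set hsub)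
    ((hc2'.integrableOn_compact hC).mono_set hsub) hUG hpt

end

end Vale.Agent.P088.R2.H338.T3

end
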