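import Vale.Agent.P088.R2.H338.T.C

/-!
# P088, stage 3, STEP3: the functional `E(·, T)`, closeness of `v` and `f`
-/

set_option linter.all false

open Bundle Manifold MeasureTheory Set Filter Topology Metric
open scoped ContDiff Matrix

noncomputable section

namespace Vale.Agent.P088.R2.H338.T3

open Vale.Agent.P088 Vale.Agent.P088.EYM Vale.Agent.P088.EYM.O
open Vale.Agent.P088.R2.H31 (dj lap dj_congr dj_congr_ev lap_congr dj_mul lap_mul)
open Vale.Agent.P088.R2.H338 (pd_interior pd_tr trS trS_open add_mem_trS trS_rel tr_smooth thP jm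
  jm_det setIntegral_tr cmp cmp_apply cmp_le cmp_eN dj_cmp hd hd_nonneg hd_cont dj_cont bdd_abs
  mulH1 low_bd hM hM_nonneg hM_cont fk_hM int_mono_hM EK ek_re norm_eN fderiv_smul_e cs_int
  ek_le_fk fk_para hd_add_le hd_zero)

universe u

section euclid

variable {n N : ℕ} [NeZero n] {B : Set (E n)}

theorem mul_smooth (hB : IsOpen B) {s f : E n → ℝ} (hs : ContDiffOn ℝ ∞ s B)
    (hf : ContDiff ℝ ∞ f) (hfB : tsupport f ⊆ B) : ContDiff ℝ ∞ fun y => s y * f y := by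
  rw [contDiff_iff_contDiffAt]
  intro y
  by_cases hy : y ∈ B
  · exact (hs.contDiffAt (hB.mem_nhds hy)).mul hf.contDiffAt
  · have h1 : f =ᶠ[𝓝 y] 0 := notMem_tsupport_iff_eventuallyEq.1 fun h => hy (hfB h)
    have h2 : (fun y => s y * f y) =ᶠ[𝓝 y] fun _ => 0 := by
      filter_upwards [h1] with x hx
      rw [hx]
      simp
    exact contDiffAt_const.congr_of_eventuallyEq h2

theorem supp_mul (j0 : Fin N) {s f : E n → ℝ} (hp : ∀ y ∈ B, 0 < s y) (hf : tsupport f ⊆ B) :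
    tsupport (fun y => (s y * f y) • eN N j0) = tsupport f := by
  refine Subset.antisymm (closure_mono fun y hy => ?_) (closure_mono fun y hy => ?_)
  · rw [Function.mem_support] at hy ⊢
    intro h0
    exact hy (by rw [h0, mul_zero, zero_smul])
  · have hyB : y ∈ B := hf (subset_tsupport _ hy)
    rw [Function.mem_support] at hy ⊢
    intro h0
    rcases smul_eq_zero.1 h0 with h1 | h1
    · exact hy ((mul_eq_zero.1 h1).resolve_left (hp y hyB).ne')
    · have h2 := norm_eN (N := N) j0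
      rw [h1, norm_zero] at h2
      exact zero_ne_one h2

end euclid

section

variable {n N : ℕ} [NeZero n] {M : Type u} [TopologicalSpace M]
  [ChartedSpace (EuclideanHalfSpace n) M] [IsManifold (𝓡∂ n) ∞ M]
variable [MeasurableSpace M] {P : One n N M} {p : M} {D : Set (E n)} {X Y : E n → E n}
  {g : E n → Matrix (Fin n) (Fin n) ℝ} {B : Set (E n)}

/-- The coefficients of the equation for quotients by `s`. -/
def sg (g : E n → Matrix (Fin n) (Fin n) ℝ) (s : E n → ℝ) (j k : Fin n) (y : E n) : ℝ :=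
  s y ^ 2 * gg g j k y

theorem GIn.sg_smooth (h : GIn P p D X Y g B) {s : E n → ℝ} (hs : ContDiffOn ℝ ∞ s B)
    (j k : Fin n) : ContDiffOn ℝ ∞ (sg g s j k) B := (hs.pow 2).mul (h.sm_gg j k)

/-- The equation of the extension. -/
theorem GIn.dvF_ext (h : GIn P p D X Y g B) {s f : E n → ℝ} (hs : ContDiffOn ℝ ∞ s B)
    (hp : ∀ y ∈ B, 0 < s y) (hl : ∀ y ∈ B, dvF (gg g) s y = 0) (hf : ContDiffOn ℝ ∞ f B)
    (e : Fib N) {y : E n} (hy : y ∈ B) :
    dvF (gg g) (fun y => (s y * f y) • e) y = (dvF (sg g s) f y / s y) • e := by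
  have h1 := dvF_clm (ContinuousLinearMap.toSpanSingleton ℝ e) h.opB h.sm_gg (hs.mul hf) hy
  have h2 : (fun y => ContinuousLinearMap.toSpanSingleton ℝ e (s y * f y)) =
      fun y => (s y * f y) • e := by
    funext y
    rw [ContinuousLinearMap.toSpanSingleton_apply]
  rw [h2, ContinuousLinearMap.toSpanSingleton_apply] at h1
  rw [h1]
  congr 1
  have h3 := dvF_quot h.opB h.sm_gg (fun j k y hy => gg_symm (h.symm_g hy) j k) hs hf hy
  have h4 : dvF (sg g s) f y = s y * dvF (gg g) (fun y => s y * f y) y := by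
    unfold sg
    rw [h3, hl y hy, mul_zero, sub_zero]
  rw [h4, mul_div_cancel_left₀ _ (hp y hy).ne']

variable [T2Space M] [CompactSpace M] [BorelSpace M]

/-- A weighted integral over a compact set of coordinates. -/
theorem GIn.cs (h : GIn P p D X Y g B) {C : Set (E n)} (hC : IsCompact C) (hCB : C ⊆ B)
    {q : E n → ℝ} (hq : ContinuousOn q C) {φ : M → Fib N} (hφ : SmS n φ) :
    ∫ y in C, |q y| * ‖φ (thP n p Y y)‖ ≤
      √(∫ y in C, q y ^ 2 / √(g y).det) * √(∫ x in thP n p Y '' C, ‖φ x‖ ^ 2 ∂P.μ) := by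
  have hd0 : ∀ y ∈ C, 0 < √(g y).det := fun y hy => h.ds_pos (hCB hy)
  have hdc : ContinuousOn (fun y => √(g y).det) C := h.ds_smooth.continuousOn.mono hCB
  have hsc : ContinuousOn (fun y => √(√(g y).det)) C := hdc.sqrt
  have hφc : ContinuousOn (fun y => ‖φ (thP n p Y y)‖) C :=
    (hφ.continuous.norm).comp_continuousOn (h.contTh.mono hCB)
  have hCm : MeasurableSet C := hC.isClosed.measurableSet
  have e0 : ∀ y ∈ C, √(√(g y).det) ≠ 0 := fun y hy => (Real.sqrt_pos.2 (hd0 y hy)).ne'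
  have c1 : ContinuousOn (fun y => |q y| / √(√(g y).det)) C := hq.abs.div hsc e0
  have c2 : ContinuousOn (fun y => √(√(g y).det) * ‖φ (thP n p Y y)‖) C := hsc.mul hφc
  have h1 := cs_int (μ := volume.restrict C) (f := fun y => |q y| / √(√(g y).det))
    (g := fun y => √(√(g y).det) * ‖φ (thP n p Y y)‖) ((c1.pow 2).integrableOn_compact hC)
    ((c2.pow 2).integrableOn_compact hC) ((c1.mul c2).integrableOn_compact hC)
  have e1 : ∫ y in C, |q y| / √(√(g y).det) * (√(√(g y).det) * ‖φ (thP n p Y y)‖) =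
      ∫ y in C, |q y| * ‖φ (thP n p Y y)‖ := by
    refine setIntegral_congr_fun hCm fun y hy => ?_
    have := e0 y hy
    show |q y| / √(√(g y).det) * (√(√(g y).det) * ‖φ (thP n p Y y)‖) =
      |q y| * ‖φ (thP n p Y y)‖
    field_simp
  have e2 : ∫ y in C, (|q y| / √(√(g y).det)) ^ 2 = ∫ y in C, q y ^ 2 / √(g y).det := by
    refine setIntegral_congr_fun hCm fun y hy => ?_
    show (|q y| / √(√(g y).det)) ^ 2 = q y ^ 2 / √(g y).det
    rw [div_pow, sq_abs, Real.sq_sqrt (hd0 y hy).le]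
  have e3 : ∫ y in C, (√(√(g y).det) * ‖φ (thP n p Y y)‖) ^ 2 =
      ∫ x in thP n p Y '' C, ‖φ x‖ ^ 2 ∂P.μ := by
    have hG : Continuous fun x => ‖φ x‖ ^ 2 := hφ.continuous.norm.pow 2
    rw [(h.integral hCm hCB hG).2]
    refine setIntegral_congr_fun hCm fun y hy => ?_
    show (√(√(g y).det) * ‖φ (thP n p Y y)‖) ^ 2 = √(g y).det * ‖φ (thP n p Y y)‖ ^ 2
    rw [mul_pow, Real.sq_sqrt (hd0 y hy).le]
  rw [e1, e2, e3] at h1
  exact h1

/-- The functional `E(·, T)`, `T` the extension by zero of `(s f) e`. -/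
theorem GIn.func1 {b₀ : E n} {r r' : ℝ} (hr : 0 < r) (hr' : r' < r)
    (h : GIn P p D X Y g (ball b₀ r)) (hA : ∀ x X, P.A.form x X = 0) {z : E n}
    (hz : trS (ball b₀ r) z ⊆ {x | 0 < x 0}) (j0 : Fin N) {s : E n → ℝ}
    (hs : ContDiffOn ℝ ∞ s (ball b₀ r)) (hp : ∀ y ∈ ball b₀ r, 0 < s y)
    (hl : ∀ y ∈ ball b₀ r, dvF (gg g) s y = 0) {f : E n → ℝ} {T : M → Fib N}
    (hf : ContDiff ℝ ∞ f) (hfs : tsupport f ⊆ closedBall b₀ r') (hT : SmS n T)
    (hTe : ∀ y ∈ ball b₀ r, T (thP n p Y y) = (s y * f y) • eN N j0)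
    (hTs : tsupport T ⊆ thP n p Y '' tsupport f) {φ : M → Fib N} (hφ : SmS n φ) :
    ‖P.E φ T‖ ≤ ∫ y in closedBall b₀ r', |dvF (sg g s) f y / s y| * ‖φ (thP n p Y y)‖ := by
  have hKc : IsCompact (closedBall b₀ r') := isCompact_closedBall _ _
  have hKB : closedBall b₀ r' ⊆ ball b₀ r := closedBall_subset_ball hr'
  have hfB : tsupport f ⊆ ball b₀ r := hfs.trans hKB
  have hse := supp_mul (N := N) j0 hp hfB
  have hE := h.energyT hr hr' hA hz (b := fun y => (s y * f y) • eN N j0)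
    (by rw [hse]; exact hfs) hT hTe (by rw [hse]; exact hTs) hφ
  have hnorm : ‖P.E φ T‖ = ‖P.E T φ‖ := by
    obtain ⟨-, -, f3, -, -⟩ := TM.fForm n N M P
    rw [f3 T φ hT hφ, RCLike.norm_conj]
  have hF : ∫ y in ball b₀ r, inner ℂ (dvF (gg g) (fun y => (s y * f y) • eN N j0) y)
        (φ (thP n p Y y)) =
      ∫ y in ball b₀ r, inner ℂ ((dvF (sg g s) f y / s y) • eN N j0) (φ (thP n p Y y)) := by
    refine setIntegral_congr_fun measurableSet_ball fun y hy => ?_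
    show inner ℂ (dvF (gg g) (fun y => (s y * f y) • eN N j0) y) (φ (thP n p Y y)) = _
    rw [h.dvF_ext hs hp hl hf.contDiffOn (eN N j0) hy]
  have hF2 : ∫ y in ball b₀ r, inner ℂ ((dvF (sg g s) f y / s y) • eN N j0)
        (φ (thP n p Y y)) =
      ∫ y in closedBall b₀ r', inner ℂ ((dvF (sg g s) f y / s y) • eN N j0)
        (φ (thP n p Y y)) := by
    refine setIntegral_eq_of_subset_of_forall_sdiff_eq_zero measurableSet_ball hKB ?_
    intro y hy
    have hyn : y ∉ tsupport f := fun h0 => hy.2 (hfs h0)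
    rw [dvF_zero hyn, zero_div, zero_smul, inner_zero_left]
  have hφc : ContinuousOn (fun y => ‖φ (thP n p Y y)‖) (closedBall b₀ r') :=
    (hφ.continuous.norm).comp_continuousOn (h.contTh.mono hKB)
  have c1 : ContinuousOn (fun y => |dvF (sg g s) f y / s y| * ‖φ (thP n p Y y)‖)
      (closedBall b₀ r') :=
    (((dvF_cont h.opB (h.sg_smooth hs) hf.contDiffOn).mono hKB).div
      (hs.continuousOn.mono hKB) fun y hy => (hp y (hKB hy)).ne').abs.mul hφc
  have i1 := c1.integrableOn_compact (μ := volume) hKc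
  rw [hnorm, hE, norm_neg, hF, hF2]
  refine norm_integral_le_of_norm_le i1 (Eventually.of_forall fun y => ?_)
  refine (norm_inner_le_norm _ _).trans (le_of_eq ?_)
  rw [norm_smul, norm_eN, mul_one, Real.norm_eq_abs]

omit [CompactSpace M] [BorelSpace M] [T2Space M] in
/-- The weighted norm of `h₂`. -/
theorem GIn.wb {C : Set (E n)} (h : GIn P p D X Y g B) (hC : IsCompact C) (hCB : C ⊆ B)
    {s : E n → ℝ} (hs : ContinuousOn s B) (hp : ∀ y ∈ B, 0 < s y) :
    ∃ c : ℝ, 0 ≤ c ∧ ∀ h₂ : E n → ℝ, Continuous h₂ → HasCompactSupport h₂ →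
      ∫ y in C, (h₂ y / s y) ^ 2 / √(g y).det ≤ c * ∫ x, h₂ x ^ 2 := by
  have hdc : ContinuousOn (fun y => √(g y).det) B := h.ds_smooth.continuousOn
  have hwc : ContinuousOn (fun y => ((s y)⁻¹) ^ 2 / √(g y).det) B :=
    ((hs.inv₀ fun y hy => (hp y hy).ne').pow 2).div hdc fun y hy => (h.ds_pos hy).ne'
  obtain ⟨c, hc, hcb⟩ := bdd_abs hC (hwc.mono hCB)
  refine ⟨c, hc, fun h₂ h2c h2k => ?_⟩
  have hCm : MeasurableSet C := hC.isClosed.measurableSet
  have hc2 : Continuous fun y => h₂ y ^ 2 := h2c.pow 2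
  have hk2 : HasCompactSupport fun y => h₂ y ^ 2 := h2k.mono fun y hy => by
    rw [Function.mem_support] at hy ⊢
    intro h0
    exact hy (by rw [h0]; simp)
  have i3 : Integrable (fun y => h₂ y ^ 2) := hc2.integrable_of_hasCompactSupport hk2
  have c3 : ContinuousOn (fun y => (h₂ y / s y) ^ 2 / √(g y).det) C :=
    ((h2c.continuousOn.div (hs.mono hCB) fun y hy => (hp y (hCB hy)).ne').pow 2).div
      (hdc.mono hCB) fun y hy => (h.ds_pos (hCB hy)).ne'
  have e1 : ∫ y in C, (h₂ y / s y) ^ 2 / √(g y).det ≤ ∫ y in C, c * h₂ y ^ 2 := by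
    refine setIntegral_mono_on (c3.integrableOn_compact hC) (i3.const_mul c).integrableOn
      hCm fun y hy => ?_
    have h3 := (le_abs_self _).trans (hcb y hy)
    have h4 : (h₂ y / s y) ^ 2 / √(g y).det = ((s y)⁻¹) ^ 2 / √(g y).det * h₂ y ^ 2 := by
      rw [div_eq_mul_inv (h₂ y)]
      ring
    rw [h4]
    exact mul_le_mul_of_nonneg_right h3 (sq_nonneg _)
  rw [integral_const_mul] at e1
  exact e1.trans (mul_le_mul_of_nonneg_left
    (setIntegral_le_integral i3 (Eventually.of_forall fun y => sq_nonneg _)) hc)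

/-- Splitting. -/
theorem GIn.split {C : Set (E n)} (h : GIn P p D X Y g B) (hC : IsCompact C) (hCB : C ⊆ B)
    {s h₀ h₁ h₂ : E n → ℝ} (hs : ContinuousOn s B) (hp : ∀ y ∈ B, 0 < s y)
    (h0c : ContinuousOn h₀ B) (h1c : Continuous h₁) (h1s : tsupport h₁ ⊆ C)
    (h2c : Continuous h₂) (hlap : ∀ x ∈ B, h₀ x = h₁ x + h₂ x) {φ : M → Fib N} (hφ : SmS n φ) :
    ∫ y in C, |h₀ y / s y| * ‖φ (thP n p Y y)‖ ≤
      (∫ y in tsupport h₁, |h₁ y / s y| * ‖φ (thP n p Y y)‖) +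
        ∫ y in C, |h₂ y / s y| * ‖φ (thP n p Y y)‖ := by
  have hCm : MeasurableSet C := hC.isClosed.measurableSet
  have hφc : ContinuousOn (fun y => ‖φ (thP n p Y y)‖) C :=
    (hφ.continuous.norm).comp_continuousOn (h.contTh.mono hCB)
  have hsc : ContinuousOn s C := hs.mono hCB
  have hs0 : ∀ y ∈ C, s y ≠ 0 := fun y hy => (hp y (hCB hy)).ne'
  have c1 : ContinuousOn (fun y => |h₁ y / s y| * ‖φ (thP n p Y y)‖) C :=
    (h1c.continuousOn.div hsc hs0).abs.mul hφc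
  have c2 : ContinuousOn (fun y => |h₂ y / s y| * ‖φ (thP n p Y y)‖) C :=
    (h2c.continuousOn.div hsc hs0).abs.mul hφc
  have i1 := c1.integrableOn_compact (μ := volume) hC
  have i2 := c2.integrableOn_compact (μ := volume) hC
  have c0 : ContinuousOn (fun y => |h₀ y / s y| * ‖φ (thP n p Y y)‖) C :=
    ((h0c.mono hCB).div hsc hs0).abs.mul hφc
  have b2 : ∫ y in C, |h₁ y / s y| * ‖φ (thP n p Y y)‖ =
      ∫ y in tsupport h₁, |h₁ y / s y| * ‖φ (thP n p Y y)‖ := by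
    refine setIntegral_eq_of_subset_of_forall_sdiff_eq_zero hCm h1s ?_
    intro y hy
    rw [image_eq_zero_of_notMem_tsupport hy.2, zero_div, abs_zero, zero_mul]
  rw [← b2, ← integral_add i1 i2]
  refine setIntegral_mono_on (c0.integrableOn_compact hC) (i1.add i2) hCm fun y hy => ?_
  rw [← add_mul]
  refine mul_le_mul_of_nonneg_right ?_ (norm_nonneg _)
  rw [hlap y (hCB hy), add_div]
  exact abs_add_le _ _

/-- The functional `E(·, T)`, `T` the extension by zero of `(s f) e`. -/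
theorem GIn.func {b₀ : E n} {r r' : ℝ} (hr : 0 < r) (hr' : r' < r)
    (h : GIn P p D X Y g (ball b₀ r)) (hA : ∀ x X, P.A.form x X = 0) {z : E n}
    (hz : trS (ball b₀ r) z ⊆ {x | 0 < x 0}) (j0 : Fin N) {s : E n → ℝ}
    (hs : ContDiffOn ℝ ∞ s (ball b₀ r)) (hp : ∀ y ∈ ball b₀ r, 0 < s y)
    (hl : ∀ y ∈ ball b₀ r, dvF (gg g) s y = 0) :
    ∃ c : ℝ, 0 ≤ c ∧ ∀ (f h₁ h₂ : E n → ℝ) (T : M → Fib N), ContDiff ℝ ∞ f →
      tsupport f ⊆ closedBall b₀ r' → Continuous h₁ → HasCompactSupport h₁ →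
      tsupport h₁ ⊆ closedBall b₀ r' → Continuous h₂ → HasCompactSupport h₂ →
      (∀ x ∈ ball b₀ r, dvF (sg g s) f x = h₁ x + h₂ x) → SmS n T →
      (∀ y ∈ ball b₀ r, T (thP n p Y y) = (s y * f y) • eN N j0) →
      tsupport T ⊆ thP n p Y '' tsupport f →
      ∃ a : ℝ, 0 ≤ a ∧ ∀ φ : M → Fib N, SmS n φ →
        ‖P.E φ T‖ ≤ a * √(∫ x in thP n p Y '' tsupport h₁, ‖φ x‖ ^ 2 ∂P.μ) +
          √(c * ∫ x, h₂ x ^ 2) * √(∫ x, ‖φ x‖ ^ 2 ∂P.μ) := by
  haveI := (TM.fInt n N M P).1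
  have hKc : IsCompact (closedBall b₀ r') := isCompact_closedBall _ _
  have hKB : closedBall b₀ r' ⊆ ball b₀ r := closedBall_subset_ball hr'
  obtain ⟨c, hc, hcb⟩ := h.wb hKc hKB hs.continuousOn hp
  refine ⟨c, hc, fun f h₁ h₂ T hf hfs h1c h1k h1s h2c h2k hlap hT hTe hTs => ?_⟩
  refine ⟨√(∫ y in tsupport h₁, (h₁ y / s y) ^ 2 / √(g y).det), Real.sqrt_nonneg _,
    fun φ hφ => ?_⟩
  have b1 := h.func1 hr hr' hA hz j0 hs hp hl hf hfs hT hTe hTs hφ
  have b2 := h.split hKc hKB hs.continuousOn hp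
    (dvF_cont h.opB (h.sg_smooth hs) hf.contDiffOn) h1c h1s h2c hlap hφ
  have hsc : ContinuousOn s (closedBall b₀ r') := hs.continuousOn.mono hKB
  have hs0 : ∀ y ∈ closedBall b₀ r', s y ≠ 0 := fun y hy => (hp y (hKB hy)).ne'
  have b3 := h.cs h1k.isCompact (h1s.trans hKB) (q := fun y => h₁ y / s y)
    (h1c.continuousOn.div (hsc.mono h1s) fun y hy => hs0 y (h1s hy)) hφ
  have b4 := h.cs hKc hKB (q := fun y => h₂ y / s y) (h2c.continuousOn.div hsc hs0) hφ
  have b5 := hcb h₂ h2c h2k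
  have hG : Continuous fun x => ‖φ x‖ ^ 2 := hφ.continuous.norm.pow 2
  have b6 : ∫ x in thP n p Y '' closedBall b₀ r', ‖φ x‖ ^ 2 ∂P.μ ≤
      ∫ x, ‖φ x‖ ^ 2 ∂P.μ :=
    setIntegral_le_integral (integrable_of_continuous hG)
      (Eventually.of_forall fun y => sq_nonneg _)
  refine (b1.trans b2).trans (add_le_add b3 (b4.trans ?_))
  exact mul_le_mul (Real.sqrt_le_sqrt b5) (Real.sqrt_le_sqrt b6)
    (Real.sqrt_nonneg _) (Real.sqrt_nonneg _)

/-- The `H¹` norm in the coordinates is bounded by the `H¹` norm on `M`. -/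
theorem GIn.H1_le (h : GIn P p D X Y g B) (hA : ∀ x X, P.A.form x X = 0) {z : E n}
    (hz : trS B z ⊆ {x | 0 < x 0}) (j0 : Fin N) {C : Set (E n)} (hC : IsCompact C) (hCB : C ⊆ B) :
    ∃ c : ℝ, 0 ≤ c ∧ ∀ (u : M → Fib N) (S : Set (E n)) (K : Set M), SmS n u → MeasurableSet S →
      S ⊆ C → thP n p Y '' S ⊆ K →
      ∫ y in S, hd (fun y => cmp j0 (u (thP n p Y y))) y ≤ c * (FK P K u u).re := by
  obtain ⟨c1, hc1, h1⟩ := h.G_le hA hz j0 hC hCB
  obtain ⟨c2, hc2, h2⟩ := h.L2_le j0 hC hCB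
  refine ⟨c2 + c1, by positivity, fun u S K hu hS hSC hSK => ?_⟩
  have sm : ContDiffOn ℝ ∞ (fun y => cmp j0 (u (thP n p Y y))) B :=
    (cmp j0).contDiff.comp_contDiffOn (h.smU hu)
  have i1 : IntegrableOn (fun y => cmp j0 (u (thP n p Y y)) ^ 2) S :=
    (((sm.continuousOn.mono hCB).pow 2).integrableOn_compact hC).mono_set hSC
  have i2 : IntegrableOn (fun y => ∑ j, dj j (fun y => cmp j0 (u (thP n p Y y))) y ^ 2) S :=
    (((continuousOn_finsetSum _ fun j _ => (dj_cont h.opB sm j).pow 2).mono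
      hCB).integrableOn_compact hC).mono_set hSC
  have e1 : ∫ y in S, hd (fun y => cmp j0 (u (thP n p Y y))) y =
      (∫ y in S, cmp j0 (u (thP n p Y y)) ^ 2) +
        ∫ y in S, ∑ j, dj j (fun y => cmp j0 (u (thP n p Y y))) y ^ 2 := by
    rw [← integral_add i1 i2]
    rfl
  have e2 := h2 u S K hu hS hSC hSK
  have e3 := (h1 u S K hu hS hSC hSK).trans (mul_le_mul_of_nonneg_left (ek_le_fk P K hu) hc1)
  rw [e1, add_mul]
  exact add_le_add e2 e3

/-- `f - v`, `v = u / s`. -/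
theorem GIn.close (h : GIn P p D X Y g B) (hA : ∀ x X, P.A.form x X = 0) {z : E n}
    (hz : trS B z ⊆ {x | 0 < x 0}) (j0 : Fin N) {C : Set (E n)} (hC : IsCompact C) (hCB : C ⊆ B)
    {s : E n → ℝ} (hs : ContDiffOn ℝ ∞ s B) (hp : ∀ y ∈ B, 0 < s y) :
    ∃ c : ℝ, 0 ≤ c ∧ ∀ (f : E n → ℝ) (T u : M → Fib N) (S : Set (E n)) (K : Set M),
      ContDiff ℝ ∞ f → SmS n T → SmS n u → MeasurableSet S → S ⊆ C → thP n p Y '' S ⊆ K →
      (∀ y ∈ B, T (thP n p Y y) = (s y * f y) • eN N j0) →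
      ∫ y in S, hd (fun y => f y - cmp j0 (u (thP n p Y y)) / s y) y ≤
        c * (FK P K (T - u) (T - u)).re := by
  obtain ⟨c1, hc1, h1⟩ := h.H1_le hA hz j0 hC hCB
  obtain ⟨c2, hc2, h2⟩ := mulH1 h.opB hC hCB (hs.inv fun y hy => (hp y hy).ne')
  refine ⟨c2 * c1, by positivity, fun f T u S K hf hT hu hS hSC hSK hTe => ?_⟩
  have hTu : SmS n (T - u) := hT.sub hu
  have h3 := h1 (T - u) S K hTu hS hSC hSK
  set az : E n → ℝ := fun y => cmp j0 ((T - u) (thP n p Y y)) with haz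
  have smz : ContDiffOn ℝ ∞ az B := (cmp j0).contDiff.comp_contDiffOn (h.smU hTu)
  have sm1 : ContDiffOn ℝ ∞ (fun y => f y - cmp j0 (u (thP n p Y y)) / s y) B :=
    hf.contDiffOn.sub (((cmp j0).contDiff.comp_contDiffOn (h.smU hu)).div hs
      fun y hy => (hp y hy).ne')
  have he : ∀ y ∈ B, f y - cmp j0 (u (thP n p Y y)) / s y = (s y)⁻¹ * az y := by
    intro y hy
    have e1 : az y = s y * f y - cmp j0 (u (thP n p Y y)) := by
      show cmp j0 (T (thP n p Y y) - u (thP n p Y y)) = _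
      rw [map_sub, hTe y hy, cmp_eN]
    rw [e1]
    have := (hp y hy).ne'
    field_simp
  have hpt : ∀ y ∈ S, hd (fun y => f y - cmp j0 (u (thP n p Y y)) / s y) y ≤
      c2 * hd az y := by
    intro y hy
    have hyC := hSC hy
    have hyB := hCB hyC
    have e2 : hd (fun y => f y - cmp j0 (u (thP n p Y y)) / s y) y =
        hd (fun y => (s y)⁻¹ * az y) y := by
      have e3 : (fun y => f y - cmp j0 (u (thP n p Y y)) / s y) =ᶠ[𝓝 y]
          fun y => (s y)⁻¹ * az y := by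
        filter_upwards [h.opB.mem_nhds hyB] with x hx using he x hx
      unfold hd
      rw [e3.self_of_nhds]
      congr 1
      exact Finset.sum_congr rfl fun j _ => by rw [dj_congr e3 j]
    rw [e2]
    exact h2 az y hyC (diffAt h.opB smz hyB)
  calc _ ≤ ∫ y in S, c2 * hd az y :=
        setIntegral_mono_on ((((hd_cont h.opB sm1).mono hCB).integrableOn_compact hC).mono_set
          hSC) (((((hd_cont h.opB smz).mono hCB).integrableOn_compact hC).mono_set
          hSC).const_mul _) hS hpt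
    _ = c2 * ∫ y in S, hd az y := integral_const_mul _ _
    _ ≤ c2 * (c1 * (FK P K (T - u) (T - u)).re) := mul_le_mul_of_nonneg_left h3 hc2
    _ = _ := by ring

end

end Vale.Agent.P088.R2.H338.T3

end
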