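import Vale.Agent.P088.R2.H338.T.D

/-!
# P088, stage 3, STEP3: a Poincaré inequality, linear selection
-/

set_option linter.all false

open Bundle Manifold MeasureTheory Set Filter Topology Metric
open scoped ContDiff Matrix

noncomputable section

namespace Vale.Agent.P088.R2.H338.T3

open Vale.Agent.P088 Vale.Agent.P088.EYM Vale.Agent.P088.EYM.O
open Vale.Agent.P088.R2.H31 (dj lap dj_congr dj_congr_ev lap_congr dj_mul lap_mul)
open Vale.Agent.P088.R2.H338 (pd_interior pd_tr trS trS_open add_mem_trS trS_rel tr_smooth thP jm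
  jm_det setIntegral_tr cmp cmp_apply cmp_le cmp_eN dj_cmp hd hd_nonneg hd_cont dj_cont bdd_abs
  mulH1 low_bd hM hM_nonneg hM_cont fk_hM int_mono_hM EK ek_re norm_eN fderiv_smul_e cs_int
  ek_le_fk fk_para hd_add_le hd_zero)

universe u

/-- A translation into the open half space. -/
theorem exists_tr {n : ℕ} [NeZero n] (b₀ : E n) (r : ℝ) (hr : 0 < r) :
    ∃ z : E n, trS (ball b₀ r) z ⊆ {x | 0 < x 0} := by
  refine ⟨(2 * r - b₀ 0) • ev 0, fun x hx => ?_⟩
  have h1 : x - (2 * r - b₀ 0) • ev 0 ∈ ball b₀ r := hx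
  rw [mem_ball_iff_norm] at h1
  have h2 : |(x - (2 * r - b₀ 0) • (ev 0 : E n) - b₀) 0| ≤
      ‖x - (2 * r - b₀ 0) • (ev 0 : E n) - b₀‖ := by
    have := PiLp.norm_apply_le (x - (2 * r - b₀ 0) • (ev 0 : E n) - b₀) 0
    rwa [Real.norm_eq_abs] at this
  simp only [PiLp.sub_apply, PiLp.smul_apply, ev_apply, if_true, smul_eq_mul, mul_one] at h2
  have h3 := (abs_lt.1 (h2.trans_lt h1)).1
  show 0 < x 0
  linarith

theorem gg_one {n : ℕ} (j k : Fin n) (y : E n) :
    gg (fun _ => (1 : Matrix (Fin n) (Fin n) ℝ)) j k y = if j = k then 1 else 0 := by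
  unfold gg
  rw [Matrix.det_one, Real.sqrt_one, one_mul, inv_one, Matrix.one_apply]

theorem ed_one {n : ℕ} [NeZero n] {B : Set (E n)} (hB : IsOpen B) {z : E n}
    (hz : trS B z ⊆ {x | 0 < x 0}) {w : E n → ℝ} (hw : ContDiffOn ℝ ∞ w B) {y : E n}
    (hy : y ∈ B) :
    ed (gE (N := 1) (fun _ : E n => (1 : Matrix (Fin n) (Fin n) ℝ)))
      (fun x => w (x - z) • eN 1 0) (fun x => w (x - z) • eN 1 0) (y + z) =
      ((∑ j, dj j w y ^ 2 : ℝ) : ℂ) := by
  have q1 := ed_trG (N := 1) hz (fun _ : E n => (1 : Matrix (Fin n) (Fin n) ℝ))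
    (fun y => w y • eN 1 0) (fun y => w y • eN 1 0) hy
  refine q1.trans ?_
  have hdw : DifferentiableAt ℝ w y := diffAt hB hw hy
  have hne : ‖eN 1 (0 : Fin 1)‖ = 1 := norm_eN 0
  have q2 : ∀ j, fderiv ℝ (fun y => w y • eN 1 0) y (ev j) = dj j w y • eN 1 0 := fun j =>
    fderiv_smul_e w (eN 1 0) hdw j
  rw [Complex.ofReal_sum]
  refine Finset.sum_congr rfl fun j _ => ?_
  rw [Finset.sum_eq_single j]
  · rw [gg_one, if_pos rfl, q2 j]
    have q3 : ∀ (t : ℝ) (v : Fib 1), t • v = (t : ℂ) • v := fun t v =>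
      (Complex.coe_smul t v).symm
    rw [q3, inner_smul_left, inner_smul_right, inner_self_eq_norm_sq_to_K, hne,
      Complex.conj_ofReal, Complex.ofReal_one, one_mul, Complex.ofReal_pow]
    simp only [Complex.ofReal_one, one_pow, mul_one, Complex.coe_algebraMap]
    ring
  · intro k _ hk
    rw [gg_one, if_neg (Ne.symm hk), Complex.ofReal_zero, zero_mul]
  · intro hj
    exact absurd (Finset.mem_univ j) hj

theorem En_one {n : ℕ} [NeZero n] {B B' : Set (E n)} (hB : IsOpen B) (hB' : B' ⊆ B)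
    (hm : MeasurableSet B') {z : E n}
    (hz : trS B z ⊆ {x | 0 < x 0}) {w : E n → ℝ} (hw : ContDiffOn ℝ ∞ w B) :
    (En (gE (N := 1) (fun _ : E n => (1 : Matrix (Fin n) (Fin n) ℝ))) (trS B' z)
      (fun x => w (x - z) • eN 1 0) (fun x => w (x - z) • eN 1 0)).re =
      ∫ y in B', ∑ j, dj j w y ^ 2 := by
  unfold En
  rw [setIntegral_tr]
  have e4 : ∫ y in B', ed (gE (N := 1) (fun _ : E n => (1 : Matrix (Fin n) (Fin n) ℝ)))
      (fun x => w (x - z) • eN 1 0) (fun x => w (x - z) • eN 1 0)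
      (y + z) = ∫ y in B', ((∑ j, dj j w y ^ 2 : ℝ) : ℂ) :=
    setIntegral_congr_fun hm fun y hy => ed_one hB hz hw (hB' hy)
  rw [e4, integral_complex_ofReal, Complex.ofReal_re]

theorem L2_tr {n : ℕ} [NeZero n] {B' : Set (E n)} (hm : MeasurableSet B') (z : E n)
    (w : E n → ℝ) :
    ∫ x in trS B' z, ‖w (x - z) • eN 1 (0 : Fin 1)‖ ^ 2 = ∫ y in B', w y ^ 2 := by
  have hne : ‖eN 1 (0 : Fin 1)‖ = 1 := norm_eN 0
  rw [setIntegral_tr]
  refine setIntegral_congr_fun hm fun y hy => ?_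
  show ‖w (y + z - z) • eN 1 (0 : Fin 1)‖ ^ 2 = w y ^ 2
  rw [norm_smul, hne, mul_one, add_sub_cancel_right, Real.norm_eq_abs, sq_abs]

theorem gE_one_ok {n : ℕ} [NeZero n] (D : Set (E n)) :
    (gE (N := 1) (fun _ : E n => (1 : Matrix (Fin n) (Fin n) ℝ))).Ok D :=
  gE_ok (fun i j => contDiffOn_const) fun x hx => Matrix.PosDef.one

theorem mem_Hs_tr {n : ℕ} [NeZero n] {B : Set (E n)} {z y : E n}
    (hz : trS B z ⊆ {x | 0 < x 0}) (hy : y ∈ B) : y + z ∈ Hs n := by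
  have h1 : 0 < (y + z) 0 := hz (add_mem_trS hy)
  exact le_of_lt h1

theorem trS_mono {n : ℕ} [NeZero n] {A B : Set (E n)} (h : A ⊆ B) (z : E n) :
    trS A z ⊆ trS B z := by
  intro x hx
  exact h hx

/-- A Poincaré inequality for functions which vanish on a small ball. -/
theorem poinBall {n : ℕ} [NeZero n] {b₀ a : E n} {r r' ρ : ℝ} (hr' : 0 < r') (h : r' < r)
    (hρ : 0 < ρ) (hsub : ball a ρ ⊆ ball b₀ r') :
    ∃ C : ℝ, 0 ≤ C ∧ ∀ w : E n → ℝ, ContDiffOn ℝ ∞ w (ball b₀ r) → (∀ y ∈ ball a ρ, w y = 0) →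
      ∫ y in ball b₀ r', w y ^ 2 ≤ C * ∫ y in ball b₀ r', ∑ j, dj j w y ^ 2 := by
  have hr : 0 < r := hr'.trans h
  obtain ⟨z, hz⟩ := exists_tr b₀ r hr
  have hz' : trS (ball b₀ r') z ⊆ {x | 0 < x 0} := (trS_mono (ball_subset_ball h.le) z).trans hz
  have hz'' : trS (ball a ρ) z ⊆ {x | 0 < x 0} := (trS_mono hsub z).trans hz'
  have hB := trS_ballG hz
  have hB' := trS_ballG hz'
  have hB'' := trS_ballG hz''
  have hsub' : HB (a + z) ρ ⊆ HB (b₀ + z) r' := by
    rw [← hB', ← hB'']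
    exact trS_mono hsub z
  obtain ⟨C, hC⟩ := (TM.fPoin n 1 _ (b₀ + z) r r' hr' h (mem_Hs_tr hz (mem_ball_self hr))
    (gE_one_ok _)).2 (a + z) ρ hρ hsub' (mem_Hs_tr hz'' (mem_ball_self hρ))
  refine ⟨max (C * volume.real (ball a ρ)) 0, le_max_right _ _, fun w hw hw0 => ?_⟩
  have hcs : ContDiffOn ℝ ∞ (fun x => w (x - z) • eN 1 (0 : Fin 1)) (HB (b₀ + z) r) := by
    rw [← hB]
    exact (tr_smooth hw).smul contDiffOn_const
  have h1 := hC _ hcs
  rw [← hB', ← hB'', L2_tr measurableSet_ball z w,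
    En_one isOpen_ball (ball_subset_ball h.le) measurableSet_ball hz hw, setIntegral_tr] at h1
  have h2 : ∀ K : ℝ, ∫ y in ball a ρ, (‖w (y + z - z) • eN 1 (0 : Fin 1)‖ ^ 2 + K) =
      volume.real (ball a ρ) * K := by
    intro K
    have h3 : ∫ y in ball a ρ, (‖w (y + z - z) • eN 1 (0 : Fin 1)‖ ^ 2 + K) =
        ∫ y in ball a ρ, K := by
      refine setIntegral_congr_fun measurableSet_ball fun y hy => ?_
      show ‖w (y + z - z) • eN 1 (0 : Fin 1)‖ ^ 2 + K = K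
      rw [add_sub_cancel_right, hw0 y hy, zero_smul, norm_zero]
      simp
    rw [h3, setIntegral_const, smul_eq_mul]
  rw [h2, ← mul_assoc] at h1
  exact h1.trans (mul_le_mul_of_nonneg_right (le_max_left _ _)
    (integral_nonneg fun y => Finset.sum_nonneg fun j _ => sq_nonneg _))

/-- Linear near-minimisers of a semi-definite form. -/
theorem select {V : Type*} [AddCommGroup V] [Module ℝ V] (b : V →ₗ[ℝ] V →ₗ[ℝ] ℝ)
    (hs : ∀ x y, b x y = b y x) (h0 : ∀ x, 0 ≤ b x x) (U : Submodule ℝ V) {d : ℕ}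
    (T : Fin d → V) {ε : ℝ} (hε : 0 < ε) :
    ∃ u : Fin d → V, (∀ q, u q ∈ U) ∧ ∀ (c : Fin d → ℝ), ∀ w ∈ U,
      b (∑ q, c q • (T q - u q)) (∑ q, c q • (T q - u q)) ≤
        b (∑ q, c q • T q - w) (∑ q, c q • T q - w) + ε * ∑ q, c q ^ 2 := by
  obtain ⟨η, hη, hηε⟩ : ∃ η : ℝ, 0 < η ∧ η * d ≤ ε := by
    refine ⟨ε / (d + 1), by positivity, ?_⟩
    rw [div_mul_eq_mul_div, div_le_iff₀ (by positivity)]
    nlinarith
  have hq : ∀ q, ∃ u ∈ U, ∀ v ∈ U, (b (T q - u) v) ^ 2 ≤ η * b v v := by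
    intro q
    set S : Set ℝ := (fun u => b (T q - u) (T q - u)) '' (U : Set V) with hS
    have hSb : BddBelow S := ⟨0, by rintro _ ⟨u, -, rfl⟩; exact h0 _⟩
    have hSn : S.Nonempty := ⟨_, 0, U.zero_mem, rfl⟩
    obtain ⟨_, ⟨u, hu, rfl⟩, hu2⟩ := exists_lt_of_csInf_lt hSn
      (show sInf S < sInf S + η by linarith)
    refine ⟨u, hu, fun v hv => ?_⟩
    set e := T q - u with he
    have key : ∀ t : ℝ, 0 ≤ b v v * (t * t) + (-2 * b e v) * t + η := by
      intro t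
      have h1 : sInf S ≤ b (T q - (u + t • v)) (T q - (u + t • v)) :=
        csInf_le hSb ⟨u + t • v, U.add_mem hu (U.smul_mem t hv), rfl⟩
      have h2 : T q - (u + t • v) = e - t • v := by rw [he]; abel
      rw [h2] at h1
      have h3 : b (e - t • v) (e - t • v) = b e e - 2 * t * b e v + t ^ 2 * b v v := by
        simp only [map_sub, map_smul, LinearMap.sub_apply, LinearMap.smul_apply, smul_eq_mul]
        rw [hs v e]
        ring
      rw [h3] at h1
      have h4 : b e e < sInf S + η := hu2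
      nlinarith
    have h5 := discrim_le_zero key
    unfold discrim at h5
    nlinarith
  choose u hu hub using hq
  refine ⟨u, hu, fun c w hw => ?_⟩
  set ec : V := ∑ q, c q • (T q - u q) with hec
  set v : V := w - ∑ q, c q • u q with hv
  have hvU : v ∈ U := U.sub_mem hw (U.sum_mem fun q _ => U.smul_mem _ (hu q))
  have h1 : ∑ q, c q • T q - w = ec - v := by
    rw [hec, hv]
    simp only [smul_sub, Finset.sum_sub_distrib]
    abel
  have h2 : b ec v = ∑ q, c q * b (T q - u q) v := by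
    rw [hec, map_sum, LinearMap.sum_apply]
    refine Finset.sum_congr rfl fun q _ => ?_
    rw [map_smul, LinearMap.smul_apply, smul_eq_mul]
  have h3 : (b ec v) ^ 2 ≤ (∑ q, c q ^ 2) * ((d : ℝ) * (η * b v v)) := by
    rw [h2]
    refine (Finset.sum_mul_sq_le_sq_mul_sq _ _ _).trans ?_
    refine mul_le_mul_of_nonneg_left ?_ (Finset.sum_nonneg fun q _ => sq_nonneg _)
    refine (Finset.sum_le_sum fun q _ => hub q v hvU).trans (le_of_eq ?_)
    rw [Finset.sum_const, Finset.card_univ, Fintype.card_fin, nsmul_eq_mul]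
  rw [h1]
  have h4 : b (ec - v) (ec - v) = b ec ec - 2 * b ec v + b v v := by
    simp only [map_sub, LinearMap.sub_apply]
    rw [hs v ec]
    ring
  rw [h4]
  have hc0 : 0 ≤ ∑ q, c q ^ 2 := Finset.sum_nonneg fun q _ => sq_nonneg _
  have hv0 := h0 v
  set K : ℝ := (∑ q, c q ^ 2) * (d * η) with hK
  have hK0 : 0 ≤ K := by positivity
  have hKε : K ≤ ε * ∑ q, c q ^ 2 := by
    rw [hK, mul_comm (d : ℝ) η]
    calc _ ≤ (∑ q, c q ^ 2) * ε := mul_le_mul_of_nonneg_left hηε hc0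
      _ = _ := mul_comm _ _
  have h5 : (b ec v) ^ 2 ≤ K * b v v := by
    rw [hK]
    linarith
  have h6 : 2 * b ec v ≤ K + b v v := by
    have h7 : |b ec v| ≤ √K * √(b v v) := by
      rw [← Real.sqrt_mul hK0]
      exact Real.abs_le_sqrt h5
    have h8 := le_abs_self (b ec v)
    nlinarith [sq_nonneg (√K - √(b v v)), Real.sq_sqrt hK0, Real.sq_sqrt hv0]
  linarith

end Vale.Agent.P088.R2.H338.T3

end
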