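import Vale.Agent.P088.R2.H338.T.E
import Vale.Agent.P088.TM.H332N

/-!
# P088, stage 3, STEP3: a local match preserves the measures and the energy densities
-/

set_option linter.all false

open Bundle Manifold MeasureTheory Set Filter Topology Metric
open scoped ContDiff Matrix

noncomputable section

namespace Vale.Agent.P088.R2.H338.T3

open Vale.Agent.P088
open Vale.Agent.P088.EYM hiding CUnm_statement LMatch CCont_statement CReg_statement CDiff_statement cCont cReg cDiff cDiff_ext PP SameD Gd CData_statement CMatch_statement CNear_statement CLim_statement CCoord_statement CModEq_statement CClosed_statement CGlobal_statement CChart_statement CTensor_statement wGlue wInj wClosed cUnm cMatch cChart cData cLim cCoord cModEq cClosed cGlobal cNear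
open Vale.Agent.P088.EYM.O
open Vale.Agent.P088.R2.H338 (pd_interior pd_tr trS trS_open add_mem_trS trS_rel tr_smooth thP jm
  jm_det setIntegral_tr)

universe u

theorem jac_jm {n : ℕ} [NeZero n] {Y : E n → E n} {y : E n} (hy : 0 < y 0)
    (hd : HasFDerivAt Y (fderiv ℝ Y y) y) : Jac Y y = jm Y y := by
  ext i j
  unfold Jac jm
  simp only [Matrix.of_apply]
  rw [pd_interior _ hy]
  have h4 : HasFDerivAt (fun y => Y y i)
      ((EuclideanSpace.proj (𝕜 := ℝ) i).comp (fderiv ℝ Y y)) y :=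
    (EuclideanSpace.proj (𝕜 := ℝ) i).hasFDerivAt.comp y hd
  rw [h4.fderiv]
  rfl

theorem jm_id {n : ℕ} (y : E n) : jm (fun y : E n => y) y = 1 := by
  ext i j
  unfold jm
  rw [Matrix.of_apply, fderiv_fun_id, Matrix.one_apply]
  show (EuclideanSpace.single j (1 : ℝ)) i = _
  rw [PiLp.single_apply]

/-- The inverse function theorem. -/
theorem ift' {n : ℕ} {X : E n → E n} {D₀ : Set (E n)} (hD₀o : IsOpen D₀)
    (hXs : ContDiffOn ℝ ∞ X D₀) (hdet : ∀ y ∈ D₀, (fderiv ℝ X y).det ≠ 0) {x : E n}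
    (hxD₀ : x ∈ D₀) :
    ∃ (D' : Set (E n)) (Y : E n → E n) (R : ℝ), 0 < R ∧ IsOpen D' ∧ D' ⊆ D₀ ∧ x ∈ D' ∧
      MapsTo X D' (ball (X x) R) ∧ MapsTo Y (ball (X x) R) D' ∧ (∀ y ∈ D', Y (X y) = y) ∧
      (∀ z ∈ ball (X x) R, X (Y z) = z) ∧ ContDiffOn ℝ ∞ Y (ball (X x) R) := by
  have hXat : ∀ y ∈ D₀, ContDiffAt ℝ ∞ X y := fun y hy => hXs.contDiffAt (hD₀o.mem_nhds hy)
  have hXd : ∀ y ∈ D₀, DifferentiableAt ℝ X y := fun y hy =>
    (hXat y hy).differentiableAt (by norm_num)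
  have hequiv : ∀ y ∈ D₀, ∃ A : E n ≃L[ℝ] E n, (A : E n →L[ℝ] E n) = fderiv ℝ X y := fun y hy =>
    ⟨(fderiv ℝ X y).toContinuousLinearEquivOfDetNeZero (hdet y hy), by ext v; rfl⟩
  obtain ⟨A, hA⟩ := hequiv x hxD₀
  have hder : HasFDerivAt X (A : E n →L[ℝ] E n) x := by
    rw [hA]
    exact (hXd x hxD₀).hasFDerivAt
  have hxe := (hXat x hxD₀).mem_toOpenPartialHomeomorph_source hder (by norm_num)
  have hec : ∀ y, ((hXat x hxD₀).toOpenPartialHomeomorph X hder (by norm_num)) y = X y :=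
    fun y => rfl
  generalize (hXat x hxD₀).toOpenPartialHomeomorph X hder (by norm_num) = e at hxe hec
  have hT₀o : IsOpen (e.target ∩ e.symm ⁻¹' D₀) := e.symm.isOpen_inter_preimage hD₀o
  have hxT : X x ∈ e.target ∩ e.symm ⁻¹' D₀ := by
    rw [← hec x]
    refine ⟨e.map_source hxe, ?_⟩
    rw [mem_preimage, e.left_inv hxe]
    exact hxD₀
  obtain ⟨R, hR, hRs⟩ := Metric.isOpen_iff.1 hT₀o _ hxT
  refine ⟨(e.source ∩ e ⁻¹' ball (X x) R) ∩ D₀, e.symm, R, hR,
    (e.isOpen_inter_preimage isOpen_ball).inter hD₀o, inter_subset_right,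
    ⟨⟨hxe, ?_⟩, hxD₀⟩, ?_, ?_, ?_, ?_, ?_⟩
  · rw [mem_preimage, hec]
    exact mem_ball_self hR
  · rintro y ⟨⟨-, hy⟩, -⟩
    rw [mem_preimage, hec] at hy
    exact hy
  · intro z hz
    refine ⟨⟨e.map_target (hRs hz).1, ?_⟩, (hRs hz).2⟩
    rw [mem_preimage, e.right_inv (hRs hz).1]
    exact hz
  · rintro y ⟨⟨hy, -⟩, -⟩
    rw [← hec y, e.left_inv hy]
  · intro z hz
    rw [← hec, e.right_inv (hRs hz).1]
  · intro z hz
    have hz1 := hRs hz
    obtain ⟨B, hB⟩ := hequiv _ hz1.2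
    refine (e.contDiffAt_symm (f₀' := B) hz1.1 ?_ ?_).contDiffWithinAt
    · rw [hB]
      exact ((hXd _ hz1.2).hasFDerivAt).congr_of_eventuallyEq (Eventually.of_forall hec)
    · exact (hXat _ hz1.2).congr_of_eventuallyEq (Eventually.of_forall hec)

section

variable {n N : ℕ} [NeZero n] {M : Type u} [TopologicalSpace M]
  [ChartedSpace (EuclideanHalfSpace n) M] [IsManifold (𝓡∂ n) ∞ M] [MeasurableSpace M]

/-- The boundary is a null set. -/
theorem bd_null [T2Space M] [CompactSpace M] [BorelSpace M] (P : One n N M) :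
    P.μ ((𝓡∂ n).boundary M) = 0 := by
  haveI := (TM.fInt n N M P).1
  have hb := (TM.fLoc n N M).2.2.1
  obtain ⟨t, ht⟩ := isCompact_univ.elim_finite_subcover (fun p : M => (xc n p).source)
    (fun p => isOpen_extChartAt_source p)
    (fun p _ => mem_iUnion.2 ⟨p, mem_extChartAt_source p⟩)
  have h1 : (𝓡∂ n).boundary M ⊆ ⋃ p ∈ t, (xc n p).symm '' (tg n p ∩ {y : E n | y 0 = 0}) := by
    intro x hx
    obtain ⟨p, hp, hxp⟩ := mem_iUnion₂.1 (ht (mem_univ x))
    refine mem_iUnion₂.2 ⟨p, hp, xc n p x, ⟨(xc n p).map_source hxp, ?_⟩,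
      (xc n p).left_inv hxp⟩
    exact (hb p x hxp).1 hx
  refine measure_mono_null h1 ((measure_biUnion_null_iff t.countable_toSet).2 fun p hp => ?_)
  have hm : MeasurableSet (tg n p ∩ {y : E n | y 0 = 0}) := by
    refine (CPoinc_rel_meas ((TM.fLoc n N M).1 p)).inter ?_
    have hc : Continuous fun y : E n => (y 0 : ℝ) := continuous_coord 0
    exact (isClosed_singleton (x := (0 : ℝ)).preimage hc).measurableSet
  have hnull : volume (tg n p ∩ {y : E n | y 0 = 0}) = 0 :=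
    measure_mono_null inter_subset_right aFlux_plane
  obtain ⟨hmi, hI⟩ := (TM.fInt n N M P).2.2 p _ hm inter_subset_left
  have h2 := hI (fun _ => 1) aestronglyMeasurable_const
  rw [setIntegral_measure_zero _ hnull, setIntegral_const] at h2
  have h3 : P.μ.real ((xc n p).symm '' (tg n p ∩ {y : E n | y 0 = 0})) = 0 := by
    simpa using h2
  exact (measureReal_eq_zero_iff).1 h3

/-- Measures of images. -/
theorem GIn.meas {P : One n N M} {p : M} {D : Set (E n)} {X Y : E n → E n}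
    {g : E n → Matrix (Fin n) (Fin n) ℝ} {B : Set (E n)} [T2Space M] [CompactSpace M]
    [BorelSpace M] (h : GIn P p D X Y g B)
    {S : Set (E n)} (hS : MeasurableSet S) (hSB : S ⊆ B) :
    MeasurableSet (thP n p Y '' S) ∧ P.μ (thP n p Y '' S) =
      ENNReal.ofReal (∫ y in S, √(g y).det) := by
  haveI := (TM.fInt n N M P).1
  obtain ⟨h1, h2⟩ := h.integral hS hSB (G := fun _ => (1 : ℝ)) continuous_const
  refine ⟨h1, ?_⟩
  rw [setIntegral_const, smul_eq_mul, mul_one] at h2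
  have h3 : ∫ y in S, √(g y).det = P.μ.real (thP n p Y '' S) := by
    rw [h2]
    exact integral_congr_ae (Eventually.of_forall fun y => (mul_one _).symm)
  rw [h3, ofReal_measureReal]

end

section

variable {n N : ℕ} [NeZero n] {M₁ M₂ : Type u}
  [TopologicalSpace M₁] [ChartedSpace (EuclideanHalfSpace n) M₁] [IsManifold (𝓡∂ n) ∞ M₁]
  [TopologicalSpace M₂] [ChartedSpace (EuclideanHalfSpace n) M₂] [IsManifold (𝓡∂ n) ∞ M₂]
  [MeasurableSpace M₁] [MeasurableSpace M₂] {P : One n N M₁} {Q : One n N M₂} {G : TM.Gl M₁ M₂}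
  [T2Space M₁] [CompactSpace M₁] [BorelSpace M₁] [T2Space M₂] [CompactSpace M₂] [BorelSpace M₂]

/-- Common coordinates near a matched point. -/
theorem pairCh {W : Set M₂} {F : M₂ → M₁} {H : M₂ → EndF N} (hL : TM.LMatch P Q G W F H)
    {x : M₂} (hx : x ∈ W) : ∃ (D' D₁ : Set (E n)) (X₁ Y₁ : E n → E n),
      D' ⊆ {y | 0 < y 0} ∧ GIn Q x D' (fun y => y) (fun y => y) (Q.loc x).g D' ∧
      GIn P (F x) D₁ X₁ Y₁ (Q.loc x).g D' ∧ xc n x x ∈ D' ∧
      ∀ y ∈ D', thP n x (fun y => y) y ∈ W ∧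
        F (thP n x (fun y => y) y) = thP n (F x) Y₁ y := by
  obtain ⟨r, hr, hsub, hmem, hsm, -, hmet, -⟩ := TM.gUnm n N M₁ M₂ P Q G W F H hL (F x) x x hx
    (mem_extChartAt_source x) (mem_extChartAt_source (F x))
  set Ψ : E n → E n := fun y => xc n (F x) (F ((xc n x).symm y)) with hΨ
  set B := ball (xc n x x) r with hB
  have hdiff : ∀ y ∈ B, HasFDerivAt Ψ (fderiv ℝ Ψ y) y := fun y hy =>
    ((hsm.contDiffAt (isOpen_ball.mem_nhds hy)).differentiableAt (by simp)).hasFDerivAt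
  have hpos : ∀ y ∈ B, 0 < y 0 := fun y hy => (hsub hy).2
  have hmet' : ∀ y ∈ B, (Q.loc x).g y = (jm Ψ y).transpose * (P.loc (F x)).g (Ψ y) *
      jm Ψ y := by
    intro y hy
    rw [← jac_jm (hpos y hy) (hdiff y hy)]
    exact hmet y hy
  have hokQ : (Q.loc x).Ok B := CHarm_ok_mono ((TM.fLoc n N M₂).2.1 Q x) fun y hy => (hsub hy).1
  have hdet : ∀ y ∈ B, (fderiv ℝ Ψ y).det ≠ 0 := by
    intro y hy h0
    rw [jm_det] at h0
    have h1 := (hokQ.g_pos y hy).det_pos
    rw [hmet' y hy, Matrix.det_mul, h0, mul_zero] at h1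
    exact lt_irrefl _ h1
  obtain ⟨D', Y', R, hR, hD'o, hD's, hxD', hm1, hm2, hi1, hi2, hY's⟩ :=
    ift' isOpen_ball hsm hdet (mem_ball_self hr)
  refine ⟨D', ball (Ψ (xc n x x)) R, Y', Ψ, fun y hy => hpos y (hD's hy), ?_, ?_, hxD', ?_⟩
  · exact
      { opD := hD'o
        sub := fun y hy => (hsub (hD's hy)).1
        opB := hD'o
        mapsX := fun y hy => hy
        mapsY := fun y hy => hy
        inv1 := fun y hy => rfl
        inv2 := fun y hy => rfl
        smX := contDiffOn_id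
        smY := contDiffOn_id
        met := fun y hy => by
          rw [jm_id, Matrix.transpose_one, Matrix.one_mul, Matrix.mul_one] }
  · exact
      { opD := isOpen_ball
        sub := fun z hz => by
          rw [← hi2 z hz]
          exact (xc n (F x)).map_source (hmem _ (hD's (hm2 hz))).2.1
        opB := hD'o
        mapsX := hm2
        mapsY := hm1
        inv1 := hi2
        inv2 := hi1
        smX := hY's
        smY := hsm.mono hD's
        met := fun y hy => hmet' y (hD's hy) }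
  · intro y hy
    have h1 := hmem y (hD's hy)
    refine ⟨h1.1, ?_⟩
    show F ((xc n x).symm y) = (xc n (F x)).symm (xc n (F x) (F ((xc n x).symm y)))
    rw [(xc n (F x)).left_inv h1.2.1]

/-- The energy densities agree. -/
theorem pair_eq (hPA : ∀ x X, P.A.form x X = 0) (hQA : ∀ x X, Q.A.form x X = 0) {W : Set M₂}
    {F : M₂ → M₁} {H : M₂ → EndF N} (hL : TM.LMatch P Q G W F H)
    {u₁ v₁ : M₁ → Fib N} {u₂ v₂ : M₂ → Fib N} (hu₁ : SmS n u₁) (hu₂ : SmS n u₂)
    (hv₁ : SmS n v₁) (hv₂ : SmS n v₂) (hu : ∀ x ∈ W, u₂ x = u₁ (F x))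
    (hv : ∀ x ∈ W, v₂ x = v₁ (F x)) {x : M₂} (hx : x ∈ W) :
    Vale.Agent.P088.pairing Q.g Q.A u₂ v₂ x = Vale.Agent.P088.pairing P.g P.A u₁ v₁ (F x) := by
  obtain ⟨D', D₁, X₁, Y₁, hpos, hQ, hP, hx', hF⟩ := pairCh hL hx
  have hz : trS D' 0 ⊆ {x : E n | 0 < x 0} := by
    intro y hy
    have h1 : y - 0 ∈ D' := hy
    rw [sub_zero] at h1
    exact hpos h1
  have e1 := hQ.pairing hQA hz hu₂ hv₂ hx'
  have e2 := hP.pairing hPA hz hu₁ hv₁ hx'
  have e3 : thP n x (fun y => y) (xc n x x) = x := (xc n x).left_inv (mem_extChartAt_source x)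
  have e4 : thP n (F x) Y₁ (xc n x x) = F x := by
    rw [← (hF _ hx').2, e3]
  rw [e3] at e1
  rw [e4] at e2
  have hev : ∀ {a₁ : M₁ → Fib N} {a₂ : M₂ → Fib N}, (∀ x ∈ W, a₂ x = a₁ (F x)) →
      (fun y => a₂ (thP n x (fun y => y) y)) =ᶠ[𝓝 (xc n x x)]
        fun y => a₁ (thP n (F x) Y₁ y) := by
    intro a₁ a₂ ha
    filter_upwards [hQ.opB.mem_nhds hx'] with y hy
    rw [ha _ (hF y hy).1, (hF y hy).2]
  rw [(hev hu).fderiv_eq, (hev hv).fderiv_eq, ← e2] at e1
  have h0 : ((√((Q.loc x).g (xc n x x)).det : ℝ) : ℂ) ≠ 0 := by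
    exact_mod_cast (hQ.ds_pos hx').ne'
  exact mul_left_cancel₀ h0 e1

/-- The measures agree locally. -/
theorem meas_loc {W : Set M₂} {F : M₂ → M₁} {H : M₂ → EndF N} (hL : TM.LMatch P Q G W F H)
    {x : M₂} (hx : x ∈ W) : ∃ U : Set M₂, IsOpen U ∧ x ∈ U ∧ U ⊆ W ∧
      ∀ A : Set M₂, MeasurableSet A → A ⊆ U → MeasurableSet (F '' A) ∧
        P.μ (F '' A) = Q.μ A := by
  obtain ⟨D', D₁, X₁, Y₁, hpos, hQ, hP, hx', hF⟩ := pairCh hL hx
  have hU : thP n x (fun y => y) '' D' = (xc n x).source ∩ xc n x ⁻¹' D' := by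
    ext m
    constructor
    · rintro ⟨y, hy, rfl⟩
      have h1 := hQ.sub hy
      refine ⟨(xc n x).map_target h1, ?_⟩
      show xc n x ((xc n x).symm y) ∈ D'
      rw [(xc n x).right_inv h1]
      exact hy
    · rintro ⟨h1, h2⟩
      exact ⟨xc n x m, h2, (xc n x).left_inv h1⟩
  have hUo : IsOpen (thP n x (fun y => y) '' D') := by
    rw [hU]
    exact (continuousOn_extChartAt x).isOpen_inter_preimage (isOpen_extChartAt_source x) hQ.opB
  refine ⟨thP n x (fun y => y) '' D', hUo,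
    ⟨xc n x x, hx', (xc n x).left_inv (mem_extChartAt_source x)⟩, ?_, fun A hA hAU => ?_⟩
  · rintro _ ⟨y, hy, rfl⟩
    exact (hF y hy).1
  · set S : Set (E n) := D' ∩ thP n x (fun y => y) ⁻¹' A with hS
    have hSA : thP n x (fun y => y) '' S = A := by
      ext m
      constructor
      · rintro ⟨y, hy, rfl⟩
        exact hy.2
      · intro hm
        obtain ⟨y, hy, rfl⟩ := hAU hm
        exact ⟨y, ⟨hy, hm⟩, rfl⟩
    have hSm : MeasurableSet S := by
      have h1 := hQ.contTh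
      have h2 : Measurable (D'.restrict (thP n x (fun y => y))) :=
        (continuousOn_iff_continuous_restrict.1 h1).measurable
      have h3 : S = Subtype.val '' ((D'.restrict (thP n x (fun y => y))) ⁻¹' A) := by
        ext y
        constructor
        · rintro ⟨h4, h5⟩
          exact ⟨⟨y, h4⟩, h5, rfl⟩
        · rintro ⟨⟨y', h4⟩, h5, rfl⟩
          exact ⟨h4, h5⟩
      rw [h3]
      exact hQ.opB.measurableSet.subtype_image (h2 hA)
    have hSD : S ⊆ D' := inter_subset_left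
    have hFA : F '' A = thP n (F x) Y₁ '' S := by
      rw [← hSA, image_image]
      exact image_congr fun y hy => (hF y (hSD hy)).2
    obtain ⟨q1, q2⟩ := hQ.meas hSm hSD
    obtain ⟨q3, q4⟩ := hP.meas hSm hSD
    rw [hSA] at q1 q2
    rw [← hFA] at q3 q4
    exact ⟨q3, by rw [q4, q2]⟩

end

end Vale.Agent.P088.R2.H338.T3

end
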