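import Vale.Agent.P088.R2.H338.T.F
import Vale.Agent.P088.H332.Loc1

/-!
# P088, stage 3, STEP3: transfer of energies through a match
-/

set_option linter.all false

open Bundle Manifold MeasureTheory Set Filter Topology Metric
open scoped ContDiff Matrix

noncomputable section

namespace Vale.Agent.P088.R2.H338.T3

open Vale.Agent.P088
open Vale.Agent.P088.EYM hiding CUnm_statement LMatch CCont_statement CReg_statement CDiff_statement cCont cReg cDiff cDiff_ext PP SameD Gd CData_statement CMatch_statement CNear_statement CLim_statement CCoord_statement CModEq_statement CClosed_statement CGlobal_statement CChart_statement CTensor_statement wGlue wInj wClosed cUnm cMatch cChart cData cLim cCoord cModEq cClosed cGlobal cNear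
open Vale.Agent.P088.EYM.O
open Vale.Agent.P088.R2.H338 (pd_interior pd_tr trS trS_open add_mem_trS trS_rel tr_smooth thP jm
  jm_det setIntegral_tr EK ek_re ek_int)

universe u

/-- A map with vanishing differential on a connected open set is constant there. -/
theorem const_of_dmapV {n : ℕ} [NeZero n] {M : Type u} [TopologicalSpace M]
    [ChartedSpace (EuclideanHalfSpace n) M] [IsManifold (𝓡∂ n) ∞ M]
    {F₁ : Type*} [NormedAddCommGroup F₁] [NormedSpace ℝ F₁] {V : Set M} (hIo : IsOpen V)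
    (hIc : IsPreconnected V) {f : M → F₁} (hf : ContMDiffOn (𝓡∂ n) 𝓘(ℝ, F₁) ∞ f V)
    (h : ∀ x ∈ V, ∀ X : TangentSpace (𝓡∂ n) x, dmap (𝓡∂ n) f x X = 0) :
    ∀ x ∈ V, ∀ y ∈ V, f x = f y := by
  have hrel : ∀ p : M, RelOpen (tg n p) := S.brEq_relOpen (n := n)
  have hloc : ∀ x ∈ V, ∀ᶠ y in 𝓝 x, f y = f x := by
    intro x hx
    have hD : RelOpen (tgW n V x) := tgW_rel hrel hIo x
    set c := xc n x x with hc
    have hcD : c ∈ tgW n V x := ⟨mem_extChartAt_target x, by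
      rw [mem_preimage, hc, (xc n x).left_inv (mem_extChartAt_source x)]
      exact hx⟩
    obtain ⟨r, hr, hrD⟩ : ∃ r > 0, HB c r ⊆ tgW n V x := by
      obtain ⟨O, hO, hOe⟩ := hD
      rw [hOe] at hcD
      obtain ⟨r, hr, hrO⟩ := Metric.isOpen_iff.1 hO c hcD.1
      exact ⟨r, hr, by rw [hOe]; exact inter_subset_inter_left _ hrO⟩
    have h1 : ContDiffOn ℝ ∞ (lu (𝓡∂ n) x f) (HB c r) := by
      rw [← contMDiffOn_iff_contDiffOn]
      exact hf.comp ((contMDiffOn_extChartAt_symm x).mono fun y hy => (hrD hy).1)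
        fun y hy => (hrD hy).2
    have hcr : c ∈ HB c r := ⟨Metric.mem_ball_self hr, hD.subset hcD⟩
    have h2 : ∀ y ∈ HB c r, fderivWithin ℝ (lu (𝓡∂ n) x f) (HB c r) y = 0 := by
      intro y hy
      have hyt : y ∈ (extChartAt (𝓡∂ n) x).target := (hrD hy).1
      have hm : (extChartAt (𝓡∂ n) x).symm y ∈ (extChartAt (𝓡∂ n) x).source :=
        (extChartAt (𝓡∂ n) x).map_target hyt
      have hmI : (extChartAt (𝓡∂ n) x).symm y ∈ V := (hrD hy).2
      have hfm : MDifferentiableAt (𝓡∂ n) 𝓘(ℝ, F₁) f ((extChartAt (𝓡∂ n) x).symm y) :=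
        (hf.contMDiffAt (hIo.mem_nhds hmI)).mdifferentiableAt (by simp)
      rw [(relOpen_HB c r).fderivWithin_eq hy]
      ext v
      have h3 := dmap_cc (𝓡∂ n) hm hfm v
      rw [(extChartAt (𝓡∂ n) x).right_inv hyt, cChart_range] at h3
      rw [← h3]
      exact h _ hmI _
    have h4 : ∀ y ∈ HB c r, lu (𝓡∂ n) x f y = lu (𝓡∂ n) x f c := fun y hy =>
      (APoin_convex_HB c r).is_const_of_fderivWithin_eq_zero
        (h1.differentiableOn (by simp)) h2 hy hcr
    have h5 : ∀ᶠ y in 𝓝 x, xc n x y ∈ Metric.ball c r :=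
      (continuousAt_extChartAt (I := 𝓡∂ n) x).eventually (Metric.ball_mem_nhds c hr)
    filter_upwards [h5, (isOpen_extChartAt_source (I := 𝓡∂ n) x).mem_nhds
      (mem_extChartAt_source x)] with y hy hys
    have h6 := h4 (xc n x y) ⟨hy, (hrel x).subset ((xc n x).map_source hys)⟩
    unfold lu at h6
    rwa [(xc n x).left_inv hys, hc, (xc n x).left_inv (mem_extChartAt_source x)] at h6
  intro x hx y hy
  by_contra hne
  have hU : IsOpen {z | z ∈ V ∧ f z = f x} := by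
    rw [isOpen_iff_mem_nhds]
    rintro z ⟨hz, hzx⟩
    filter_upwards [hloc z hz, hIo.mem_nhds hz] with t ht htI
    exact ⟨htI, ht.trans hzx⟩
  have hV : IsOpen {z | z ∈ V ∧ f z ≠ f x} := by
    rw [isOpen_iff_mem_nhds]
    rintro z ⟨hz, hzx⟩
    filter_upwards [hloc z hz, hIo.mem_nhds hz] with t ht htI
    exact ⟨htI, by rw [ht]; exact hzx⟩
  obtain ⟨z, -, ⟨-, h1⟩, -, h2⟩ := hIc _ _ hU hV
    (fun z hz => (eq_or_ne (f z) (f x)).imp (fun h => ⟨hz, h⟩) fun h => ⟨hz, h⟩)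
    ⟨x, hx, hx, rfl⟩ ⟨y, hy, hy, fun h => hne h.symm⟩
  exact h2 h1

section

variable {n N : ℕ} [NeZero n] {M₁ M₂ : Type u}
  [TopologicalSpace M₁] [ChartedSpace (EuclideanHalfSpace n) M₁] [IsManifold (𝓡∂ n) ∞ M₁]
  [TopologicalSpace M₂] [ChartedSpace (EuclideanHalfSpace n) M₂] [IsManifold (𝓡∂ n) ∞ M₂]
  [MeasurableSpace M₁] [MeasurableSpace M₂] {P : One n N M₁} {Q : One n N M₂} {G : TM.Gl M₁ M₂}

/-- The gauge of a match is trivial for trivial connections. -/
theorem wm_one (hPA : ∀ x X, P.A.form x X = 0) (hQA : ∀ x X, Q.A.form x X = 0) {V : Set M₂}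
    {F : M₂ → M₁} {H : M₂ → EndF N} (hm : TM.WMatch P Q G V F H) (hV : IsOpen V)
    (hVc : IsPreconnected V) (hVΓ : (V ∩ G.Γ₂).Nonempty) : ∀ x ∈ V, H x = 1 := by
  obtain ⟨x₀, hx₀, hx₀'⟩ := hVΓ
  intro x hx
  rw [const_of_dmapV hV hVc hm.smH (fun y hy X => ?_) x hx x₀ hx₀]
  · exact (hm.fix x₀ hx₀ hx₀').2
  · have h1 := hm.con y hy X
    rw [hQA, hPA] at h1
    rw [ContinuousLinearMap.zero_comp, add_zero, ContinuousLinearMap.comp_zero] at h1
    exact h1

/-- A match on an open set is a local match in the interior. -/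
theorem wm_lm [ConnectedSpace M₂] {V O : Set M₂} {F : M₂ → M₁} {H : M₂ → EndF N}
    (h : TM.WMatch P Q G V F H)
    (hO : IsOpen O) (hOV : O ⊆ V) : TM.LMatch P Q G (O ∩ Mi n M₂) F H where
  isOpen := hO.inter (TM.fConn n M₂).1
  sub := inter_subset_right
  maps := fun x hx => h.int x (hOV hx.1) hx.2
  smφ := h.smF.mono fun x hx => hOV hx.1
  smV := h.smH.mono fun x hx => hOV hx.1
  unit := fun x hx => h.unit x (hOV hx.1)
  met := fun x hx => h.met x (hOV hx.1)
  con := fun x hx => h.con x (hOV hx.1)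
  sol := fun u hu x hx => h.sol u hu x (hOV hx.1)

variable [T2Space M₁] [CompactSpace M₁] [BorelSpace M₁] [T2Space M₂] [CompactSpace M₂]
  [BorelSpace M₂]

/-- The measures agree. -/
theorem meas_glob {W : Set M₂} {F : M₂ → M₁} {H : M₂ → EndF N} (hL : TM.LMatch P Q G W F H)
    (hinj : InjOn F W) {A : Set M₂} (hA : MeasurableSet A) (hAW : A ⊆ W) :
    MeasurableSet (F '' A) ∧ P.μ (F '' A) = Q.μ A := by
  have : SecondCountableTopology (EuclideanHalfSpace n) := by
    unfold EuclideanHalfSpace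
    infer_instance
  have : SecondCountableTopology M₂ :=
    ChartedSpace.secondCountable_of_sigmaCompact (EuclideanHalfSpace n) M₂
  have h1 : ∀ x : M₂, ∃ U : Set M₂, x ∈ W → IsOpen U ∧ x ∈ U ∧ U ⊆ W ∧
      ∀ A : Set M₂, MeasurableSet A → A ⊆ U → MeasurableSet (F '' A) ∧
        P.μ (F '' A) = Q.μ A := by
    intro x
    by_cases hx : x ∈ W
    · obtain ⟨U, hU⟩ := meas_loc hL hx
      exact ⟨U, fun _ => hU⟩
    · exact ⟨∅, fun h => absurd h hx⟩
  choose U hU using h1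
  obtain ⟨t, htW, htc, htU⟩ := TopologicalSpace.countable_cover_nhdsWithin
    (f := U) (s := W) fun x hx => mem_nhdsWithin_of_mem_nhds ((hU x hx).1.mem_nhds (hU x hx).2.1)
  rcases t.eq_empty_or_nonempty with rfl | htn
  · have h2 : A = ∅ := by
      rw [eq_empty_iff_forall_notMem]
      intro x hx
      have h3 := htU (hAW hx)
      simp at h3
    rw [h2, image_empty]
    simp
  obtain ⟨f, rfl⟩ := htc.exists_eq_range htn
  have hfW : ∀ k, f k ∈ W := fun k => htW ⟨k, rfl⟩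
  set Z : ℕ → Set M₂ := disjointed fun k => U (f k) with hZ
  have hZm : ∀ k, MeasurableSet (Z k) := fun k =>
    MeasurableSet.disjointed (fun k => (hU (f k) (hfW k)).1.measurableSet) k
  have hZs : ∀ k, Z k ⊆ U (f k) := fun k => disjointed_subset _ k
  have hZd : Pairwise (Function.onFun Disjoint Z) := disjoint_disjointed _
  have hcov : A ⊆ ⋃ k, Z k := by
    rw [hZ, iUnion_disjointed]
    intro x hx
    have h3 := htU (hAW hx)
    rw [biUnion_range] at h3
    exact h3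
  have hAk : A = ⋃ k, A ∩ Z k := by
    rw [← inter_iUnion, inter_eq_self_of_subset_left hcov]
  have hAm : ∀ k, MeasurableSet (A ∩ Z k) := fun k => hA.inter (hZm k)
  have hk : ∀ k, MeasurableSet (F '' (A ∩ Z k)) ∧ P.μ (F '' (A ∩ Z k)) = Q.μ (A ∩ Z k) :=
    fun k => (hU (f k) (hfW k)).2.2.2 _ (hAm k) (inter_subset_right.trans (hZs k))
  have hFA : F '' A = ⋃ k, F '' (A ∩ Z k) := by
    rw [← image_iUnion, ← hAk]
  have hd1 : Pairwise (Function.onFun Disjoint fun k => A ∩ Z k) := fun i j hij =>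
    (hZd hij).mono inter_subset_right inter_subset_right
  have hd2 : Pairwise (Function.onFun Disjoint fun k => F '' (A ∩ Z k)) := by
    intro i j hij
    refine disjoint_left.2 ?_
    rintro _ ⟨x, hx, rfl⟩ ⟨y, hy, he⟩
    have h4 : y = x := hinj (hAW hy.1) (hAW hx.1) he
    subst h4
    exact disjoint_left.1 (hZd hij) hx.2 hy.2
  rw [hFA]
  refine ⟨MeasurableSet.iUnion fun k => (hk k).1, ?_⟩
  rw [measure_iUnion hd2 fun k => (hk k).1]
  conv_rhs => rw [hAk]
  rw [measure_iUnion hd1 hAm]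
  exact tsum_congr fun k => (hk k).2

/-- Change of variables. -/
theorem int_tr {W : Set M₂} {F : M₂ → M₁} {H : M₂ → EndF N} (hL : TM.LMatch P Q G W F H)
    (hinj : InjOn F W) {A : Set M₂} (hA : MeasurableSet A) (hAW : A ⊆ W) {g : M₁ → ℝ}
    (hg : Continuous g) : ∫ x in F '' A, g x ∂P.μ = ∫ x in A, g (F x) ∂Q.μ := by
  have hFc : ContinuousOn F A := hL.smφ.continuousOn.mono hAW
  have hFm : AEMeasurable F (Q.μ.restrict A) := hFc.aemeasurable hA
  have hpre : ∀ S : Set M₁, MeasurableSet S → MeasurableSet (F ⁻¹' S ∩ A) := by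
    intro S hS
    have h2 : Measurable (A.restrict F) := (continuousOn_iff_continuous_restrict.1 hFc).measurable
    have h3 : F ⁻¹' S ∩ A = Subtype.val '' ((A.restrict F) ⁻¹' S) := by
      ext y
      constructor
      · rintro ⟨h5, h4⟩
        exact ⟨⟨y, h4⟩, h5, rfl⟩
      · rintro ⟨⟨y', h4⟩, h5, rfl⟩
        exact ⟨h5, h4⟩
    rw [h3]
    exact hA.subtype_image (h2 hS)
  obtain ⟨hFAm, -⟩ := meas_glob hL hinj hA hAW
  have hmap : Measure.map F (Q.μ.restrict A) = P.μ.restrict (F '' A) := by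
    ext S hS
    rw [Measure.map_apply_of_aemeasurable hFm hS, Measure.restrict_apply' hA,
      Measure.restrict_apply' hFAm,
      ← (meas_glob hL hinj (hpre S hS) (inter_subset_right.trans hAW)).2]
    congr 1
    ext m
    constructor
    · rintro ⟨x, ⟨hx, hxA⟩, rfl⟩
      exact ⟨hx, x, hxA, rfl⟩
    · rintro ⟨hm, x, hxA, rfl⟩
      exact ⟨x, ⟨hm, hxA⟩, rfl⟩
  rw [← hmap, integral_map hFm hg.aestronglyMeasurable]

/-- The energies over matched sets. -/
theorem ek_tr (hPA : ∀ x X, P.A.form x X = 0) (hQA : ∀ x X, Q.A.form x X = 0) {W : Set M₂}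
    {F : M₂ → M₁} {H : M₂ → EndF N} (hL : TM.LMatch P Q G W F H) (hinj : InjOn F W)
    {A : Set M₂} (hA : MeasurableSet A) (hAW : A ⊆ W) {u₁ : M₁ → Fib N} {u₂ : M₂ → Fib N}
    (hu₁ : SmS n u₁) (hu₂ : SmS n u₂) (hu : ∀ x ∈ W, u₂ x = u₁ (F x)) :
    (EK P (F '' A) u₁ u₁).re = (EK Q A u₂ u₂).re := by
  rw [ek_re P _ hu₁, ek_re Q _ hu₂]
  have hc : Continuous fun x => (Vale.Agent.P088.pairing P.g P.A u₁ u₁ x).re :=
    Complex.continuous_re.comp (continuous_pairing P.g P.A hu₁ hu₁)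
  rw [int_tr hL hinj hA hAW hc]
  refine setIntegral_congr_fun hA fun x hx => ?_
  show (Vale.Agent.P088.pairing P.g P.A u₁ u₁ (F x)).re =
    (Vale.Agent.P088.pairing Q.g Q.A u₂ u₂ x).re
  rw [pair_eq hPA hQA hL hu₁ hu₂ hu₁ hu₂ hu hu (hAW hx)]

theorem ek_compl {M : Type u} [TopologicalSpace M] [ChartedSpace (EuclideanHalfSpace n) M]
    [IsManifold (𝓡∂ n) ∞ M] [MeasurableSpace M] [T2Space M] [CompactSpace M] [BorelSpace M]
    (P : One n N M) {K : Set M} (hK : MeasurableSet K) {u : M → Fib N} (hu : SmS n u) :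
    (P.E u u).re = (EK P K u u).re + (EK P Kᶜ u u).re := by
  haveI := (TM.fInt n N M P).1
  have hi : Integrable (fun x => Vale.Agent.P088.pairing P.g P.A u u x) P.μ :=
    integrable_of_continuous (continuous_pairing P.g P.A hu hu)
  rw [← Complex.add_re]
  congr 1
  exact (integral_add_compl hK hi).symm

/-- Solutions have the boundary data of their traces. -/
theorem md_sol {u : (M₁ → Fib N) × (M₂ → Fib N)} (hG : G.Ok n N) (hu : u ∈ TM.PP P Q G) :
    TM.MD n G u.1 u.2 := by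
  obtain ⟨f₁, f₂, hf, h1, h2⟩ := hu
  obtain ⟨O₁, hO₁, hΓ₁⟩ := hG.rel₁
  obtain ⟨O₂, hO₂, hΓ₂⟩ := hG.rel₂
  refine ⟨⟨h1.smooth, ?_⟩, ⟨h2.smooth, ?_⟩, fun x hx => ?_⟩
  · refine (closure_mono ?_).trans hf.h₁.supp
    rintro x ⟨hx, hne⟩
    exact ⟨hx, by rw [← h1.boundary x hx]; exact hne⟩
  · refine (closure_mono ?_).trans hf.h₂.supp
    rintro x ⟨hx, hne⟩
    exact ⟨hx, by rw [← h2.boundary x hx]; exact hne⟩
  · have hx2 : x ∈ (𝓡∂ n).boundary M₂ := by
      rw [hΓ₂] at hx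
      exact hx.2
    have hx1 : G.ψ x ∈ (𝓡∂ n).boundary M₁ := by
      have := hG.maps hx
      rw [hΓ₁] at this
      exact this.2
    rw [h2.boundary x hx2, h1.boundary _ hx1]
    exact hf.eq x hx

/-- The energies off matched sets. -/
theorem ek_off2 [ConnectedSpace M₁] [ConnectedSpace M₂] (hG : G.Ok n N)
    (hS : TM.SameD P Q G) (hPA : ∀ x X, P.A.form x X = 0) (hQA : ∀ x X, Q.A.form x X = 0)
    {V O : Set M₂} {F : M₂ → M₁} {H : M₂ → EndF N} (hm : TM.WMatch P Q G V F H) (hO : IsOpen O)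
    (hOV : O ⊆ V) (hH : ∀ x ∈ V, H x = 1) {u : (M₁ → Fib N) × (M₂ → Fib N)}
    (hu : u ∈ TM.PP P Q G) :
    (EK P (F '' (O ∩ Mi n M₂))ᶜ u.1 u.1).re = (EK Q Oᶜ u.2 u.2).re := by
  haveI := (TM.fInt n N M₂ Q).1
  have hu' := hu
  obtain ⟨f₁, f₂, hf, h1, h2⟩ := hu'
  have hs1 : SmS n u.1 := h1.smooth
  have hs2 : SmS n u.2 := h2.smooth
  have hL := wm_lm hm hO hOV
  have hinj : InjOn F (O ∩ Mi n M₂) := by
    refine hm.inj.mono ?_
    rintro x ⟨hx1, hx2⟩
    exact ⟨hOV hx1, Or.inl hx2⟩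
  have hWm : MeasurableSet (O ∩ Mi n M₂) := hL.isOpen.measurableSet
  have hsol : ∀ x ∈ O ∩ Mi n M₂, u.2 x = u.1 (F x) := by
    intro x hx
    have h3 := hm.sol u hu x (hOV hx.1)
    rw [hH x (hOV hx.1)] at h3
    exact h3
  have e1 := ek_tr hPA hQA hL hinj hWm Subset.rfl hs1 hs2 hsol
  have e2 := ek_compl P (meas_glob hL hinj hWm Subset.rfl).1 hs1
  have e3 := ek_compl Q hWm hs2
  obtain ⟨-, hE⟩ := TM.gData n N M₁ M₂ P Q G hG hS
  have e4 : P.E u.1 u.1 = Q.E u.2 u.2 := hE u hu u.1 u.2 (md_sol hG hu)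
  have e5 : (EK Q (O ∩ Mi n M₂)ᶜ u.2 u.2).re = (EK Q Oᶜ u.2 u.2).re := by
    unfold EK
    congr 1
    refine setIntegral_congr_set ?_
    have h4 : ((O ∩ Mi n M₂)ᶜ : Set M₂) = Oᶜ ∪ (O ∩ (𝓡∂ n).boundary M₂) := by
      ext x
      rw [← ModelWithCorners.compl_interior]
      simp only [mem_compl_iff, mem_inter_iff, mem_union]
      tauto
    rw [h4]
    refine union_ae_eq_left_of_ae_eq_empty ?_
    exact ae_eq_empty.2 (measure_mono_null inter_subset_right (bd_null Q))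
  rw [← e5]
  have e6 : (P.E u.1 u.1).re = (Q.E u.2 u.2).re := by rw [e4]
  linarith

end

end Vale.Agent.P088.R2.H338.T3

end
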