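import Vale.Agent.P088.R2.H338.T.G

/-!
# P088, stage 3, STEP3: the estimate of `w`
-/

set_option linter.all false

open Bundle Manifold MeasureTheory Set Filter Topology Metric
open scoped ContDiff Matrix

noncomputable section

namespace Vale.Agent.P088.R2.H338.T3

open Vale.Agent.P088
open Vale.Agent.P088.EYM hiding CUnm_statement LMatch CCont_statement CReg_statement CDiff_statement cCont cReg cDiff cDiff_ext PP SameD Gd CData_statement CMatch_statement CNear_statement CLim_statement CCoord_statement CModEq_statement CClosed_statement CGlobal_statement CChart_statement CTensor_statement wGlue wInj wClosed cUnm cMatch cChart cData cLim cCoord cModEq cClosed cGlobal cNear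
open Vale.Agent.P088.EYM.O
open Vale.Agent.P088.R2.H31 (dj lap dj_congr dj_congr_ev lap_congr dj_mul lap_mul)
open Vale.Agent.P088.R2.H338 (pd_interior pd_tr trS trS_open add_mem_trS trS_rel tr_smooth thP jm
  jm_det setIntegral_tr cmp cmp_apply cmp_le cmp_eN dj_cmp hd hd_nonneg hd_cont dj_cont bdd_abs
  mulH1 low_bd hM hM_nonneg hM_cont fk_hM int_mono_hM EK ek_re norm_eN fderiv_smul_e cs_int
  ek_le_fk fk_para hd_add_le hd_zero ek_nonneg)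

universe u

section euclid

variable {n : ℕ} [NeZero n] {B : Set (E n)}

theorem gd_le_hd (a : E n → ℝ) (y : E n) : ∑ j, dj j a y ^ 2 ≤ hd a y :=
  le_add_of_nonneg_left (sq_nonneg _)

theorem hd_congr {a b : E n → ℝ} {y : E n} (h : a =ᶠ[𝓝 y] b) : hd a y = hd b y := by
  unfold hd
  rw [h.self_of_nhds]
  congr 1
  exact Finset.sum_congr rfl fun j _ => by rw [dj_congr h j]

theorem hd_supp {f : E n → ℝ} {y : E n} (hy : y ∉ tsupport f) : hd f y = 0 :=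
  hd_zero (notMem_tsupport_iff_eventuallyEq.1 hy)

end euclid

section

variable {n N : ℕ} [NeZero n] {M₁ M₂ : Type u}
  [TopologicalSpace M₁] [ChartedSpace (EuclideanHalfSpace n) M₁] [IsManifold (𝓡∂ n) ∞ M₁]
  [TopologicalSpace M₂] [ChartedSpace (EuclideanHalfSpace n) M₂] [IsManifold (𝓡∂ n) ∞ M₂]
  [MeasurableSpace M₁] [MeasurableSpace M₂] {P : One n N M₁} {Q : One n N M₂} {G : TM.Gl M₁ M₂}
  [T2Space M₁] [CompactSpace M₁] [BorelSpace M₁] [T2Space M₂] [CompactSpace M₂] [BorelSpace M₂]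
  [ConnectedSpace M₁] [ConnectedSpace M₂]

/-- The setting of Step 3. The source side is `Q` on `M₂`, with the coordinates `p₂, X₂, Y₂`, the
target side is `P` on `M₁`. -/
structure Set3 (P : One n N M₁) (Q : One n N M₂) (G : TM.Gl M₁ M₂) (V : Set M₂) (F : M₂ → M₁)
    (p₁ : M₁) (p₂ : M₂) (D₁ D₂ : Set (E n)) (X₁ Y₁ X₂ Y₂ : E n → E n)
    (g₁ g₂ : E n → Matrix (Fin n) (Fin n) ℝ) (b₀ : E n) (r : ℝ) (j0 : Fin N) (s₁ s₂ : E n → ℝ) :
    Prop where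
  hG : G.Ok n N
  hS : TM.SameD P Q G
  hPA : ∀ x X, P.A.form x X = 0
  hQA : ∀ x X, Q.A.form x X = 0
  hm : ∃ H : M₂ → EndF N, TM.WMatch P Q G V F H
  oV : IsOpen V
  cV : IsPreconnected V
  nV : (V ∩ G.Γ₂).Nonempty
  h₁ : GIn P p₁ D₁ X₁ Y₁ g₁ (ball b₀ r)
  h₂ : GIn Q p₂ D₂ X₂ Y₂ g₂ (ball b₀ r)
  c₁ : ∀ y ∈ ball b₀ r, thP n p₂ Y₂ y ∈ V → F (thP n p₂ Y₂ y) = thP n p₁ Y₁ y
  c₂ : ∀ y ∈ ball b₀ r, ∀ x ∈ V ∩ Mi n M₂, F x = thP n p₁ Y₁ y → x = thP n p₂ Y₂ y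
  s₁s : ContDiffOn ℝ ∞ s₁ (ball b₀ r)
  s₂s : ContDiffOn ℝ ∞ s₂ (ball b₀ r)
  s₁p : ∀ y ∈ ball b₀ r, 0 < s₁ y
  s₂p : ∀ y ∈ ball b₀ r, 0 < s₂ y
  s₁h : ∀ y ∈ ball b₀ r, dvF (gg g₁) s₁ y = 0
  s₂h : ∀ y ∈ ball b₀ r, dvF (gg g₂) s₂ y = 0
  sV : ∀ y ∈ ball b₀ r, thP n p₂ Y₂ y ∈ V → s₁ y = s₂ y

variable {V : Set M₂} {F : M₂ → M₁} {p₁ : M₁} {p₂ : M₂} {D₁ D₂ : Set (E n)}
  {X₁ Y₁ X₂ Y₂ : E n → E n} {g₁ g₂ : E n → Matrix (Fin n) (Fin n) ℝ} {b₀ : E n} {r : ℝ}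
  {j0 : Fin N} {s₁ s₂ : E n → ℝ}

/-- The quotient of the component of a function on `M` by `s`. -/
def qt {M : Type u} [TopologicalSpace M] [ChartedSpace (EuclideanHalfSpace n) M] (p : M)
    (Y : E n → E n) (j0 : Fin N) (s : E n → ℝ) (u : M → Fib N) (y : E n) : ℝ :=
  cmp j0 (u (thP n p Y y)) / s y

theorem Set3.H_one (h : Set3 P Q G V F p₁ p₂ D₁ D₂ X₁ Y₁ X₂ Y₂ g₁ g₂ b₀ r j0 s₁ s₂) :
    ∃ H : M₂ → EndF N, TM.WMatch P Q G V F H ∧ ∀ x ∈ V, H x = 1 := by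
  obtain ⟨H, hm⟩ := h.hm
  exact ⟨H, hm, wm_one h.hPA h.hQA hm h.oV h.cV h.nV⟩

theorem Set3.sol (h : Set3 P Q G V F p₁ p₂ D₁ D₂ X₁ Y₁ X₂ Y₂ g₁ g₂ b₀ r j0 s₁ s₂)
    {u : (M₁ → Fib N) × (M₂ → Fib N)} (hu : u ∈ TM.PP P Q G) : ∀ x ∈ V, u.2 x = u.1 (F x) := by
  obtain ⟨H, hm, h1⟩ := h.H_one
  intro x hx
  have h2 := hm.sol u hu x hx
  rw [h1 x hx] at h2
  exact h2

/-- `w = 0` on the matched part. -/
theorem Set3.w_zero (h : Set3 P Q G V F p₁ p₂ D₁ D₂ X₁ Y₁ X₂ Y₂ g₁ g₂ b₀ r j0 s₁ s₂)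
    {u : (M₁ → Fib N) × (M₂ → Fib N)} (hu : u ∈ TM.PP P Q G) {y : E n} (hy : y ∈ ball b₀ r)
    (hyV : thP n p₂ Y₂ y ∈ V) : qt p₁ Y₁ j0 s₁ u.1 y = qt p₂ Y₂ j0 s₂ u.2 y := by
  unfold qt
  rw [h.sol hu _ hyV, h.c₁ y hy hyV, h.sV y hy hyV]

/-- The estimate of `w`. -/
theorem Set3.wEst (h : Set3 P Q G V F p₁ p₂ D₁ D₂ X₁ Y₁ X₂ Y₂ g₁ g₂ b₀ r j0 s₁ s₂)
    {r' : ℝ} (hr' : 0 < r') (hrr : r' < r) {O : Set M₂} (hO : IsOpen O) (hOV : O ⊆ V)
    {D : Set (E n)} (hD : MeasurableSet D) (hDB : D ⊆ ball b₀ r')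
    (hne : ∃ y ∈ ball b₀ r', thP n p₂ Y₂ y ∈ O) :
    ∃ c : ℝ, 0 ≤ c ∧ ∀ (f : E n → ℝ) (T : M₂ → Fib N) (u : (M₁ → Fib N) × (M₂ → Fib N)),
      ContDiff ℝ ∞ f → tsupport f ⊆ D → SmS n T →
      (∀ y ∈ ball b₀ r, T (thP n p₂ Y₂ y) = (s₂ y * f y) • eN N j0) →
      tsupport T ⊆ thP n p₂ Y₂ '' tsupport f → u ∈ TM.PP P Q G →
      (∫ y in ball b₀ r', hd (fun y => qt p₁ Y₁ j0 s₁ u.1 y - qt p₂ Y₂ j0 s₂ u.2 y) y) ≤
        c * ((FK Q Oᶜ (T - u.2) (T - u.2)).re +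
          ∫ y in D \ {y | y ∈ ball b₀ r ∧ thP n p₂ Y₂ y ∈ O}, hd f y) := by
  have hr : 0 < r := hr'.trans hrr
  obtain ⟨z, hz⟩ := exists_tr b₀ r hr
  set C : Set (E n) := closedBall b₀ r' with hCd
  have hC : IsCompact C := isCompact_closedBall _ _
  have hCB : C ⊆ ball b₀ r := closedBall_subset_ball hrr
  have hUC : ball b₀ r' ⊆ C := ball_subset_closedBall
  set Gb : Set (E n) := {y | y ∈ ball b₀ r ∧ thP n p₂ Y₂ y ∈ O} with hGb
  have hGo : IsOpen Gb := h.h₂.contTh.isOpen_inter_preimage h.h₂.opB hO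
  -- a small ball
  obtain ⟨a, ha, haO⟩ := hne
  obtain ⟨ρ, hρ, hρs⟩ := Metric.isOpen_iff.1 (isOpen_ball.inter hGo) a
    ⟨ha, ball_subset_ball hrr.le ha, haO⟩
  obtain ⟨k1, hk1, p1⟩ := poinBall hr' hrr hρ (hρs.trans inter_subset_left)
  obtain ⟨k2, hk2, p2⟩ := h.h₁.G_le h.hPA hz j0 hC hCB
  obtain ⟨k3, hk3, p3⟩ := h.h₂.close h.hQA hz j0 hC hCB h.s₂s h.s₂p
  obtain ⟨k4, hk4, p4⟩ := h.h₂.FKT h.hQA hz j0 hC hCB h.s₂s
  obtain ⟨k5, hk5, p5⟩ := mulH1 h.h₁.opB hC hCB h.s₁s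
  obtain ⟨k6, hk6, p6⟩ := mulH1 h.h₁.opB hC hCB (h.s₁s.inv fun y hy => (h.s₁p y hy).ne')
  obtain ⟨H, hm, hH⟩ := h.H_one
  refine ⟨k6 * ((k1 + 1) * (2 * (k2 * (2 * k4 + 2)) + 2 * (k5 * (2 + 2 * k3)))),
    by positivity, fun f T u hf hfD hT hTe hTs hu => ?_⟩
  obtain ⟨f₁, f₂, -, hu1, hu2⟩ := id hu
  have hs1 : SmS n u.1 := hu1.smooth
  have hs2 : SmS n u.2 := hu2.smooth
  set v : E n → ℝ := qt p₂ Y₂ j0 s₂ u.2 with hv
  set a₁ : E n → ℝ := fun y => cmp j0 (u.1 (thP n p₁ Y₁ y)) with ha₁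
  set ζ : E n → ℝ := fun y => a₁ y - s₁ y * v y with hζ
  have sm1 : ContDiffOn ℝ ∞ a₁ (ball b₀ r) := (cmp j0).contDiff.comp_contDiffOn (h.h₁.smU hs1)
  have smv : ContDiffOn ℝ ∞ v (ball b₀ r) :=
    ((cmp j0).contDiff.comp_contDiffOn (h.h₂.smU hs2)).div h.s₂s fun y hy => (h.s₂p y hy).ne'
  have smsv : ContDiffOn ℝ ∞ (fun y => s₁ y * v y) (ball b₀ r) := h.s₁s.mul smv
  have smζ : ContDiffOn ℝ ∞ ζ (ball b₀ r) := sm1.sub smsv
  set I₁ := (FK Q Oᶜ (T - u.2) (T - u.2)).re with hI₁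
  set I₂ := ∫ y in D \ Gb, hd f y with hI₂
  have hI₁0 : 0 ≤ I₁ := fk_nonneg Q _ (hT.sub hs2)
  have hI₂0 : 0 ≤ I₂ := integral_nonneg fun y => hd_nonneg _ _
  have hSm : MeasurableSet (ball b₀ r' \ Gb) := measurableSet_ball.diff hGo.measurableSet
  have hSC : ball b₀ r' \ Gb ⊆ C := diff_subset.trans hUC
  have hSB : ball b₀ r' \ Gb ⊆ ball b₀ r := hSC.trans hCB
  -- `ζ` vanishes on `Gb`
  have hζG : ∀ y ∈ Gb, ζ =ᶠ[𝓝 y] fun _ => 0 := by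
    intro y hy
    filter_upwards [hGo.mem_nhds hy] with x hx
    have e1 := h.w_zero hu hx.1 (hOV hx.2)
    have e2 := (h.s₁p x hx.1).ne'
    show a₁ x - s₁ x * v x = 0
    rw [hv, ← e1]
    show cmp j0 (u.1 (thP n p₁ Y₁ x)) - s₁ x * (cmp j0 (u.1 (thP n p₁ Y₁ x)) / s₁ x) = 0
    field_simp
    ring
  -- `w` in terms of `ζ`
  have b1 : (∫ y in ball b₀ r', hd (fun y => qt p₁ Y₁ j0 s₁ u.1 y - v y) y) ≤
      k6 * ∫ y in ball b₀ r', hd ζ y := by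
    rw [← integral_const_mul]
    have smw : ContDiffOn ℝ ∞ (fun y => qt p₁ Y₁ j0 s₁ u.1 y - v y) (ball b₀ r) :=
      (sm1.div h.s₁s fun y hy => (h.s₁p y hy).ne').sub smv
    refine setIntegral_mono_on
      (((hd_cont isOpen_ball smw).mono hCB).integrableOn_compact hC |>.mono_set hUC)
      ((((hd_cont isOpen_ball smζ).mono hCB).integrableOn_compact hC |>.mono_set hUC).const_mul _)
      measurableSet_ball fun y hy => ?_
    have hyB := hCB (hUC hy)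
    have e3 : (fun y => qt p₁ Y₁ j0 s₁ u.1 y - v y) =ᶠ[𝓝 y] fun x => (s₁ x)⁻¹ * ζ x := by
      filter_upwards [isOpen_ball.mem_nhds hyB] with x hx
      have e2 := (h.s₁p x hx).ne'
      show cmp j0 (u.1 (thP n p₁ Y₁ x)) / s₁ x - v x =
        (s₁ x)⁻¹ * (cmp j0 (u.1 (thP n p₁ Y₁ x)) - s₁ x * v x)
      field_simp
    rw [hd_congr e3]
    exact p6 ζ y (hUC hy) (diffAt isOpen_ball smζ hyB)
  -- Poincaré
  have ic : ContinuousOn (fun y => ∑ j, dj j ζ y ^ 2) (ball b₀ r) :=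
    continuousOn_finsetSum _ fun j _ => (dj_cont isOpen_ball smζ j).pow 2
  have i1 : IntegrableOn (fun y => ζ y ^ 2) (ball b₀ r') :=
    (((smζ.continuousOn.pow 2).mono hCB).integrableOn_compact hC).mono_set hUC
  have i2 : IntegrableOn (fun y => ∑ j, dj j ζ y ^ 2) (ball b₀ r') :=
    ((ic.mono hCB).integrableOn_compact hC).mono_set hUC
  have b2 : ∫ y in ball b₀ r', hd ζ y ≤ (k1 + 1) * ∫ y in ball b₀ r', ∑ j, dj j ζ y ^ 2 := by
    have e4 : ∫ y in ball b₀ r', hd ζ y = (∫ y in ball b₀ r', ζ y ^ 2) +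
        ∫ y in ball b₀ r', ∑ j, dj j ζ y ^ 2 := by
      rw [← integral_add i1 i2]
      rfl
    rw [e4, add_mul, one_mul]
    exact add_le_add (p1 ζ smζ fun y hy => (hζG y (hρs hy).2).self_of_nhds) le_rfl
  -- off `Gb`
  have b3 : ∫ y in ball b₀ r', ∑ j, dj j ζ y ^ 2 = ∫ y in ball b₀ r' \ Gb,
      ∑ j, dj j ζ y ^ 2 := by
    refine setIntegral_eq_of_subset_of_forall_sdiff_eq_zero measurableSet_ball diff_subset ?_
    intro y hy
    by_contra hne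
    refine hy.2 ⟨hy.1, fun hyG => hne ?_⟩
    have e5 := hd_zero (hζG y hyG)
    have e6 := gd_le_hd ζ y
    rw [e5] at e6
    exact le_antisymm e6 (Finset.sum_nonneg fun j _ => sq_nonneg _)
  -- the two parts
  have ia : IntegrableOn (fun y => ∑ j, dj j a₁ y ^ 2) (ball b₀ r' \ Gb) :=
    (((continuousOn_finsetSum _ fun j _ => (dj_cont isOpen_ball sm1 j).pow 2).mono
      hCB).integrableOn_compact hC).mono_set hSC
  have isv : IntegrableOn (hd fun y => s₁ y * v y) (ball b₀ r' \ Gb) :=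
    (((hd_cont isOpen_ball smsv).mono hCB).integrableOn_compact hC).mono_set hSC
  have b4 : ∫ y in ball b₀ r' \ Gb, ∑ j, dj j ζ y ^ 2 ≤
      2 * (∫ y in ball b₀ r' \ Gb, ∑ j, dj j a₁ y ^ 2) +
        2 * ∫ y in ball b₀ r' \ Gb, hd (fun y => s₁ y * v y) y := by
    rw [← integral_const_mul, ← integral_const_mul,
      ← integral_add (ia.const_mul _) (isv.const_mul _)]
    refine setIntegral_mono_on (i2.mono_set diff_subset)
      ((ia.const_mul _).add (isv.const_mul _)) hSm fun y hy => ?_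
    have hyB := hSB hy
    have d1 := diffAt isOpen_ball sm1 hyB
    have d2 := diffAt isOpen_ball smsv hyB
    have e7 : ∑ j, dj j ζ y ^ 2 ≤ 2 * ∑ j, dj j a₁ y ^ 2 +
        2 * ∑ j, dj j (fun y => s₁ y * v y) y ^ 2 := by
      rw [Finset.mul_sum, Finset.mul_sum, ← Finset.sum_add_distrib]
      refine Finset.sum_le_sum fun j _ => ?_
      rw [hζ, H31.dj_sub d1 d2]
      nlinarith [sq_nonneg (dj j a₁ y + dj j (fun y => s₁ y * v y) y)]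
    refine e7.trans (add_le_add le_rfl (mul_le_mul_of_nonneg_left (gd_le_hd _ y) (by norm_num)))
  -- the energy of `u₁`
  have him : thP n p₁ Y₁ '' (ball b₀ r' \ Gb) ⊆ (F '' (O ∩ Mi n M₂))ᶜ := by
    rintro _ ⟨y, hy, rfl⟩ ⟨x, hx, hxe⟩
    have hyB := hSB hy
    have e8 := h.c₂ y hyB x ⟨hOV hx.1, hx.2⟩ hxe
    exact hy.2 ⟨hyB, by rw [← e8]; exact hx.1⟩
  have b5 := p2 u.1 _ _ hs1 hSm hSC him
  rw [ek_off2 h.hG h.hS h.hPA h.hQA hm hO hOV hH hu] at b5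
  have him2 : thP n p₂ Y₂ '' (ball b₀ r' \ Gb) ⊆ Oᶜ := by
    rintro _ ⟨y, hy, rfl⟩ hyO
    exact hy.2 ⟨hSB hy, hyO⟩
  have b6 : (EK Q Oᶜ u.2 u.2).re ≤ 2 * (k4 * I₂) + 2 * I₁ := by
    have e9 := ek_le_fk Q Oᶜ hs2
    have hTu : SmS n (T - u.2) := hT.sub hs2
    have e10 := fk_para Q Oᶜ hT hTu
    rw [sub_sub_cancel] at e10
    have e11 := p4 f T O D hD (hDB.trans hUC) hf hfD hT hO hTe hTs
    linarith
  -- `v`
  have b7 := p3 f T u.2 _ Oᶜ hf hT hs2 hSm hSC him2 hTe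
  have hfs : ∫ y in ball b₀ r' \ Gb, hd f y = I₂ := by
    refine setIntegral_eq_of_subset_of_forall_sdiff_eq_zero hSm
      (diff_subset_diff_left hDB) fun y hy => ?_
    refine hd_supp fun hyf => hy.2 ⟨hfD hyf, hy.1.2⟩
  have if1 : IntegrableOn (hd f) (ball b₀ r' \ Gb) :=
    (((hd_cont isOpen_ball hf.contDiffOn).mono hCB).integrableOn_compact hC).mono_set hSC
  have smfv : ContDiffOn ℝ ∞ (fun y => f y - v y) (ball b₀ r) := hf.contDiffOn.sub smv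
  have if2 : IntegrableOn (hd fun y => f y - v y) (ball b₀ r' \ Gb) :=
    (((hd_cont isOpen_ball smfv).mono hCB).integrableOn_compact hC).mono_set hSC
  have b8 : ∫ y in ball b₀ r' \ Gb, hd (fun y => s₁ y * v y) y ≤
      k5 * (2 * I₂ + 2 * (k3 * I₁)) := by
    have e12 : ∫ y in ball b₀ r' \ Gb, hd (fun y => s₁ y * v y) y ≤
        ∫ y in ball b₀ r' \ Gb, k5 * (2 * hd f y + 2 * hd (fun y => f y - v y) y) := by
      refine setIntegral_mono_on isv (((if1.const_mul 2).add (if2.const_mul 2)).const_mul k5)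
        hSm fun y hy => ?_
      have hyB := hSB hy
      refine (p5 v y (hSC hy) (diffAt isOpen_ball smv hyB)).trans
        (mul_le_mul_of_nonneg_left ?_ hk5)
      have e13 := hd_add_le (hf.differentiable (by simp) y)
        (diffAt isOpen_ball smfv hyB)
      have e14 : (fun x => f x - (f x - v x)) = v := by
        funext x
        ring
      rw [e14] at e13
      exact e13
    refine e12.trans ?_
    rw [integral_const_mul, integral_add (if1.const_mul 2) (if2.const_mul 2),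
      integral_const_mul, integral_const_mul, hfs]
    refine mul_le_mul_of_nonneg_left ?_ hk5
    exact add_le_add le_rfl (mul_le_mul_of_nonneg_left b7 (by norm_num))
  have b9 : ∫ y in ball b₀ r', ∑ j, dj j ζ y ^ 2 ≤
      2 * (k2 * (2 * (k4 * I₂) + 2 * I₁)) + 2 * (k5 * (2 * I₂ + 2 * (k3 * I₁))) := by
    rw [b3]
    refine b4.trans (add_le_add (mul_le_mul_of_nonneg_left (b5.trans
      (mul_le_mul_of_nonneg_left b6 hk2)) (by norm_num))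
      (mul_le_mul_of_nonneg_left b8 (by norm_num)))
  have b10 : 2 * (k2 * (2 * (k4 * I₂) + 2 * I₁)) + 2 * (k5 * (2 * I₂ + 2 * (k3 * I₁))) ≤
      (2 * (k2 * (2 * k4 + 2)) + 2 * (k5 * (2 + 2 * k3))) * (I₁ + I₂) := by
    nlinarith [mul_nonneg hk2 hI₂0, mul_nonneg hk5 hI₁0, mul_nonneg (mul_nonneg hk2 hk4) hI₁0,
      mul_nonneg (mul_nonneg hk5 hk3) hI₂0]
  calc _ ≤ k6 * ∫ y in ball b₀ r', hd ζ y := b1
    _ ≤ k6 * ((k1 + 1) * ∫ y in ball b₀ r', ∑ j, dj j ζ y ^ 2) :=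
      mul_le_mul_of_nonneg_left b2 hk6
    _ ≤ k6 * ((k1 + 1) * ((2 * (k2 * (2 * k4 + 2)) + 2 * (k5 * (2 + 2 * k3))) * (I₁ + I₂))) :=
      mul_le_mul_of_nonneg_left (mul_le_mul_of_nonneg_left (b9.trans b10) (by positivity)) hk6
    _ = _ := by ring

end

end Vale.Agent.P088.R2.H338.T3

end
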