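import Vale.Agent.P088.R2.H338.T.H

/-!
# P088, stage 3, STEP3: linear structure, the theorem
-/

set_option linter.all false

open Bundle Manifold MeasureTheory Set Filter Topology Metric
open scoped ContDiff Matrix

noncomputable section

namespace Vale.Agent.P088.R2.H338.T3

open Vale.Agent.P088
open Vale.Agent.P088.EYM hiding CUnm_statement LMatch CCont_statement CReg_statement CDiff_statement cCont cReg cDiff cDiff_ext PP SameD Gd CData_statement CMatch_statement CNear_statement CLim_statement CCoord_statement CModEq_statement CClosed_statement CGlobal_statement CChart_statement CTensor_statement wGlue wInj wClosed cUnm cMatch cChart cData cLim cCoord cModEq cClosed cGlobal cNear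
open Vale.Agent.P088.EYM.O
open Vale.Agent.P088.R2.H31 (dj lap dj_congr dj_congr_ev lap_congr dj_mul lap_mul)
open Vale.Agent.P088.R2.H338 (pd_interior pd_tr trS trS_open add_mem_trS trS_rel tr_smooth thP jm
  jm_det setIntegral_tr cmp cmp_apply cmp_le cmp_eN dj_cmp hd hd_nonneg hd_cont dj_cont bdd_abs
  mulH1 low_bd hM hM_nonneg hM_cont fk_hM int_mono_hM EK ek_re norm_eN fderiv_smul_e cs_int
  ek_le_fk fk_para hd_add_le hd_zero ek_nonneg runQ)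

universe u

section one

variable {n N : ℕ} [NeZero n] {M : Type u} [TopologicalSpace M]
  [ChartedSpace (EuclideanHalfSpace n) M] [IsManifold (𝓡∂ n) ∞ M]

theorem smul_re (c : ℝ) (u : M → Fib N) : c • u = (c : ℂ) • u := by
  funext x
  exact (Complex.coe_smul c (u x)).symm

variable (n N M) in
/-- Smooth sections, over `ℝ`. -/
def smSub : Submodule ℝ (M → Fib N) where
  carrier := {u | SmS n u}
  add_mem' := fun ha hb => crungea_add ha hb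
  zero_mem' := contMDiff_const
  smul_mem' := fun c u hu => by
    rw [smul_re]
    exact crungea_smul hu c

variable [MeasurableSpace M] [T2Space M] [CompactSpace M] [BorelSpace M]

/-- The real part of the `H¹` form. -/
def fkB (Q : One n N M) (K : Set M) : smSub n N M →ₗ[ℝ] smSub n N M →ₗ[ℝ] ℝ :=
  LinearMap.mk₂ ℝ (fun a b => (FK Q K a.1 b.1).re)
    (fun a b c => by
      have h1 := fk_add Q K c.2 a.2 b.2
      have h2 := congrArg (starRingEnd ℂ) h1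
      rw [map_add, ← fk_conj, ← fk_conj, ← fk_conj] at h2
      show (FK Q K (a.1 + b.1) c.1).re = _
      rw [h2, Complex.add_re])
    (fun t a b => by
      have h1 := fk_smul Q K t b.2 a.2
      have h2 := congrArg (starRingEnd ℂ) h1
      rw [map_mul, ← fk_conj, ← fk_conj, Complex.conj_ofReal] at h2
      show (FK Q K (t • a.1) b.1).re = _
      rw [smul_re, h2, Complex.re_ofReal_mul]
      rfl)
    (fun a b c => by
      have h1 := fk_add Q K a.2 b.2 c.2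
      show (FK Q K a.1 (b.1 + c.1)).re = _
      rw [h1, Complex.add_re])
    (fun t a b => by
      have h1 := fk_smul Q K t a.2 b.2
      show (FK Q K a.1 (t • b.1)).re = _
      rw [smul_re, h1, Complex.re_ofReal_mul]
      rfl)

theorem fkB_apply (Q : One n N M) (K : Set M) (a b : smSub n N M) :
    fkB Q K a b = (FK Q K a.1 b.1).re := rfl

theorem fkB_symm (Q : One n N M) (K : Set M) (a b : smSub n N M) :
    fkB Q K a b = fkB Q K b a := by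
  rw [fkB_apply, fkB_apply, fk_conj Q K b.1 a.1, Complex.conj_re]

theorem fkB_nonneg (Q : One n N M) (K : Set M) (a : smSub n N M) : 0 ≤ fkB Q K a a :=
  fk_nonneg Q K a.2

end one

section

variable {n N : ℕ} [NeZero n] {M₁ M₂ : Type u}
  [TopologicalSpace M₁] [ChartedSpace (EuclideanHalfSpace n) M₁] [IsManifold (𝓡∂ n) ∞ M₁]
  [TopologicalSpace M₂] [ChartedSpace (EuclideanHalfSpace n) M₂] [IsManifold (𝓡∂ n) ∞ M₂]
  [MeasurableSpace M₁] [MeasurableSpace M₂] {P : One n N M₁} {Q : One n N M₂} {G : TM.Gl M₁ M₂}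
  [T2Space M₁] [CompactSpace M₁] [BorelSpace M₁] [T2Space M₂] [CompactSpace M₂] [BorelSpace M₂]
  [ConnectedSpace M₁] [ConnectedSpace M₂]

theorem bd_ne {Γ : Set M₁} (hΓ : RelBd n Γ) (hn : Γ.Nonempty) :
    ((𝓡∂ n).boundary M₁).Nonempty := by
  obtain ⟨O, -, rfl⟩ := hΓ
  exact hn.mono inter_subset_right

/-- Linear combinations of pairs. -/
theorem pp_lin (hG : G.Ok n N) {u v : (M₁ → Fib N) × (M₂ → Fib N)} (a b : ℂ)
    (hu : u ∈ TM.PP P Q G) (hv : v ∈ TM.PP P Q G) :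
    (a • u.1 + b • v.1, a • u.2 + b • v.2) ∈ TM.PP P Q G := by
  obtain ⟨f₁, f₂, hf, h1, h2⟩ := hu
  obtain ⟨f₁', f₂', hf', h1', h2'⟩ := hv
  refine ⟨a • f₁ + b • f₁', a • f₂ + b • f₂', ⟨CNear_bdry_lin a b hf.h₁ hf'.h₁,
    CNear_bdry_lin a b hf.h₂ hf'.h₂, fun x hx => ?_⟩,
    (TM.fUniq n N M₁ P (bd_ne hG.rel₁ hG.ne₁)).2.1 f₁ f₁' u.1 v.1 a b h1 h1',
    (TM.fUniq n N M₂ Q (bd_ne hG.rel₂ hG.ne₂)).2.1 f₂ f₂' u.2 v.2 a b h2 h2'⟩
  show a • f₂ x + b • f₂' x = a • f₁ (G.ψ x) + b • f₁' (G.ψ x)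
  rw [hf.eq x hx, hf'.eq x hx]

/-- The pairs, over `ℝ`. -/
def ppSub (P : One n N M₁) (Q : One n N M₂) (G : TM.Gl M₁ M₂) (hG : G.Ok n N)
    (hS : TM.SameD P Q G) : Submodule ℝ ((M₁ → Fib N) × (M₂ → Fib N)) where
  carrier := TM.PP P Q G
  add_mem' := fun {u v} hu hv => by
    have h := pp_lin hG 1 1 hu hv
    simp only [one_smul] at h
    exact h
  zero_mem' := by
    have h0 : ∀ {M : Type u} [TopologicalSpace M] [ChartedSpace (EuclideanHalfSpace n) M]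
        (Γ : Set M), IsBdryData (𝓡∂ n) Γ (0 : M → Fib N) := fun Γ =>
      ⟨contMDiff_const, by simp⟩
    obtain ⟨u₁, v₁, u₂, v₂, h1, -, h2, -, -⟩ := hS 0 0 0 0 ⟨h0 _, h0 _, fun x hx => rfl⟩
      ⟨h0 _, h0 _, fun x hx => rfl⟩
    have h := pp_lin (P := P) (Q := Q) hG 0 0 (u := (u₁, u₂)) (v := (u₁, u₂))
      ⟨0, 0, ⟨h0 _, h0 _, fun x hx => rfl⟩, h1, h2⟩ ⟨0, 0, ⟨h0 _, h0 _, fun x hx => rfl⟩, h1, h2⟩
    simp only [zero_smul, add_zero] at h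
    exact h
  smul_mem' := fun c u hu => by
    have h := pp_lin hG c 0 hu hu
    simp only [zero_smul, add_zero, ← smul_re] at h
    exact h

/-- Every solution on `M₂` has a partner. -/
theorem partner (hG : G.Ok n N) (hS : TM.SameD P Q G) {u₂ : M₂ → Fib N} (hu : u₂ ∈ Q.U G.Γ₂) :
    ∃ u₁, (u₁, u₂) ∈ TM.PP P Q G := by
  obtain ⟨f₂, hf₂, h2⟩ := hu
  obtain ⟨⟨hP, -, -⟩, -⟩ := TM.gData n N M₁ M₂ P Q G hG hS
  obtain ⟨f₁, hf₁, he⟩ := hG.ext' f₂ hf₂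
  obtain ⟨u₁, h1⟩ := hP f₁ hf₁
  refine ⟨u₁, f₁, f₂, ⟨hf₁, hf₂, fun x hx => ?_⟩, h1, h2⟩
  have := he (G.ψ x) (hG.maps hx)
  rw [hG.inv x hx] at this
  exact this.symm

/-- The support of an extension by zero. -/
theorem T_supp {p : M₂} {D : Set (E n)} {X Y : E n → E n}
    {g : E n → Matrix (Fin n) (Fin n) ℝ} {B : Set (E n)} (h : GIn Q p D X Y g B) {j0 : Fin N}
    {s f : E n → ℝ} {T : M₂ → Fib N} {K : Set (E n)} (hKB : K ⊆ B) (hfK : tsupport f ⊆ K)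
    (hf : HasCompactSupport f)
    (hTe : ∀ y ∈ B, T (thP n p Y y) = (s y * f y) • eN N j0)
    (hT0 : ∀ x, x ∉ thP n p Y '' K → T x = 0) : tsupport T ⊆ thP n p Y '' tsupport f := by
  have hc : IsClosed (thP n p Y '' tsupport f) :=
    (hf.isCompact.image_of_continuousOn (h.contTh.mono (hfK.trans hKB))).isClosed
  refine closure_minimal ?_ hc
  intro x hx
  rw [Function.mem_support] at hx
  by_contra hxn
  by_cases hxK : x ∈ thP n p Y '' K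
  · obtain ⟨y, hy, rfl⟩ := hxK
    have h1 : y ∉ tsupport f := fun h2 => hxn ⟨y, h2, rfl⟩
    rw [hTe y (hKB hy), image_eq_zero_of_notMem_tsupport h1, mul_zero, zero_smul] at hx
    exact hx rfl
  · exact hx (hT0 x hxK)

variable {V : Set M₂} {F : M₂ → M₁} {p₁ : M₁} {p₂ : M₂} {D₁ D₂ : Set (E n)}
  {X₁ Y₁ X₂ Y₂ : E n → E n} {g₁ g₂ : E n → Matrix (Fin n) (Fin n) ℝ} {b₀ : E n} {r : ℝ}
  {j0 : Fin N} {s₁ s₂ : E n → ℝ}

theorem qt_sum {M : Type u} [TopologicalSpace M] [ChartedSpace (EuclideanHalfSpace n) M] (p : M)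
    (Y : E n → E n) (j0 : Fin N) (s : E n → ℝ) {d : ℕ} (c : Fin d → ℝ) (u : Fin d → M → Fib N)
    (y : E n) : qt p Y j0 s (∑ q, c q • u q) y = ∑ q, c q * qt p Y j0 s (u q) y := by
  unfold qt
  rw [Finset.sum_apply, map_sum, Finset.sum_div]
  refine Finset.sum_congr rfl fun q _ => ?_
  rw [Pi.smul_apply, map_smul, smul_eq_mul, mul_div_assoc]

/-- Solutions of the equation with the coefficients `s² √g g⁻¹`. -/
theorem sol_qt {M : Type u} [TopologicalSpace M] [ChartedSpace (EuclideanHalfSpace n) M]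
    [IsManifold (𝓡∂ n) ∞ M] [MeasurableSpace M] [T2Space M] [CompactSpace M] [BorelSpace M]
    {P : One n N M} {p : M} {D : Set (E n)} {X Y : E n → E n}
    {g : E n → Matrix (Fin n) (Fin n) ℝ} {B : Set (E n)} (h : GIn P p D X Y g B)
    (hA : ∀ x X, P.A.form x X = 0) {z : E n} (hz : trS B z ⊆ {x | 0 < x 0}) {j0 : Fin N}
    {s : E n → ℝ} (hs : ContDiffOn ℝ ∞ s B) (hp : ∀ y ∈ B, 0 < s y)
    (hl : ∀ y ∈ B, dvF (gg g) s y = 0) {f u : M → Fib N} (hu : P.Harm f u) :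
    ContDiffOn ℝ ∞ (qt p Y j0 s u) B ∧ ∀ y ∈ B, dvF (sg g s) (qt p Y j0 s u) y = 0 := by
  have sm : ContDiffOn ℝ ∞ (qt p Y j0 s u) B :=
    ((cmp j0).contDiff.comp_contDiffOn (h.smU hu.smooth)).div hs fun y hy => (hp y hy).ne'
  refine ⟨sm, fun y hy => ?_⟩
  have h3 := dvF_quot h.opB h.sm_gg (fun j k y hy => gg_symm (h.symm_g hy) j k) hs sm hy
  have h4 : dvF (sg g s) (qt p Y j0 s u) y =
      s y * dvF (gg g) (fun y => s y * qt p Y j0 s u y) y := by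
    unfold sg
    rw [h3, hl y hy, mul_zero, sub_zero]
  have h5 : (fun y => s y * qt p Y j0 s u y) =ᶠ[𝓝 y] fun y => cmp j0 (u (thP n p Y y)) := by
    filter_upwards [h.opB.mem_nhds hy] with x hx
    have := (hp x hx).ne'
    show s x * (cmp j0 (u (thP n p Y x)) / s x) = _
    field_simp
  rw [h4, dvF_congr h5, h.harmR hA hz j0 hu hy, mul_zero]

theorem dvF_sum {B : Set (E n)} {a : Fin n → Fin n → E n → ℝ} (hB : IsOpen B)
    (ha : ∀ j k, ContDiffOn ℝ ∞ (a j k) B) {d : ℕ} (c : Fin d → ℝ) {f : Fin d → E n → ℝ}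
    (hf : ∀ q, ContDiffOn ℝ ∞ (f q) B) {y : E n} (hy : y ∈ B) :
    dvF a (fun y => ∑ q, c q * f q y) y = ∑ q, c q * dvF a (f q) y := by
  have hF : ContDiffOn ℝ ∞ (fun y q => f q y : E n → Fin d → ℝ) B := contDiffOn_pi.2 hf
  let L : (Fin d → ℝ) →L[ℝ] ℝ := ∑ q, c q • ContinuousLinearMap.proj (R := ℝ) (φ := fun _ => ℝ) q
  have hL : ∀ v, L v = ∑ q, c q * v q := by
    intro v
    simp [L, ContinuousLinearMap.sum_apply]
  have h1 := dvF_clm L hB ha hF hy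
  have h2 : ∀ q, dvF a (f q) y = (dvF a (fun y q => f q y : E n → Fin d → ℝ) y) q := fun q =>
    dvF_clm (ContinuousLinearMap.proj (R := ℝ) (φ := fun _ => ℝ) q) hB ha hF hy
  simp only [hL] at h1
  rw [h1]
  simp only [h2]

theorem ts_sum {d : ℕ} (c : Fin d → ℝ) (f : Fin d → E n → ℝ) :
    tsupport (fun x => ∑ q, c q * f q x) ⊆ ⋃ q, tsupport (f q) := by
  refine closure_minimal (fun x hx => ?_) (isClosed_iUnion_of_finite fun q => isClosed_tsupport _)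
  rw [Function.mem_support] at hx
  by_contra hn
  simp only [mem_iUnion, not_exists] at hn
  exact hx (Finset.sum_eq_zero fun q _ => by
    rw [image_eq_zero_of_notMem_tsupport (hn q), mul_zero])

theorem cs_sum {d : ℕ} (c : Fin d → ℝ) {f : Fin d → E n → ℝ}
    (hf : ∀ q, HasCompactSupport (f q)) : HasCompactSupport (fun x => ∑ q, c q * f q x) :=
  (isCompact_iUnion fun q => (hf q).isCompact).of_isClosed_subset (isClosed_tsupport _)
    (ts_sum c f)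

/-- The combination of the sections `T`. -/
theorem T_comb {p : M₂} {D : Set (E n)} {X Y : E n → E n}
    {g : E n → Matrix (Fin n) (Fin n) ℝ} {B : Set (E n)} (h : GIn Q p D X Y g B) {j0 : Fin N}
    {s : E n → ℝ} {K : Set (E n)} (hKB : K ⊆ B) {d : ℕ} (c : Fin d → ℝ) {f : Fin d → E n → ℝ}
    {T : Fin d → M₂ → Fib N} (hfc : ∀ q, HasCompactSupport (f q))
    (hfK : ∀ q, tsupport (f q) ⊆ K) (hT : ∀ q, SmS n (T q))
    (hTe : ∀ q, ∀ y ∈ B, T q (thP n p Y y) = (s y * f q y) • eN N j0)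
    (hT0 : ∀ q, ∀ x, x ∉ thP n p Y '' K → T q x = 0) :
    SmS n (∑ q, c q • T q) ∧
      (∀ y ∈ B, (∑ q, c q • T q) (thP n p Y y) = (s y * ∑ q, c q * f q y) • eN N j0) ∧
      (∀ x, x ∉ thP n p Y '' K → (∑ q, c q • T q) x = 0) ∧
      tsupport (∑ q, c q • T q) ⊆ thP n p Y '' tsupport (fun x => ∑ q, c q * f q x) ∧
      ∀ x ∈ (𝓡∂ n).boundary M₂, (∑ q, c q • T q) x = 0 := by
  have h1 : ∀ y ∈ B, (∑ q, c q • T q) (thP n p Y y) =
      (s y * ∑ q, c q * f q y) • eN N j0 := by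
    intro y hy
    rw [Finset.sum_apply, Finset.mul_sum, Finset.sum_smul]
    refine Finset.sum_congr rfl fun q _ => ?_
    rw [Pi.smul_apply, hTe q y hy, smul_smul]
    congr 1
    ring
  have h2 : ∀ x, x ∉ thP n p Y '' K → (∑ q, c q • T q) x = 0 := by
    intro x hx
    rw [Finset.sum_apply]
    exact Finset.sum_eq_zero fun q _ => by rw [Pi.smul_apply, hT0 q x hx, smul_zero]
  refine ⟨(smSub n N M₂).sum_mem fun q _ => (smSub n N M₂).smul_mem _ (hT q), h1, h2,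
    T_supp h hKB ((ts_sum c f).trans (iUnion_subset hfK)) (cs_sum c hfc) h1 h2, fun x hx => ?_⟩
  refine h2 x ?_
  rintro ⟨y, hy, rfl⟩
  have h5 : thP n p Y y ∈ (𝓡∂ n).interior M₂ := h.mem_int (hKB hy)
  rw [← ModelWithCorners.compl_interior] at hx
  exact hx h5

/-- The selection. -/
theorem Set3.sel (h : Set3 P Q G V F p₁ p₂ D₁ D₂ X₁ Y₁ X₂ Y₂ g₁ g₂ b₀ r j0 s₁ s₂)
    {r' : ℝ} (hr' : 0 < r') (hrr : r' < r) {O : Set M₂} (hO : IsOpen O) (hOc : IsPreconnected O)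
    (hOΓ : (O ∩ G.Γ₂).Nonempty) :
    ∃ k : ℝ, 0 ≤ k ∧ ∀ (d : ℕ) (f h₁ h₂ : Fin d → E n → ℝ) (T : Fin d → M₂ → Fib N),
      (∀ q, ContDiff ℝ ∞ (f q)) → (∀ q, HasCompactSupport (f q)) →
      (∀ q, tsupport (f q) ⊆ closedBall b₀ r') → (∀ q, Continuous (h₁ q)) →
      (∀ q, HasCompactSupport (h₁ q)) →
      (∀ q, tsupport (h₁ q) ⊆ {y | y ∈ closedBall b₀ r' ∧ thP n p₂ Y₂ y ∈ O}) →
      (∀ q, Continuous (h₂ q)) → (∀ q, HasCompactSupport (h₂ q)) →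
      (∀ q, ∀ x ∈ ball b₀ r, dvF (sg g₂ s₂) (f q) x = h₁ q x + h₂ q x) →
      (∀ q, SmS n (T q)) →
      (∀ q, ∀ y ∈ ball b₀ r, T q (thP n p₂ Y₂ y) = (s₂ y * f q y) • eN N j0) →
      (∀ q, ∀ x, x ∉ thP n p₂ Y₂ '' closedBall b₀ r' → T q x = 0) → ∀ δ : ℝ, 0 < δ →
      ∃ (u₁ : Fin d → M₁ → Fib N) (u₂ : Fin d → M₂ → Fib N),
        (∀ q, (u₁ q, u₂ q) ∈ TM.PP P Q G) ∧ ∀ c : Fin d → ℝ,
          (FK Q Oᶜ (∑ q, c q • T q - ∑ q, c q • u₂ q)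
            (∑ q, c q • T q - ∑ q, c q • u₂ q)).re ≤
            k * (∫ x, (∑ q, c q * h₂ q x) ^ 2) + δ * ∑ q, c q ^ 2 := by
  have hr : 0 < r := hr'.trans hrr
  obtain ⟨z, hz⟩ := exists_tr b₀ r hr
  have hCB : closedBall b₀ r' ⊆ ball b₀ r := closedBall_subset_ball hrr
  obtain ⟨⟨-, hQ, -⟩, -⟩ := TM.gData n N M₁ M₂ P Q G h.hG h.hS
  obtain ⟨k1, hk1, hrun⟩ := runQ n N M₂ Q G.Γ₂ h.hG.rel₂ h.hG.ne₂ hQ
  obtain ⟨k2, hk2, hfun⟩ := h.h₂.func hr hrr h.hQA hz j0 h.s₂s h.s₂p h.s₂h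
  refine ⟨k1 * k2, by positivity, ?_⟩
  intro d f h₁ h₂ T hf hfc hfD h1c h1k h1s h2c h2k hlap hTs hTe hT0 δ hδ
  let U : Submodule ℝ (smSub n N M₂) :=
    ((ppSub P Q G h.hG h.hS).map (LinearMap.snd ℝ (M₁ → Fib N) (M₂ → Fib N))).comap
      (smSub n N M₂).subtype
  have hUm : ∀ u : smSub n N M₂, u ∈ U ↔ ∃ u₁, (u₁, u.1) ∈ TM.PP P Q G := by
    intro u
    constructor
    · rintro ⟨⟨a, b⟩, hab, he⟩
      have he' : b = u.1 := he
      subst he'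
      exact ⟨a, hab⟩
    · rintro ⟨u₁, hu₁⟩
      exact ⟨(u₁, u.1), hu₁, rfl⟩
  obtain ⟨u, hu, hsel⟩ := select (fkB Q Oᶜ) (fkB_symm Q Oᶜ) (fkB_nonneg Q Oᶜ) U
    (fun q => (⟨T q, hTs q⟩ : smSub n N M₂)) hδ
  choose u₁ hu₁ using fun q => (hUm (u q)).1 (hu q)
  refine ⟨u₁, fun q => (u q).1, hu₁, fun c => ?_⟩
  obtain ⟨t1, t2, -, t4, t5⟩ := T_comb (T := T) h.h₂ hCB c hfc hfD hTs hTe hT0
  have s1 : ContDiff ℝ ∞ fun x => ∑ q, c q * f q x :=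
    ContDiff.sum fun q _ => contDiff_const.mul (hf q)
  have s2 : Continuous fun x => ∑ q, c q * h₁ q x :=
    continuous_finsetSum _ fun q _ => continuous_const.mul (h1c q)
  have s3 : Continuous fun x => ∑ q, c q * h₂ q x :=
    continuous_finsetSum _ fun q _ => continuous_const.mul (h2c q)
  have s4 : tsupport (fun x => ∑ q, c q * h₁ q x) ⊆
      {y | y ∈ closedBall b₀ r' ∧ thP n p₂ Y₂ y ∈ O} := (ts_sum c h₁).trans (iUnion_subset h1s)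
  have s5 : ∀ x ∈ ball b₀ r, dvF (sg g₂ s₂) (fun x => ∑ q, c q * f q x) x =
      (∑ q, c q * h₁ q x) + ∑ q, c q * h₂ q x := by
    intro x hx
    rw [← Finset.sum_add_distrib]
    have e1 : dvF (sg g₂ s₂) (fun x => ∑ q, c q * f q x) x =
        ∑ q, c q * dvF (sg g₂ s₂) (f q) x :=
      dvF_sum isOpen_ball (h.h₂.sg_smooth h.s₂s) c (fun q => (hf q).contDiffOn) hx
    rw [e1]
    exact Finset.sum_congr rfl fun q _ => by rw [hlap q x hx, mul_add]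
  obtain ⟨a, ha, hET⟩ := hfun _ _ _ _ s1 ((ts_sum c f).trans (iUnion_subset hfD)) s2
    (cs_sum c h1k) (fun y hy => (s4 hy).1) s3 (cs_sum c h2k) s5 t1 t2 t4
  have hI0 : 0 ≤ ∫ x, (∑ q, c q * h₂ q x) ^ 2 := integral_nonneg fun x => sq_nonneg _
  have hSc : IsCompact (thP n p₂ Y₂ '' tsupport fun x => ∑ q, c q * h₁ q x) :=
    (cs_sum c h1k).isCompact.image_of_continuousOn
      (h.h₂.contTh.mono fun y hy => hCB (s4 hy).1)
  have hSO : (thP n p₂ Y₂ '' tsupport fun x => ∑ q, c q * h₁ q x) ⊆ O ∩ Mi n M₂ := by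
    rintro _ ⟨y, hy, rfl⟩
    exact ⟨(s4 hy).2, h.h₂.mem_int (hCB (s4 hy).1)⟩
  refine le_of_forall_pos_le_add fun ε hε => ?_
  obtain ⟨w, hw, hwb⟩ := hrun O _ _ a (√(k2 * ∫ x, (∑ q, c q * h₂ q x) ^ 2)) hO hOc hOΓ t1 t5
    hSc hSO ha (Real.sqrt_nonneg _) (fun φ hφ _ => hET φ hφ) ε hε
  rw [Real.sq_sqrt (by positivity)] at hwb
  obtain ⟨w₁, hw₁⟩ := partner h.hG h.hS hw
  have hws : SmS n w := by
    obtain ⟨f₂, -, hf₂⟩ := hw
    exact hf₂.smooth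
  have h6 := hsel c ⟨w, hws⟩ ((hUm ⟨w, hws⟩).2 ⟨w₁, hw₁⟩)
  have e2 : (∑ q, c q • ((⟨T q, hTs q⟩ : smSub n N M₂) - u q) : smSub n N M₂).1 =
      ∑ q, c q • T q - ∑ q, c q • (u q).1 := by
    rw [← Finset.sum_sub_distrib]
    simp only [AddSubmonoidClass.coe_finset_sum, Submodule.coe_smul, AddSubgroupClass.coe_sub,
      smul_sub]
  have e3 : (∑ q, c q • (⟨T q, hTs q⟩ : smSub n N M₂) - ⟨w, hws⟩ : smSub n N M₂).1 =
      ∑ q, c q • T q - w := by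
    simp only [AddSubmonoidClass.coe_finset_sum, Submodule.coe_smul, AddSubgroupClass.coe_sub]
  rw [fkB_apply, fkB_apply, e2, e3] at h6
  linarith

/-- Step 3. -/
theorem Set3.step3 (h : Set3 P Q G V F p₁ p₂ D₁ D₂ X₁ Y₁ X₂ Y₂ g₁ g₂ b₀ r j0 s₁ s₂)
    {r' : ℝ} (hr' : 0 < r') (hrr : r' < r) {O : Set M₂} (hO : IsOpen O) (hOc : IsPreconnected O)
    (hOΓ : (O ∩ G.Γ₂).Nonempty) (hOV : O ⊆ V) {D : Set (E n)} (hD : MeasurableSet D)
    (hDB : D ⊆ ball b₀ r') (hne : ∃ y ∈ ball b₀ r', thP n p₂ Y₂ y ∈ O) :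
    ∃ C₀ : ℝ, 0 ≤ C₀ ∧ ∀ (d : ℕ) (f h₁ h₂ : Fin d → E n → ℝ), (∀ q, ContDiff ℝ ∞ (f q)) →
      (∀ q, HasCompactSupport (f q)) → (∀ q, tsupport (f q) ⊆ D) → (∀ q, Continuous (h₁ q)) →
      (∀ q, HasCompactSupport (h₁ q)) →
      (∀ q, tsupport (h₁ q) ⊆ {y | y ∈ closedBall b₀ r' ∧ thP n p₂ Y₂ y ∈ O}) →
      (∀ q, Continuous (h₂ q)) → (∀ q, HasCompactSupport (h₂ q)) →
      (∀ q, ∀ x ∈ ball b₀ r, dvF (sg g₂ s₂) (f q) x = h₁ q x + h₂ q x) → ∀ ε : ℝ, 0 < ε →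
      ∃ v w : Fin d → E n → ℝ, (∀ q, ContDiffOn ℝ ∞ (v q) (ball b₀ r)) ∧
        (∀ q, ContDiffOn ℝ ∞ (w q) (ball b₀ r)) ∧
        (∀ q, ∀ x ∈ ball b₀ r, dvF (sg g₂ s₂) (v q) x = 0) ∧
        (∀ q, ∀ x ∈ ball b₀ r, dvF (sg g₁ s₁) (fun x => v q x + w q x) x = 0) ∧
        (∀ q, ∀ x ∈ ball b₀ r, thP n p₂ Y₂ x ∈ V → w q x = 0) ∧ ∀ c : Fin d → ℝ,
          (∫ x in ball b₀ r' \ {y | y ∈ ball b₀ r ∧ thP n p₂ Y₂ y ∈ O},
            hd (fun x => ∑ q, c q * (f q x - v q x)) x) ≤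
            C₀ * (∫ x, (∑ q, c q * h₂ q x) ^ 2) + ε * (∑ q, c q ^ 2) ∧
          (∫ x in ball b₀ r', hd (fun x => ∑ q, c q * w q x) x) ≤
            C₀ * ((∫ x in D \ {y | y ∈ ball b₀ r ∧ thP n p₂ Y₂ y ∈ O},
              hd (fun x => ∑ q, c q * f q x) x) + (∫ x, (∑ q, c q * h₂ q x) ^ 2)) +
            ε * (∑ q, c q ^ 2) := by
  have hr : 0 < r := hr'.trans hrr
  obtain ⟨z, hz⟩ := exists_tr b₀ r hr
  have hC : IsCompact (closedBall b₀ r') := isCompact_closedBall _ _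
  have hCB : closedBall b₀ r' ⊆ ball b₀ r := closedBall_subset_ball hrr
  obtain ⟨k, hk, hsel⟩ := h.sel hr' hrr hO hOc hOΓ
  obtain ⟨k3, hk3, hclose⟩ := h.h₂.close h.hQA hz j0 hC hCB h.s₂s h.s₂p
  obtain ⟨k4, hk4, hw⟩ := h.wEst hr' hrr hO hOV hD hDB hne
  refine ⟨(k3 + k4) * k + k4, by positivity, ?_⟩
  intro d f h₁ h₂ hf hfc hfD h1c h1k h1s h2c h2k hlap ε hε
  have hfC : ∀ q, tsupport (f q) ⊆ closedBall b₀ r' := fun q =>
    (hfD q).trans (hDB.trans ball_subset_closedBall)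
  have hT : ∀ q, ∃ T : M₂ → Fib N, SmS n T ∧
      (∀ y ∈ ball b₀ r, T (thP n p₂ Y₂ y) = (s₂ y * f q y) • eN N j0) ∧
      (∀ x, x ∉ thP n p₂ Y₂ '' closedBall b₀ r' → T x = 0) := by
    intro q
    have hfB : tsupport (f q) ⊆ ball b₀ r := (hfC q).trans hCB
    have hbsm : ContDiff ℝ ∞ (fun y => (s₂ y * f q y) • eN N j0) :=
      (mul_smooth isOpen_ball h.s₂s (hf q) hfB).smul contDiff_const
    have hse := supp_mul (N := N) j0 h.s₂p hfB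
    have hbc : HasCompactSupport (fun y => (s₂ y * f q y) • eN N j0) := by
      unfold HasCompactSupport
      rw [hse]
      exact hfc q
    obtain ⟨T, hT, hTe, hT0, -, -⟩ := h.h₂.ext hbsm hbc (by rw [hse]; exact hfB)
    rw [hse] at hT0
    exact ⟨T, hT, hTe, fun x hx => hT0 x fun ⟨y, hy, e⟩ => hx ⟨y, hfC q hy, e⟩⟩
  choose T hTs hTe hT0 using hT
  obtain ⟨δ, hδ, hδ3, hδ4⟩ : ∃ δ : ℝ, 0 < δ ∧ k3 * δ ≤ ε ∧ k4 * δ ≤ ε := by
    refine ⟨ε / (k3 + k4 + 1), by positivity, ?_, ?_⟩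
    · rw [mul_div_assoc', div_le_iff₀ (by positivity)]
      nlinarith
    · rw [mul_div_assoc', div_le_iff₀ (by positivity)]
      nlinarith
  obtain ⟨u₁, u₂, hu, hub⟩ := hsel d f h₁ h₂ T hf hfc hfC h1c h1k h1s h2c h2k hlap hTs hTe
    hT0 δ hδ
  choose f₁ f₂ hf₁₂ hh₁ hh₂ using hu
  have hu' : ∀ q, (u₁ q, u₂ q) ∈ TM.PP P Q G := fun q => ⟨f₁ q, f₂ q, hf₁₂ q, hh₁ q, hh₂ q⟩
  have q2 := fun q => sol_qt (j0 := j0) h.h₂ h.hQA hz h.s₂s h.s₂p h.s₂h (hh₂ q)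
  have q1 := fun q => sol_qt (j0 := j0) h.h₁ h.hPA hz h.s₁s h.s₁p h.s₁h (hh₁ q)
  refine ⟨fun q => qt p₂ Y₂ j0 s₂ (u₂ q),
    fun q y => qt p₁ Y₁ j0 s₁ (u₁ q) y - qt p₂ Y₂ j0 s₂ (u₂ q) y, fun q => (q2 q).1,
    fun q => (q1 q).1.sub (q2 q).1, fun q => (q2 q).2, fun q x hx => ?_, fun q x hx hxV => ?_,
    fun c => ?_⟩
  · have e1 : (fun x => qt p₂ Y₂ j0 s₂ (u₂ q) x + (qt p₁ Y₁ j0 s₁ (u₁ q) x -
        qt p₂ Y₂ j0 s₂ (u₂ q) x)) = qt p₁ Y₁ j0 s₁ (u₁ q) := by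
      funext x
      ring
    show dvF (sg g₁ s₁) (fun x => qt p₂ Y₂ j0 s₂ (u₂ q) x + (qt p₁ Y₁ j0 s₁ (u₁ q) x -
        qt p₂ Y₂ j0 s₂ (u₂ q) x)) x = 0
    rw [e1]
    exact (q1 q).2 x hx
  · show qt p₁ Y₁ j0 s₁ (u₁ q) x - qt p₂ Y₂ j0 s₂ (u₂ q) x = 0
    rw [h.w_zero (hu' q) hx hxV, sub_self]
  · have hpc : (∑ q, c q • u₁ q, ∑ q, c q • u₂ q) ∈ TM.PP P Q G := by
      have h1 := (ppSub P Q G h.hG h.hS).sum_mem (t := Finset.univ)
        (fun q _ => (ppSub P Q G h.hG h.hS).smul_mem (c q) (hu' q))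
      have e : ∑ q, c q • ((u₁ q, u₂ q) : (M₁ → Fib N) × (M₂ → Fib N)) =
          (∑ q, c q • u₁ q, ∑ q, c q • u₂ q) := by
        rw [Prod.ext_iff, Prod.fst_sum, Prod.snd_sum]
        exact ⟨rfl, rfl⟩
      rw [e] at h1
      exact h1
    obtain ⟨t1, t2, -, t4, -⟩ := T_comb (T := T) h.h₂ hCB c hfc hfC hTs hTe hT0
    have s1 : ContDiff ℝ ∞ fun x => ∑ q, c q * f q x :=
      ContDiff.sum fun q _ => contDiff_const.mul (hf q)
    have hu2s : SmS n (∑ q, c q • u₂ q) :=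
      (smSub n N M₂).sum_mem fun q _ => (smSub n N M₂).smul_mem _ (hh₂ q).smooth
    have hb := hub c
    have hfD' : tsupport (fun x => ∑ q, c q * f q x) ⊆ D := (ts_sum c f).trans
      (iUnion_subset hfD)
    have hGo : IsOpen {y | y ∈ ball b₀ r ∧ thP n p₂ Y₂ y ∈ O} :=
      h.h₂.contTh.isOpen_inter_preimage h.h₂.opB hO
    have hSm : MeasurableSet (ball b₀ r' \ {y | y ∈ ball b₀ r ∧ thP n p₂ Y₂ y ∈ O}) :=
      measurableSet_ball.diff hGo.measurableSet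
    have him2 : thP n p₂ Y₂ '' (ball b₀ r' \ {y | y ∈ ball b₀ r ∧ thP n p₂ Y₂ y ∈ O}) ⊆
        Oᶜ := by
      rintro _ ⟨y, hy, rfl⟩ hyO
      exact hy.2 ⟨ball_subset_ball hrr.le hy.1, hyO⟩
    have b1 := hclose _ _ _ _ Oᶜ s1 t1 hu2s hSm (diff_subset.trans ball_subset_closedBall) him2 t2
    have b2 := hw _ _ (∑ q, c q • u₁ q, ∑ q, c q • u₂ q) s1 hfD' t1 t2 t4 hpc
    set I := ∫ x, (∑ q, c q * h₂ q x) ^ 2 with hI
    set S := ∑ q, c q ^ 2 with hS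
    have hI0 : 0 ≤ I := integral_nonneg fun x => sq_nonneg _
    have hS0 : 0 ≤ S := Finset.sum_nonneg fun q _ => sq_nonneg _
    have e3 : (fun x => ∑ q, c q * (f q x - qt p₂ Y₂ j0 s₂ (u₂ q) x)) =
        fun x => (∑ q, c q * f q x) - qt p₂ Y₂ j0 s₂ (∑ q, c q • u₂ q) x := by
      funext x
      rw [qt_sum, ← Finset.sum_sub_distrib]
      exact Finset.sum_congr rfl fun q _ => by ring
    have e4 : (fun x => ∑ q, c q * (qt p₁ Y₁ j0 s₁ (u₁ q) x - qt p₂ Y₂ j0 s₂ (u₂ q) x)) =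
        fun x => qt p₁ Y₁ j0 s₁ (∑ q, c q • u₁ q) x - qt p₂ Y₂ j0 s₂ (∑ q, c q • u₂ q) x := by
      funext x
      rw [qt_sum, qt_sum, ← Finset.sum_sub_distrib]
      exact Finset.sum_congr rfl fun q _ => by ring
    have j1 : k3 * δ * S ≤ ε * S := mul_le_mul_of_nonneg_right hδ3 hS0
    have j2 : k4 * δ * S ≤ ε * S := mul_le_mul_of_nonneg_right hδ4 hS0
    constructor
    · rw [e3]
      refine (b1.trans (mul_le_mul_of_nonneg_left hb hk3)).trans ?_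
      nlinarith [mul_nonneg (mul_nonneg hk4 hk) hI0, mul_nonneg hk4 hI0]
    · rw [e4]
      set J := ∫ x in D \ {y | y ∈ ball b₀ r ∧ thP n p₂ Y₂ y ∈ O},
        hd (fun x => ∑ q, c q * f q x) x with hJ
      have hJ0 : 0 ≤ J := integral_nonneg fun y => hd_nonneg _ _
      refine (b2.trans (mul_le_mul_of_nonneg_left (add_le_add hb le_rfl) hk4)).trans ?_
      nlinarith [mul_nonneg (mul_nonneg hk3 hk) hI0, mul_nonneg hk4 hI0,
        mul_nonneg (mul_nonneg hk3 hk) hJ0, mul_nonneg (mul_nonneg hk4 hk) hJ0]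

end

end Vale.Agent.P088.R2.H338.T3

end
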