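import Vale.Agent.P088.R2.H338.T.I
import Vale.Agent.P088.R2.H710.LX.Step
import Vale.Agent.P088.R2.H935.S.Bridge

/-!
# P088, stage 3, STEP3: the setting of the transfer from the models at a limit point
-/

set_option linter.all false

open Bundle Manifold MeasureTheory Set Filter Topology
open scoped ContDiff Matrix

noncomputable section

namespace Vale.Agent.P088.R2.H338.T3

open Vale.Agent.P088 Vale.Agent.P088.EYM
open Vale.Agent.P088.R2.H338 (thP jm cmp hd)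
open Vale.Agent.P088.R2.H935.Cv (Ho pd_pe pe)
open Vale.Agent.P088.R2.H710 (InM LimM fv mp)
open Vale.Agent.P088.R2.H509.S3 (RM dG fx A0)
open Vale.Agent.P088.R2.H850 (sgE sgE_eq)

universe u

section

variable {n : ℕ} [NeZero n] {D : Set (E n)}

theorem dvF_LE (hD : IsOpen D) {a : Fin n → Fin n → E n → ℝ} {s : E n → Matrix (Fin n) (Fin n) ℝ}
    (h : ∀ x ∈ D, ∀ j k, a j k x = s x j k) (f : E n → ℝ) {x : E n} (hx : x ∈ D) :
    dvF a f x = R2.H935.Cv.LE s f x := by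
  unfold dvF R2.H935.Cv.LE
  refine Finset.sum_congr rfl fun j _ => ?_
  have h1 : (fun y => ∑ k, a j k y • fderiv ℝ f y (ev k)) =ᶠ[𝓝 x]
      fun y => ∑ k, s y j k * pe k f y := by
    filter_upwards [hD.mem_nhds hx] with y hy
    exact Finset.sum_congr rfl fun k _ => by rw [h y hy]; rfl
  rw [h1.fderiv_eq]
  rfl

theorem dG_dvF (hD : IsOpen D) (hH : D ⊆ Ho n) (g : E n → Matrix (Fin n) (Fin n) ℝ) (F : E n → ℝ)
    {x : E n} (hx : x ∈ D) : dG g F x = dvF (gg g) F x := by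
  unfold dG dvF
  refine Finset.sum_congr rfl fun j _ => ?_
  rw [pd_pe (hH hx)]
  unfold pe
  have h1 : fx g F j =ᶠ[𝓝 x] fun y => ∑ k, gg g j k y • fderiv ℝ F y (ev k) := by
    filter_upwards [hD.mem_nhds hx] with y hy
    exact Finset.sum_congr rfl fun k _ => by rw [pd_pe (hH hy)]; rfl
  rw [h1.fderiv_eq]

end

/-- The interior coordinates of a model. -/
theorem gin {n N : ℕ} [NeZero n] {M : Type u} [TopologicalSpace M]
    [ChartedSpace (EuclideanHalfSpace n) M] [IsManifold (𝓡∂ n) ∞ M] [MeasurableSpace M]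
    {P : One n N M} {q : M} {z : E n} {r : ℝ} {j0 : Fin N} {W : Model n N}
    {D : Set (E n)} {Y : E n → E n} {s : Fin N → M → Fib N} {t : Fin n → M → Fib N}
    (h : InM P q z r j0 W D Y s t) (hr : 0 < r) (hz : r ≤ z 0) :
    GIn P q D (Xco j0 (frm n q s) (fun a => lu (𝓡∂ n) q (t a))) Y W.g (Metric.ball z r) := by
  obtain ⟨hHB, hpos⟩ := cClosed_HB (n := n) hz
  have hposb : Metric.ball z r ⊆ {x | 0 < x 0} := hHB ▸ hpos
  have hrel : RelOpen (HB z r) := cClosed_relOpen_HB z r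
  have hd := h.pull.diffeo
  have hDp : D ⊆ Ho n := by
    intro y hy
    have h1 := bIntr n (HB z r) D Y _ hrel h.rel
      ⟨hd.mapsY, hd.mapsX, hd.inv2, hd.inv1, hd.smY, hd.smX⟩ _ (hd.mapsX hy) (hpos (hd.mapsX hy))
    rw [hd.inv1 y hy] at h1
    exact h1
  have hDo : IsOpen D := R2.H935.Cv.open_of h.rel hDp
  have hs := bSymm n N (P.loc q) W.toLD D (HB z r) _ Y (frm n q s) h.rel hrel h.pull
  rw [hHB] at hd hs
  exact {
    opD := hDo
    sub := h.sub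
    opB := Metric.isOpen_ball
    mapsX := hd.mapsX
    mapsY := hd.mapsY
    inv1 := hd.inv1
    inv2 := hd.inv2
    smX := hd.smX
    smY := hd.smY
    met := fun y hy => by
      have h1 := hs.g_eq y hy
      rw [jac_jm (hposb hy) ((hd.smY.contDiffAt (Metric.isOpen_ball.mem_nhds hy)).differentiableAt
        (by simp)).hasFDerivAt] at h1
      exact h1 }

section

variable {n : ℕ} [NeZero n] {M₁ M₂ : Type u}
  [TopologicalSpace M₁] [ChartedSpace (EuclideanHalfSpace n) M₁] [IsManifold (𝓡∂ n) ∞ M₁]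
  [T2Space M₁] [CompactSpace M₁] [ConnectedSpace M₁] [MeasurableSpace M₁] [BorelSpace M₁]
  [TopologicalSpace M₂] [ChartedSpace (EuclideanHalfSpace n) M₂] [IsManifold (𝓡∂ n) ∞ M₂]
  [T2Space M₂] [CompactSpace M₂] [ConnectedSpace M₂] [MeasurableSpace M₂] [BorelSpace M₂]
  {P : One n 1 M₁} {Q : One n 1 M₂} {G : TM.Gl M₁ M₂} {V : Set M₂} {F : M₂ → M₁}
  {H : M₂ → EndF 1} {x : M₂} {x' : M₁} {s : Fin 1 → (M₁ → Fib 1) × (M₂ → Fib 1)}
  {t : Fin n → (M₁ → Fib 1) × (M₂ → Fib 1)} {z : E n} {r : ℝ} {W₁ W₂ : Model n 1}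
  {D₁ D₂ : Set (E n)} {Y₁ Y₂ : E n → E n}

/-- The setting of the transfer. -/
theorem set3_of_limM {X₁ X₂ : E n → E n} (hA : A0 P.A) (hA' : A0 Q.A) (hG : G.Ok n 1)
    (hS : TM.SameD P Q G) (oV : IsOpen V) (cV : IsPreconnected V) (nV : (V ∩ G.Γ₂).Nonempty)
    (hm : TM.WMatch P Q G V F H) (h : LimM P Q G V F x x' 0 s t z r W₁ W₂ D₁ D₂ Y₁ Y₂)
    (i₁ : GIn P x' D₁ X₁ Y₁ W₁.g (Metric.ball z r)) (i₂ : GIn Q x D₂ X₂ Y₂ W₂.g (Metric.ball z r)) :
    Set3 P Q G V F x' x D₁ D₂ X₁ Y₁ X₂ Y₂ W₁.g W₂.g z r (0 : Fin 1)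
      (fun y => √(fv x' (fun j => (s j).1) (Y₁ y) ^ 2))
      (fun y => √(fv x (fun j => (s j).2) (Y₂ y) ^ 2)) := by
  obtain ⟨hHB, hpos⟩ := h.hb
  have hsm₁ : ∀ j, SmS n (s j).1 := fun j => by
    obtain ⟨f, f', -, h, -⟩ := h.ms j
    exact h.smooth
  have hsm₂ : ∀ j, SmS n (s j).2 := fun j => by
    obtain ⟨f, f', -, -, h⟩ := h.ms j
    exact h.smooth
  have hR₁ := h.i₁.rm hA hsm₁ h.rs₁ h.rt₁
  have hR₂ := h.i₂.rm hA' hsm₂ h.rs₂ h.rt₂
  rw [hHB] at hR₁ hR₂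
  have hPA : ∀ x X, P.A.form x X = 0 := hA
  have hQA : ∀ x X, Q.A.form x X = 0 := hA'
  refine {
    hG := hG
    hS := hS
    hPA := hPA
    hQA := hQA
    hm := ⟨H, hm⟩
    oV := oV
    cV := cV
    nV := nV
    h₁ := i₁
    h₂ := i₂
    c₁ := fun y hy hyV => h.F y hy hyV
    c₂ := fun y hy m hmV e => (h.off y hy m hmV.1 e).symm
    s₁s := hR₁.sm
    s₂s := hR₂.sm
    s₁p := hR₁.pos
    s₂p := hR₂.pos
    s₁h := fun y hy => ?_
    s₂h := fun y hy => ?_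
    sV := fun y hy hyV => ?_ }
  · rw [← dG_dvF Metric.isOpen_ball hpos W₁.g _ hy]
    exact hR₁.dG_rho hy
  · rw [← dG_dvF Metric.isOpen_ball hpos W₂.g _ hy]
    exact hR₂.dG_rho hy
  · have h1 := wm_one hPA hQA hm oV cV nV _ hyV
    have h2 := hm.sol (s 0) (h.ms 0) _ hyV
    rw [h1] at h2
    have h3 : F (thP n x Y₂ y) = thP n x' Y₁ y := h.F y hy hyV
    rw [h3] at h2
    have h4 : (s 0).2 ((xc n x).symm (Y₂ y)) = (s 0).1 ((xc n x').symm (Y₁ y)) := h2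
    have h5 : fv x' (fun j => (s j).1) (Y₁ y) = fv x (fun j => (s j).2) (Y₂ y) := by
      show (((s 0).1 ((xc n x').symm (Y₁ y))) 0).re = (((s 0).2 ((xc n x).symm (Y₂ y))) 0).re
      rw [h4]
    show √(fv x' (fun j => (s j).1) (Y₁ y) ^ 2) = √(fv x (fun j => (s j).2) (Y₂ y) ^ 2)
    rw [h5]

end

end Vale.Agent.P088.R2.H338.T3
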