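import Vale.Agent.P088.R2.H338.T.J
import Vale.Agent.P088.R2.H935.S.Asm3

/-!
# P088, stage 3, STEP3: the row ST3i
-/

set_option linter.all false

open Bundle Manifold MeasureTheory Set Filter Topology
open scoped ContDiff Matrix

noncomputable section

namespace Vale.Agent.P088.R2.H338.T3

open Vale.Agent.P088 Vale.Agent.P088.EYM
open Vale.Agent.P088.R2.H31 (dj)
open Vale.Agent.P088.R2.H338 (thP jm cmp hd)
open Vale.Agent.P088.R2.H935.Cv (Ho pd_pe pe Out3 asm sgE_sm sgE_symm)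
open Vale.Agent.P088.R2.H710 (InM LimM fv mp RowST3I)
open Vale.Agent.P088.R2.H509.S3 (RM A0)
open Vale.Agent.P088.R2.H850 (sgE sgE_eq)

universe u

section

variable {n : ℕ} [NeZero n]

theorem hd_sum {d : ℕ} {x : E n} (c : Fin d → ℝ) {f : Fin d → E n → ℝ}
    (hf : ∀ q, DifferentiableAt ℝ (f q) x) :
    hd (fun x => ∑ q, c q * f q x) x =
      (∑ q, c q * f q x) ^ 2 + ∑ i, (∑ q, c q * pe i (f q) x) ^ 2 := by
  unfold hd dj pe
  have h1 : fderiv ℝ (fun x => ∑ q, c q * f q x) x = ∑ q, c q • fderiv ℝ (f q) x := by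
    rw [fderiv_fun_sum fun q _ => (hf q).const_mul (c q)]
    exact Finset.sum_congr rfl fun q _ => fderiv_const_mul (hf q) (c q)
  rw [h1]
  congr 1
  refine Finset.sum_congr rfl fun i _ => ?_
  rw [ContinuousLinearMap.sum_apply]
  rfl

theorem hd_sum_sub {d : ℕ} {x : E n} (c : Fin d → ℝ) {f v : Fin d → E n → ℝ}
    (hf : ∀ q, DifferentiableAt ℝ (f q) x) (hv : ∀ q, DifferentiableAt ℝ (v q) x) :
    hd (fun x => ∑ q, c q * (f q x - v q x)) x =
      (∑ q, c q * (f q x - v q x)) ^ 2 +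
        ∑ i, (∑ q, c q * (pe i (f q) x - pe i (v q) x)) ^ 2 := by
  rw [hd_sum c (f := fun q x => f q x - v q x) fun q => (hf q).sub (hv q)]
  congr 1
  refine Finset.sum_congr rfl fun i _ => ?_
  congr 1
  refine Finset.sum_congr rfl fun q _ => ?_
  congr 1
  unfold pe
  rw [fderiv_fun_sub (hf q) (hv q)]
  rfl

/-- a smaller concentric ball -/
theorem shrink {z y₀ : E n} {r R : ℝ} (hR : 0 < R) (hr : 0 < r)
    (hs : Metric.closedBall y₀ R ⊆ Metric.ball z r) :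
    ∃ r', 0 < r' ∧ r' < r ∧ Metric.closedBall y₀ R ⊆ Metric.ball z r' := by
  obtain ⟨m, hm, hmax⟩ := (isCompact_closedBall y₀ R).exists_isMaxOn
    ⟨y₀, Metric.mem_closedBall_self hR.le⟩
    (continuous_id.dist continuous_const : Continuous fun y : E n => dist y z).continuousOn
  have h1 : dist m z < r := hs hm
  have h2 : 0 ≤ dist m z := dist_nonneg
  refine ⟨(dist m z + r) / 2, by linarith, by linarith, fun y hy => ?_⟩
  have h3 : dist y z ≤ dist m z := hmax hy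
  rw [Metric.mem_ball]
  linarith

end

/-- The output of the transfer in divergence form. -/
theorem out3_of {n : ℕ} [NeZero n] {z : E n} {r r' : ℝ} (hrr : r' < r) {D G : Set (E n)}
    (hD : D ⊆ Metric.ball z r) (hDm : MeasurableSet D) (hG : MeasurableSet G)
    (hGs : G ⊆ Metric.ball z r)
    {a₁ a₂ : Fin n → Fin n → E n → ℝ} {s₁ s₂ : E n → Matrix (Fin n) (Fin n) ℝ}
    (h1 : ∀ x ∈ Metric.ball z r, ∀ j k, a₁ j k x = s₁ x j k)
    (h2 : ∀ x ∈ Metric.ball z r, ∀ j k, a₂ j k x = s₂ x j k)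
    (h : ∃ C₀ : ℝ, 0 ≤ C₀ ∧ ∀ (d : ℕ) (f h₁ h₂ : Fin d → E n → ℝ), (∀ q, ContDiff ℝ ∞ (f q)) →
      (∀ q, HasCompactSupport (f q)) → (∀ q, tsupport (f q) ⊆ D) → (∀ q, Continuous (h₁ q)) →
      (∀ q, HasCompactSupport (h₁ q)) →
      (∀ q, tsupport (h₁ q) ⊆ Metric.closedBall z r' ∩ G) →
      (∀ q, Continuous (h₂ q)) → (∀ q, HasCompactSupport (h₂ q)) →
      (∀ q, ∀ x ∈ Metric.ball z r, dvF a₁ (f q) x = h₁ q x + h₂ q x) → ∀ ε : ℝ, 0 < ε →
      ∃ v w : Fin d → E n → ℝ, (∀ q, ContDiffOn ℝ ∞ (v q) (Metric.ball z r)) ∧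
        (∀ q, ContDiffOn ℝ ∞ (w q) (Metric.ball z r)) ∧
        (∀ q, ∀ x ∈ Metric.ball z r, dvF a₁ (v q) x = 0) ∧
        (∀ q, ∀ x ∈ Metric.ball z r, dvF a₂ (fun x => v q x + w q x) x = 0) ∧
        (∀ q, ∀ x ∈ G, w q x = 0) ∧ ∀ c : Fin d → ℝ,
          (∫ x in Metric.ball z r' \ G, hd (fun x => ∑ q, c q * (f q x - v q x)) x) ≤
            C₀ * (∫ x, (∑ q, c q * h₂ q x) ^ 2) + ε * (∑ q, c q ^ 2) ∧
          (∫ x in Metric.ball z r', hd (fun x => ∑ q, c q * w q x) x) ≤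
            C₀ * ((∫ x in D \ G, hd (fun x => ∑ q, c q * f q x) x) +
              (∫ x, (∑ q, c q * h₂ q x) ^ 2)) + ε * (∑ q, c q ^ 2)) :
    Out3 z r r' D G s₁ s₂ := by
  obtain ⟨C₀, hC₀, h⟩ := h
  refine ⟨C₀, hC₀, ?_⟩
  intro d f h₁ h₂ hf hfc hfD h1c h1k h1s h2c h2k hlap ε hε
  obtain ⟨v, w, hv, hw, hv0, hw0, hwG, hb⟩ := h d f h₁ h₂ hf hfc hfD h1c h1k h1s h2c h2k
    (fun q x hx => by rw [dvF_LE Metric.isOpen_ball h1 (f q) hx]; exact hlap q x hx) ε hε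
  refine ⟨v, w, hv, hw, fun q x hx => ?_, fun q x hx => ?_, hwG, fun c => ?_⟩
  · rw [← dvF_LE Metric.isOpen_ball h1 (v q) hx]
    exact hv0 q x hx
  · rw [← dvF_LE Metric.isOpen_ball h2 (fun x => v q x + w q x) hx]
    exact hw0 q x hx
  · obtain ⟨b1, b2⟩ := hb c
    have hbb : Metric.ball z r' ⊆ Metric.ball z r := Metric.ball_subset_ball hrr.le
    have dv : ∀ q, ∀ x ∈ Metric.ball z r, DifferentiableAt ℝ (v q) x := fun q x hx =>
      ((hv q).contDiffAt (Metric.isOpen_ball.mem_nhds hx)).differentiableAt (by simp)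
    have dw : ∀ q, ∀ x ∈ Metric.ball z r, DifferentiableAt ℝ (w q) x := fun q x hx =>
      ((hw q).contDiffAt (Metric.isOpen_ball.mem_nhds hx)).differentiableAt (by simp)
    have df : ∀ q x, DifferentiableAt ℝ (f q) x := fun q x =>
      ((hf q).differentiable (by simp)) x
    have e1 : (∫ x in Metric.ball z r' \ G, ((∑ q, c q * (f q x - v q x)) ^ 2 +
          ∑ i, (∑ q, c q * (pe i (f q) x - pe i (v q) x)) ^ 2)) =
        ∫ x in Metric.ball z r' \ G, hd (fun x => ∑ q, c q * (f q x - v q x)) x :=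
      setIntegral_congr_fun (measurableSet_ball.diff hG) fun x hx =>
        (hd_sum_sub c (fun q => df q x) fun q => dv q x (hbb hx.1)).symm
    have e2 : (∫ x in Metric.ball z r', ((∑ q, c q * w q x) ^ 2 +
          ∑ i, (∑ q, c q * pe i (w q) x) ^ 2)) =
        ∫ x in Metric.ball z r', hd (fun x => ∑ q, c q * w q x) x :=
      setIntegral_congr_fun measurableSet_ball fun x hx =>
        (hd_sum c fun q => dw q x (hbb hx)).symm
    have e3 : (∫ x in D \ G, ((∑ q, c q * f q x) ^ 2 + ∑ i, (∑ q, c q * pe i (f q) x) ^ 2)) =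
        ∫ x in D \ G, hd (fun x => ∑ q, c q * f q x) x :=
      setIntegral_congr_fun (hDm.diff hG) fun x hx => (hd_sum c fun q => df q x).symm
    rw [e1, e2, e3]
    exact ⟨b1, b2⟩

/-- **Row ST3i.** -/
theorem rowST3I : RowST3I.{u} := by
  intro n _ M₁ M₂ _ _ _ _ _ _ _ _ _ _ _ _ _ _ _ _ P Q G hn hA hA' hG hS V F H hV hVc hVΓ hm x x'
    s t z r W₁ W₂ D₁ D₂ Y₁ Y₂ hL y₀ R hR hsub
  obtain ⟨hHB, hpos⟩ := hL.hb
  have i₁ := gin hL.i₁ hL.r0 hL.rz
  have i₂ := gin hL.i₂ hL.r0 hL.rz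
  have h3 := set3_of_limM hA hA' hG hS hV hVc hVΓ hm hL i₁ i₂
  obtain ⟨r', hr', hrr, hs'⟩ := shrink hR hL.r0 hsub
  have hsm₁ : ∀ j, SmS n (s j).1 := fun j => by
    obtain ⟨f, f', -, h, -⟩ := hL.ms j
    exact h.smooth
  have hsm₂ : ∀ j, SmS n (s j).2 := fun j => by
    obtain ⟨f, f', -, -, h⟩ := hL.ms j
    exact h.smooth
  have hR₁ := hL.i₁.rm hA hsm₁ hL.rs₁ hL.rt₁
  have hR₂ := hL.i₂.rm hA' hsm₂ hL.rs₂ hL.rt₂
  rw [hHB] at hR₁ hR₂
  have hne : ∃ y ∈ Metric.ball z r', thP n x Y₂ y ∈ V := by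
    obtain ⟨y, hy1, hy2⟩ := mem_closure_iff_nhds.1 (hL.mp_closure hL.cl) _
      (Metric.ball_mem_nhds z hr')
    exact ⟨y, hy1, hy2.2⟩
  have hbs : Metric.ball y₀ R ⊆ Metric.ball z r' := Metric.ball_subset_closedBall.trans hs'
  have h4 := h3.step3 hr' hrr hV hVc hVΓ subset_rfl (D := Metric.ball y₀ R) measurableSet_ball
    hbs hne
  have hGo : IsOpen {y ∈ Metric.ball z r | (xc n x).symm (Y₂ y) ∈ V} := hL.mp_open hV
  have hout : Out3 z r r' (Metric.ball y₀ R) {y ∈ Metric.ball z r | (xc n x).symm (Y₂ y) ∈ V}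
      (sgE W₂.toLD) (sgE W₁.toLD) := by
    refine out3_of hrr (hbs.trans (Metric.ball_subset_ball hrr.le)) measurableSet_ball
      hGo.measurableSet (fun y hy => hy.1) (fun y hy j k => (sgE_eq hR₂ hy j k).symm)
      (fun y hy j k => (sgE_eq hR₁ hy j k).symm) ?_
    obtain ⟨C₀, hC₀, h5⟩ := h4
    refine ⟨C₀, hC₀, ?_⟩
    intro d f h₁ h₂ hf hfc hfD h1c h1k h1s h2c h2k hlap ε hε
    obtain ⟨v, w, hv, hw, hv0, hw0, hwG, hb⟩ := h5 d f h₁ h₂ hf hfc hfD h1c h1k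
      (fun q y hy => ⟨(h1s q hy).1, (h1s q hy).2.2⟩) h2c h2k hlap ε hε
    exact ⟨v, w, hv, hw, hv0, hw0, fun q y hy => hwG q y hy.1 hy.2, hb⟩
  exact asm hr' hrr hR hs' hGo (fun y hy => hy.1) (fun i j => sgE_sm hR₂ i j)
    (fun i j => sgE_sm hR₁ i j) (fun y hy => sgE_symm hR₂ hy) (fun y hy => sgE_symm hR₁ hy)
    (fun y hy => by
      unfold sgE
      rw [hL.eq.g y hy, hL.eq.h y hy]) hout

end Vale.Agent.P088.R2.H338.T3
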